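import Vale.Agent.P147.Defs

namespace Vale.Agent.P147

open MeasureTheory Filter Topology
open scoped ENNReal

namespace AbsX

variable {Λ E : Type} [AddCommGroup Λ]

open Classical in
/-- free operator -/
noncomputable def Pr (V : E → ℝ≥0∞) (ζ : E → Λ) (φ : Λ → ℝ≥0∞) (z : Λ) : ℝ≥0∞ :=
  ∑' c, V c * φ (z + ζ c)

theorem Tr_mono (V : E → ℝ≥0∞) (ζ : E → Λ) (hit : E → Λ → Prop) {φ ψ : Λ → ℝ≥0∞}
    (h : φ ≤ ψ) : Tr V ζ hit φ ≤ Tr V ζ hit ψ := by
  classical
  intro z
  unfold Tr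
  refine ENNReal.tsum_le_tsum fun c => ?_
  refine mul_le_mul_right ?_ _
  split_ifs
  · exact le_rfl
  · exact h _

theorem Tr_le_Pr (V : E → ℝ≥0∞) (ζ : E → Λ) (hit : E → Λ → Prop) (φ : Λ → ℝ≥0∞) :
    Tr V ζ hit φ ≤ Pr V ζ φ := by
  classical
  intro z
  unfold Tr Pr
  refine ENNReal.tsum_le_tsum fun c => ?_
  refine mul_le_mul_right ?_ _
  split_ifs
  · exact bot_le
  · exact le_rfl

theorem Pr_mono (V : E → ℝ≥0∞) (ζ : E → Λ) {φ ψ : Λ → ℝ≥0∞}
    (h : φ ≤ ψ) : Pr V ζ φ ≤ Pr V ζ ψ := by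
  intro z
  exact ENNReal.tsum_le_tsum fun c => mul_le_mul_right (h _) _

theorem Tr_add (V : E → ℝ≥0∞) (ζ : E → Λ) (hit : E → Λ → Prop) (φ ψ : Λ → ℝ≥0∞) :
    Tr V ζ hit (φ + ψ) = Tr V ζ hit φ + Tr V ζ hit ψ := by
  classical
  funext z
  simp only [Tr, Pi.add_apply]
  rw [← ENNReal.tsum_add]
  refine tsum_congr fun c => ?_
  split_ifs
  · simp
  · rw [mul_add]

theorem Tr_smul (V : E → ℝ≥0∞) (ζ : E → Λ) (hit : E → Λ → Prop) (A : ℝ≥0∞) (φ : Λ → ℝ≥0∞) :
    Tr V ζ hit (fun z => A * φ z) = fun z => A * Tr V ζ hit φ z := by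
  classical
  funext z
  simp only [Tr]
  rw [← ENNReal.tsum_mul_left]
  refine tsum_congr fun c => ?_
  split_ifs
  · simp
  · ring

theorem iter_mono (V : E → ℝ≥0∞) (ζ : E → Λ) (hit : E → Λ → Prop) (k : ℕ) {φ ψ : Λ → ℝ≥0∞}
    (h : φ ≤ ψ) : (Tr V ζ hit)^[k] φ ≤ (Tr V ζ hit)^[k] ψ := by
  induction k with
  | zero => exact h
  | succ k ih =>
    rw [Function.iterate_succ_apply', Function.iterate_succ_apply']
    exact Tr_mono V ζ hit ih

theorem iter_add (V : E → ℝ≥0∞) (ζ : E → Λ) (hit : E → Λ → Prop) (k : ℕ) (φ ψ : Λ → ℝ≥0∞) :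
    (Tr V ζ hit)^[k] (φ + ψ) = (Tr V ζ hit)^[k] φ + (Tr V ζ hit)^[k] ψ := by
  induction k with
  | zero => rfl
  | succ k ih =>
    rw [Function.iterate_succ_apply', Function.iterate_succ_apply', Function.iterate_succ_apply',
      ih, Tr_add]

theorem iter_smul (V : E → ℝ≥0∞) (ζ : E → Λ) (hit : E → Λ → Prop) (k : ℕ) (A : ℝ≥0∞)
    (φ : Λ → ℝ≥0∞) :
    (Tr V ζ hit)^[k] (fun z => A * φ z) = fun z => A * (Tr V ζ hit)^[k] φ z := by
  induction k with
  | zero => rfl
  | succ k ih =>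
    rw [Function.iterate_succ_apply', Function.iterate_succ_apply', ih, Tr_smul]

theorem iter_le_Pr (V : E → ℝ≥0∞) (ζ : E → Λ) (hit : E → Λ → Prop) (k : ℕ) (φ : Λ → ℝ≥0∞) :
    (Tr V ζ hit)^[k] φ ≤ (Pr V ζ)^[k] φ := by
  induction k with
  | zero => exact le_rfl
  | succ k ih =>
    rw [Function.iterate_succ_apply', Function.iterate_succ_apply']
    exact (Tr_le_Pr V ζ hit _).trans (Pr_mono V ζ ih)

theorem Pr_iter (V : E → ℝ≥0∞) (ζ : E → Λ) (k : ℕ) (φ : Λ → ℝ≥0∞) (z : Λ) :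
    (Pr V ζ)^[k] φ z = ∑' x, cv V ζ k x * φ (z + x) := by
  classical
  induction k generalizing z with
  | zero =>
    simp only [Function.iterate_zero, id_eq, cv]
    rw [tsum_eq_single 0]
    · simp
    · intro x hx
      simp [hx]
  | succ k ih =>
    rw [Function.iterate_succ_apply']
    unfold Pr at ih ⊢
    have h1 : ∀ c, V c * (fun φ z => ∑' (c : E), V c * φ (z + ζ c))^[k] φ (z + ζ c) =
        ∑' y, V c * (cv V ζ k (y - ζ c) * φ (z + y)) := by
      intro c
      rw [ih, ENNReal.tsum_mul_left]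
      congr 1
      rw [← (Equiv.subRight (ζ c)).tsum_eq]
      refine tsum_congr fun y => ?_
      simp only [Equiv.subRight_apply]
      congr 2
      abel
    rw [tsum_congr h1, ENNReal.tsum_comm]
    refine tsum_congr fun y => ?_
    simp only [cv]
    rw [← ENNReal.tsum_mul_right]
    refine tsum_congr fun c => ?_
    ring

/-- count-measure dominated convergence for decreasing families -/
theorem tsum_anti {ι : Type} [Countable ι] (F : ℕ → ι → ℝ≥0∞) (hanti : ∀ i, Antitone fun N => F N i)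
    (h0 : ∑' i, F 0 i ≠ ⊤) (hlim : ∀ i, Tendsto (fun N => F N i) atTop (𝓝 0)) :
    Tendsto (fun N => ∑' i, F N i) atTop (𝓝 0) := by
  letI : MeasurableSpace ι := ⊤
  haveI : MeasurableSingletonClass ι := ⟨fun _ => trivial⟩
  have h := lintegral_tendsto_of_tendsto_of_antitone (μ := Measure.count) (f := F)
    (F := fun _ => 0) (fun n => Measurable.aemeasurable (fun _ _ => trivial))
    (Filter.Eventually.of_forall hanti) (by rwa [lintegral_count])
    (Filter.Eventually.of_forall hlim)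
  simpa [lintegral_count] using h

section main

variable (V : E → ℝ≥0∞) (ζ : E → Λ) (hit : E → Λ → Prop)

/-- survival function -/
noncomputable def f (N : ℕ) : Λ → ℝ≥0∞ := (Tr V ζ hit)^[N] (fun _ => 1)

/-- complement -/
noncomputable def g (N : ℕ) (z : Λ) : ℝ≥0∞ := 1 - f V ζ hit N z

variable (hV : ∑' c, V c = 1)

theorem f_succ (N : ℕ) : f V ζ hit (N + 1) = Tr V ζ hit (f V ζ hit N) :=
  Function.iterate_succ_apply' _ _ _

include hV in
theorem Tr_one_le : Tr V ζ hit (fun _ => 1) ≤ fun _ => 1 := by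
  classical
  intro z
  refine (Tr_le_Pr V ζ hit _ z).trans ?_
  unfold Pr
  simp [hV]

include hV in
theorem f_le_one (N : ℕ) (z : Λ) : f V ζ hit N z ≤ 1 := by
  induction N generalizing z with
  | zero => exact le_rfl
  | succ N ih =>
    rw [f_succ]
    exact (Tr_mono V ζ hit (fun z => ih z) z).trans (Tr_one_le V ζ hit hV z)

include hV in
theorem f_anti (z : Λ) : Antitone fun N => f V ζ hit N z := by
  refine antitone_nat_of_succ_le fun N => ?_
  have : f V ζ hit (N + 1) = (Tr V ζ hit)^[N] (Tr V ζ hit fun _ => 1) := by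
    unfold f
    rw [Function.iterate_succ_apply]
  rw [this]
  exact iter_mono V ζ hit N (Tr_one_le V ζ hit hV) z

include hV in
theorem f_add_g (N : ℕ) (z : Λ) : f V ζ hit N z + g V ζ hit N z = 1 :=
  add_tsub_cancel_of_le (f_le_one V ζ hit hV N z)

include hV in
theorem g_succ (N : ℕ) (z : Λ) : g V ζ hit (N + 1) z =
    (∑' c, V c * g V ζ hit N (z + ζ c)) +
      (open Classical in ∑' c, if hit c z then V c * f V ζ hit N (z + ζ c) else 0) := by
  classical
  have h1 : f V ζ hit (N + 1) z + ((∑' c, V c * g V ζ hit N (z + ζ c)) +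
      ∑' c, if hit c z then V c * f V ζ hit N (z + ζ c) else 0) = 1 := by
    rw [f_succ]
    unfold Tr
    rw [← ENNReal.tsum_add, ← ENNReal.tsum_add, ← hV]
    refine tsum_congr fun c => ?_
    have h2 := f_add_g V ζ hit hV N (z + ζ c)
    by_cases h : hit c z
    · simp only [h, if_true, mul_zero, zero_add]
      rw [← mul_add, add_comm, h2, mul_one]
    · simp only [h, if_false, add_zero]
      rw [← mul_add, h2, mul_one]
  have h3 := f_add_g V ζ hit hV (N + 1) z
  have h4 : f V ζ hit (N + 1) z ≠ ⊤ :=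
    ne_top_of_le_ne_top ENNReal.one_ne_top (f_le_one V ζ hit hV _ _)
  exact (ENNReal.add_right_inj h4).1 (h3.trans h1.symm)

/-- total deficit -/
noncomputable def K (N : ℕ) : ℝ≥0∞ := ∑' z, g V ζ hit N z

open Classical in
/-- increment -/
noncomputable def D (N : ℕ) : ℝ≥0∞ :=
  ∑' z, ∑' c, if hit c z then V c * f V ζ hit N (z + ζ c) else 0

include hV in
theorem K_succ (N : ℕ) : K V ζ hit (N + 1) = K V ζ hit N + D V ζ hit N := by
  classical
  unfold K D
  rw [tsum_congr (g_succ V ζ hit hV N), ENNReal.tsum_add]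
  congr 1
  rw [ENNReal.tsum_comm]
  have h : ∀ c, ∑' z, V c * g V ζ hit N (z + ζ c) = V c * ∑' z, g V ζ hit N z := by
    intro c
    rw [ENNReal.tsum_mul_left]
    congr 1
    exact (Equiv.addRight (ζ c)).tsum_eq (fun z => g V ζ hit N z)
  rw [tsum_congr h, ENNReal.tsum_mul_right, hV, one_mul]

theorem K_zero : K V ζ hit 0 = 0 := by
  simp [K, g, f]

include hV in
theorem drop (C : ℝ≥0∞) (hC : ∀ k x, cv V ζ k x * (k + 1) ≤ C) (m : ℕ) (z : Λ) :
    f V ζ hit (2 * m) z ≤ f V ζ hit (4 * m) z +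
      C / (m + 1) * K V ζ hit (2 * m) * f V ζ hit m z := by
  have h1 : (fun _ : Λ => (1 : ℝ≥0∞)) = f V ζ hit (2 * m) + g V ζ hit (2 * m) := by
    funext w
    exact (f_add_g V ζ hit hV (2 * m) w).symm
  have h2 : f V ζ hit (2 * m) = (Tr V ζ hit)^[2 * m] (f V ζ hit (2 * m)) +
      (Tr V ζ hit)^[2 * m] (g V ζ hit (2 * m)) := by
    conv_lhs => unfold f
    rw [h1, iter_add]
  have h3 : (Tr V ζ hit)^[2 * m] (f V ζ hit (2 * m)) = f V ζ hit (4 * m) := by
    unfold f
    rw [← Function.iterate_add_apply]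
    congr 2
    ring
  have h4 : (Tr V ζ hit)^[2 * m] (g V ζ hit (2 * m)) ≤
      fun z => C / (m + 1) * K V ζ hit (2 * m) * f V ζ hit m z := by
    have h5 : (Tr V ζ hit)^[m] (g V ζ hit (2 * m)) ≤
        fun _ => C / (m + 1) * K V ζ hit (2 * m) * 1 := by
      intro w
      refine (iter_le_Pr V ζ hit m _ w).trans ?_
      rw [Pr_iter, mul_one]
      have h6 : ∀ x, cv V ζ m x * g V ζ hit (2 * m) (w + x) ≤
          C / (m + 1) * g V ζ hit (2 * m) (w + x) := by
        intro x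
        refine mul_le_mul_left ?_ _
        rw [ENNReal.le_div_iff_mul_le (Or.inl (by positivity))
          (Or.inl (by exact ENNReal.add_ne_top.2 ⟨ENNReal.natCast_ne_top _, ENNReal.one_ne_top⟩))]
        exact hC m x
      refine (ENNReal.tsum_le_tsum h6).trans ?_
      rw [ENNReal.tsum_mul_left]
      unfold K
      exact le_of_eq (congrArg _ ((Equiv.addLeft w).tsum_eq (fun x => g V ζ hit (2 * m) x)))
    have h7 : (Tr V ζ hit)^[2 * m] (g V ζ hit (2 * m)) =
        (Tr V ζ hit)^[m] ((Tr V ζ hit)^[m] (g V ζ hit (2 * m))) := by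
      rw [← Function.iterate_add_apply]
      congr 2
      ring
    rw [h7]
    refine (iter_mono V ζ hit m h5).trans ?_
    rw [iter_smul V ζ hit m (C / (m + 1) * K V ζ hit (2 * m)) (fun _ => 1)]
    exact le_rfl
  conv_lhs => rw [h2, h3]
  exact add_le_add_right (h4 z) _

/-- real sequence lemma -/
theorem seq_lemma (a : ℕ → ℝ) (i0 : ℕ) (h0 : ∀ i, 0 ≤ a i) (h1 : a i0 ≤ 1)
    (h2 : 1 / 2 ≤ a (i0 + 1)) (h3 : ∀ i, i0 ≤ i → a (i + 1) ≤ a (i + 2) + 1 / 8 * a i) :
    ∀ i, 1 / 2 * (3 / 4 : ℝ) ^ i ≤ a (i0 + 1 + i) ∧ 1 / 2 * a (i0 + i) ≤ a (i0 + 1 + i) := by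
  intro i
  induction i with
  | zero =>
    constructor
    · simpa using h2
    · have : a (i0 + 0) ≤ 1 := by simpa using h1
      have h2' : 1 / 2 ≤ a (i0 + 1 + 0) := by simpa using h2
      linarith
  | succ i ih =>
    obtain ⟨ih1, ih2⟩ := ih
    have h := h3 (i0 + i) (Nat.le_add_right _ _)
    have e1 : i0 + i + 1 = i0 + 1 + i := by ring
    have e2 : i0 + i + 2 = i0 + 1 + (i + 1) := by ring
    have e3 : i0 + (i + 1) = i0 + 1 + i := by ring
    rw [e1, e2] at h
    rw [e3, pow_succ]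
    have hn := h0 (i0 + 1 + i)
    constructor
    · linarith
    · linarith

end main

end AbsX

open AbsX in
/-- ABS -/
theorem abs : S_ABS := by
  classical
  intro Λ E _ _ _ _ V ζ hit hV hK hC
  obtain ⟨C, hCt, hC⟩ := hC
  by_contra hcon
  push Not at hcon
  have hsum : ∀ z, ∑' N : ℕ, f V ζ hit N z ≠ ⊤ := hcon
  have hlim : ∀ z, Tendsto (fun N => f V ζ hit N z) atTop (𝓝 0) := fun z =>
    ENNReal.tendsto_atTop_zero_of_tsum_ne_top (hsum z)
  have hD0 : D V ζ hit 0 ≠ ⊤ := by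
    have : D V ζ hit 0 = ∑' z, ∑' c, (if hit c z then V c else 0) := by
      unfold D
      refine tsum_congr fun z => tsum_congr fun c => ?_
      simp [f]
    rw [this]
    exact hK
  have hDanti : Antitone fun N => D V ζ hit N := by
    intro M N h
    refine ENNReal.tsum_le_tsum fun z => ENNReal.tsum_le_tsum fun c => ?_
    split_ifs
    · exact mul_le_mul_right (f_anti V ζ hit hV _ h) _
    · exact le_rfl
  have hDlim : Tendsto (fun N => D V ζ hit N) atTop (𝓝 0) := by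
    have h := tsum_anti (ι := Λ × E)
      (fun N p => if hit p.2 p.1 then V p.2 * f V ζ hit N (p.1 + ζ p.2) else 0) ?_ ?_ ?_
    · refine h.congr fun N => ?_
      rw [ENNReal.tsum_prod']
      rfl
    · intro p M N h
      dsimp only
      split_ifs
      · exact mul_le_mul_right (f_anti V ζ hit hV _ h) _
      · exact le_rfl
    · rw [ENNReal.tsum_prod']
      exact hD0
    · rintro ⟨z, c⟩
      dsimp only
      split_ifs
      · have hVc : V c ≠ ⊤ := ne_top_of_le_ne_top ENNReal.one_ne_top (hV ▸ ENNReal.le_tsum c)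
        have := ENNReal.Tendsto.const_mul (hlim (z + ζ c)) (Or.inr hVc)
        simpa using this
      · exact tendsto_const_nhds
  have hKfin : ∀ N, K V ζ hit N ≠ ⊤ := by
    intro N
    induction N with
    | zero => rw [K_zero]; exact ENNReal.zero_ne_top
    | succ N ih =>
      rw [K_succ V ζ hit hV]
      exact ENNReal.add_ne_top.2 ⟨ih, ne_top_of_le_ne_top hD0 (hDanti (Nat.zero_le N))⟩
  -- linear bound with small slope
  have hKbound : ∀ N₀ N, K V ζ hit (N₀ + N) ≤ K V ζ hit N₀ + N * D V ζ hit N₀ := by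
    intro N₀ N
    induction N with
    | zero => simp
    | succ N ih =>
      rw [← add_assoc, K_succ V ζ hit hV]
      calc K V ζ hit (N₀ + N) + D V ζ hit (N₀ + N)
          ≤ (K V ζ hit N₀ + N * D V ζ hit N₀) + D V ζ hit N₀ :=
            add_le_add ih (hDanti (Nat.le_add_right _ _))
        _ = K V ζ hit N₀ + (N + 1 : ℕ) * D V ζ hit N₀ := by push_cast; ring
  -- the coefficient tends to zero
  have hcoef : ∃ m₀ : ℕ, ∀ m, m₀ ≤ m → C / (m + 1) * K V ζ hit (2 * m) ≤ 1 / 8 := by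
    have hCd : Tendsto (fun N => C * (2 * D V ζ hit N)) atTop (𝓝 0) := by
      have h1 := ENNReal.Tendsto.const_mul (a := C * 2) hDlim
        (Or.inr (ENNReal.mul_ne_top hCt ENNReal.ofNat_ne_top))
      simpa [mul_assoc] using h1
    have h16 : ∀ᶠ N in atTop, C * (2 * D V ζ hit N) < 1 / 16 :=
      (tendsto_order.1 hCd).2 _ (by simp)
    obtain ⟨N₀, hN₀⟩ := h16.exists
    have hA : C * K V ζ hit N₀ ≠ ⊤ := ENNReal.mul_ne_top hCt (hKfin N₀)
    obtain ⟨m₁, hm₁⟩ := ENNReal.exists_nat_gt (ENNReal.mul_ne_top (ENNReal.ofNat_ne_top (n := 16)) hA)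
    refine ⟨max m₁ N₀, fun m hm => ?_⟩
    have hm1 : m₁ ≤ m := (le_max_left _ _).trans hm
    have hm2 : N₀ ≤ m := (le_max_right _ _).trans hm
    have hpos : (m + 1 : ℝ≥0∞) ≠ 0 := by positivity
    have htop : (m + 1 : ℝ≥0∞) ≠ ⊤ :=
      ENNReal.add_ne_top.2 ⟨ENNReal.natCast_ne_top _, ENNReal.one_ne_top⟩
    have hb : K V ζ hit (2 * m) ≤ K V ζ hit N₀ + (2 * m : ℕ) * D V ζ hit N₀ := by
      have h2 := hKbound N₀ (2 * m - N₀)
      have h3 : N₀ + (2 * m - N₀) = 2 * m := by omega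
      rw [h3] at h2
      refine h2.trans ?_
      gcongr
      exact Nat.sub_le _ _
    have h16' : (16 : ℝ≥0∞) * (C * K V ζ hit N₀) ≤ m + 1 := by
      refine hm₁.le.trans ?_
      have : (m₁ : ℝ≥0∞) ≤ m := by exact_mod_cast hm1
      exact this.trans le_self_add
    have hfin : 16 * (C * K V ζ hit (2 * m)) ≤ 2 * (m + 1) := by
      calc 16 * (C * K V ζ hit (2 * m))
          ≤ 16 * (C * (K V ζ hit N₀ + (2 * m : ℕ) * D V ζ hit N₀)) := by gcongr
        _ = 16 * (C * K V ζ hit N₀) + m * (16 * (C * (2 * D V ζ hit N₀))) := by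
            push_cast; ring
        _ ≤ (m + 1) + m * (16 * (1 / 16)) := by
            gcongr
        _ ≤ 2 * (m + 1) := by
            have : (16 : ℝ≥0∞) * (1 / 16) = 1 := by
              rw [one_div]
              exact ENNReal.mul_inv_cancel (by norm_num) (by norm_num)
            rw [this, mul_one, two_mul]
            gcongr
            exact le_self_add
    have h8 : C * K V ζ hit (2 * m) * 8 ≤ (m + 1) := by
      have h9 : 2 * (C * K V ζ hit (2 * m) * 8) ≤ 2 * (m + 1) := by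
        calc 2 * (C * K V ζ hit (2 * m) * 8) = 16 * (C * K V ζ hit (2 * m)) := by ring
          _ ≤ _ := hfin
      exact (ENNReal.mul_le_mul_iff_right (by norm_num) (by norm_num)).1 h9
    rw [ENNReal.le_div_iff_mul_le (Or.inl (by norm_num)) (Or.inl (by norm_num))]
    calc C / (m + 1) * K V ζ hit (2 * m) * 8 = C * K V ζ hit (2 * m) * 8 / (m + 1) := by
          simp only [div_eq_mul_inv]; ring
      _ ≤ (m + 1) / (m + 1) := ENNReal.div_le_div_right h8 _
      _ = 1 := ENNReal.div_self hpos htop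
  obtain ⟨m₀, hm₀⟩ := hcoef
  -- good point
  have hz : ∃ z, g V ζ hit (2 ^ (m₀ + 1)) z ≤ 1 / 2 := by
    by_contra hno
    push Not at hno
    have : (⊤ : ℝ≥0∞) ≤ K V ζ hit (2 ^ (m₀ + 1)) := by
      have h1 : ∑' _ : Λ, (1 / 2 : ℝ≥0∞) = ⊤ := ENNReal.tsum_const_eq_top_of_ne_zero (by simp)
      rw [← h1]
      exact ENNReal.tsum_le_tsum fun z => (hno z).le
    exact hKfin _ (top_le_iff.1 this)
  obtain ⟨z, hz⟩ := hz
  have hfle : ∀ N, f V ζ hit N z ≤ 1 := fun N => f_le_one V ζ hit hV N z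
  have hfne : ∀ N, f V ζ hit N z ≠ ⊤ := fun N => ne_top_of_le_ne_top ENNReal.one_ne_top (hfle N)
  set a : ℕ → ℝ := fun i => (f V ζ hit (2 ^ i) z).toReal with ha
  have hseq := seq_lemma a m₀ (fun i => ENNReal.toReal_nonneg) ?_ ?_ ?_
  · -- contradiction with summability
    have hbig : ∀ i : ℕ, (2 : ℝ) ^ i * a i ≤ (∑' N : ℕ, f V ζ hit N z).toReal := by
      intro i
      have h1 : ((2 ^ i : ℕ) : ℝ≥0∞) * f V ζ hit (2 ^ i) z ≤ ∑' N : ℕ, f V ζ hit N z := by
        calc ((2 ^ i : ℕ) : ℝ≥0∞) * f V ζ hit (2 ^ i) z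
            = ∑ _N ∈ Finset.range (2 ^ i), f V ζ hit (2 ^ i) z := by
              rw [Finset.sum_const, Finset.card_range, nsmul_eq_mul]
          _ ≤ ∑ N ∈ Finset.range (2 ^ i), f V ζ hit N z :=
              Finset.sum_le_sum fun N hN =>
                f_anti V ζ hit hV z (Finset.mem_range.1 hN).le
          _ ≤ _ := ENNReal.sum_le_tsum _
      have h2 := ENNReal.toReal_mono (hsum z) h1
      rw [ENNReal.toReal_mul, ENNReal.toReal_natCast] at h2
      simpa [ha] using h2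
    set B := (∑' N : ℕ, f V ζ hit N z).toReal
    have hgrow : Tendsto (fun i : ℕ => (1 / 2 : ℝ) * (3 / 2 : ℝ) ^ i) atTop atTop :=
      (tendsto_pow_atTop_atTop_of_one_lt (by norm_num)).const_mul_atTop (by norm_num)
    obtain ⟨i, hi⟩ := (hgrow.eventually_gt_atTop B).exists
    have h1 := (hseq i).1
    have h2 := hbig (m₀ + 1 + i)
    have h3 : (1 / 2 : ℝ) * (3 / 2 : ℝ) ^ i ≤ (2 : ℝ) ^ (m₀ + 1 + i) * a (m₀ + 1 + i) := by
      calc (1 / 2 : ℝ) * (3 / 2 : ℝ) ^ i = 2 ^ i * (1 / 2 * (3 / 4 : ℝ) ^ i) := by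
            rw [show (3 / 2 : ℝ) = 2 * (3 / 4) by norm_num, mul_pow]
            ring
        _ ≤ 2 ^ i * a (m₀ + 1 + i) := by gcongr
        _ ≤ (2 : ℝ) ^ (m₀ + 1 + i) * a (m₀ + 1 + i) := by
            have : (2 : ℝ) ^ i ≤ 2 ^ (m₀ + 1 + i) :=
              pow_le_pow_right₀ (by norm_num) (Nat.le_add_left _ _)
            exact mul_le_mul_of_nonneg_right this ENNReal.toReal_nonneg
    linarith
  · simpa [ha] using ENNReal.toReal_mono ENNReal.one_ne_top (hfle (2 ^ m₀))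
  · have h1 := f_add_g V ζ hit hV (2 ^ (m₀ + 1)) z
    have h2 : (1 : ℝ≥0∞) ≤ f V ζ hit (2 ^ (m₀ + 1)) z + 1 / 2 := by
      exact h1.symm.le.trans (add_le_add_right hz _)
    have h3 := ENNReal.toReal_mono (ENNReal.add_ne_top.2 ⟨hfne _, by simp⟩) h2
    rw [ENNReal.toReal_add (hfne _) (by simp)] at h3
    simp only [ENNReal.toReal_one, ENNReal.toReal_div, ENNReal.toReal_ofNat] at h3
    simp only [ha]
    linarith
  · intro i hi
    have h1 := drop V ζ hit hV C hC (2 ^ i) z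
    have h2 : C / ((2 ^ i : ℕ) + 1) * K V ζ hit (2 * 2 ^ i) ≤ 1 / 8 :=
      hm₀ (2 ^ i) (hi.trans (Nat.lt_two_pow_self).le)
    have h3 : f V ζ hit (2 * 2 ^ i) z ≤ f V ζ hit (4 * 2 ^ i) z + 1 / 8 * f V ζ hit (2 ^ i) z :=
      h1.trans (by gcongr)
    have h4 := ENNReal.toReal_mono (ENNReal.add_ne_top.2
      ⟨hfne _, ENNReal.mul_ne_top (by simp) (hfne _)⟩) h3
    rw [ENNReal.toReal_add (hfne _) (ENNReal.mul_ne_top (by simp) (hfne _)),
      ENNReal.toReal_mul] at h4
    simp only [ENNReal.toReal_one, ENNReal.toReal_div, ENNReal.toReal_ofNat] at h4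
    simp only [ha]
    rw [show 2 ^ (i + 1) = 2 * 2 ^ i by ring, show 2 ^ (i + 2) = 4 * 2 ^ i by ring]
    exact h4

end Vale.Agent.P147
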