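import Vale.Agent.P147.Stmt

/-!
# P147 (partial): in `d ≥ 3` the walk cannot have both a positive and a negative speed
Definitions and module statements.
-/

namespace Vale.Agent.P147

open MeasureTheory Filter
open scoped ENNReal

/-! ## Words -/

/-- weight function on words: the abstract properties of annealed cylinder probabilities. -/
structure Wt {d : ℕ} (W : List (U d) → ℝ≥0∞) : Prop where
  nil : W [] = 1
  ne_zero : ∀ w, W w ≠ 0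
  sum : ∀ w, ∑ t, W (w ++ [t]) = W w
  indep : ∀ w₁ w₂, (∀ k < w₁.length, ∀ l < w₂.length,
    pos (w₁.take k) ≠ pos w₁ + pos (w₂.take l)) → W (w₁ ++ w₂) = W w₁ * W w₂
  tail : ∀ w₁ w₂, W (w₁ ++ w₂) ≤ W w₂

/-- bridges up to height `n` in direction `i`: levels of proper beginnings in `[0,n)`. -/
def Abr {d : ℕ} (i : Fin d) (n : ℕ) (w : List (U d)) : Prop :=
  pos w i = n ∧ ∀ k < w.length, 0 ≤ pos (w.take k) i ∧ pos (w.take k) i < n

/-- bridges down -/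
def Bbr {d : ℕ} (i : Fin d) (n : ℕ) (w : List (U d)) : Prop :=
  pos w i = -n ∧ ∀ k < w.length, -(n : ℤ) < pos (w.take k) i ∧ pos (w.take k) i ≤ 0

/-- lateral lattice -/
abbrev L {d : ℕ} (i : Fin d) := {j : Fin d // j ≠ i} → ℤ

/-- embedding of the lateral lattice -/
def em {d : ℕ} {i : Fin d} (z : L i) : Fin d → ℤ := fun j => if h : j ≠ i then z ⟨j, h⟩ else 0

/-- lateral displacement -/
def lat {d : ℕ} (i : Fin d) (w : List (U d)) : L i := fun j => pos w j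

/-- collision of the up-bridge `α` with the down-bridge `β`, which starts one level below the end
of `α` and at lateral offset `z`. -/
def Hit {d : ℕ} (i : Fin d) (α β : List (U d)) (z : L i) : Prop :=
  ∃ k < α.length, ∃ l < β.length,
    pos (α.take k) = pos α - Pi.single i 1 + em z + pos (β.take l)

/-- irreducible single up-bridge -/
def SIrr {d : ℕ} (i : Fin d) (n : ℕ) (a : List (U d)) : Prop :=
  1 ≤ n ∧ Abr i n a ∧ ∀ m, 0 < m → m < n →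
    ¬ ∃ a₁ a₂, a = a₁ ++ a₂ ∧ Abr i m a₁ ∧ Abr i (n - m) a₂

/-- single blocks -/
abbrev SBlk {d : ℕ} (i : Fin d) := {c : ℕ × List (U d) // SIrr i c.1 c.2}

/-- joint cut of a pair at height `m` -/
def JCut {d : ℕ} (i : Fin d) (n : ℕ) (α β : List (U d)) (m : ℕ) : Prop :=
  ∃ α₁ α₂ β₁ β₂, α = α₁ ++ α₂ ∧ β = β₂ ++ β₁ ∧ Abr i m α₁ ∧ Abr i (n - m) α₂ ∧
    Bbr i (n - m) β₂ ∧ Bbr i m β₁

/-- irreducible pair -/
def JIrr {d : ℕ} (i : Fin d) (n : ℕ) (α β : List (U d)) : Prop :=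
  1 ≤ n ∧ Abr i n α ∧ Bbr i n β ∧ ∀ m, 0 < m → m < n → ¬ JCut i n α β m

/-- joint blocks `(height, up-bridge, down-bridge)` -/
abbrev Blk {d : ℕ} (i : Fin d) := {c : ℕ × List (U d) × List (U d) // JIrr i c.1 c.2.1 c.2.2}

open Classical in
/-- `u_n` -/
noncomputable def uA {d : ℕ} (W : List (U d) → ℝ≥0∞) (i : Fin d) (n : ℕ) : ℝ≥0∞ :=
  ∑' w : List (U d), if Abr i n w then W w else 0

open Classical in
/-- `u'_n` -/
noncomputable def uB {d : ℕ} (W : List (U d) → ℝ≥0∞) (i : Fin d) (n : ℕ) : ℝ≥0∞ :=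
  ∑' w : List (U d), if Bbr i n w then W w else 0

open Classical in
/-- `b_n(z)`: mass of pairs of height `n` without collision at offset `z` -/
noncomputable def bb {d : ℕ} (W : List (U d) → ℝ≥0∞) (i : Fin d) (n : ℕ) (z : L i) : ℝ≥0∞ :=
  ∑' p : List (U d) × List (U d),
    if Abr i n p.1 ∧ Bbr i n p.2 ∧ ¬ Hit i p.1 p.2 z then W p.1 * W p.2 else 0

/-- number of departures of `w` from level `j` -/
def vis {d : ℕ} (i : Fin d) (j : ℤ) (w : List (U d)) : ℕ :=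
  ((Finset.range w.length).filter fun k => pos (w.take k) i = j).card

/-- reflection of a word in direction `i` -/
def rfl' {d : ℕ} (i : Fin d) (w : List (U d)) : List (U d) :=
  w.map fun t => (t.1, if t.1 = i then !t.2 else t.2)

/-! ## Abstract layer -/

/-- transfer operator -/
noncomputable def Tr {Λ E : Type} [AddCommGroup Λ] (V : E → ℝ≥0∞) (ζ : E → Λ)
    (hit : E → Λ → Prop) (φ : Λ → ℝ≥0∞) (z : Λ) : ℝ≥0∞ :=
  open Classical in ∑' c, V c * (if hit c z then 0 else φ (z + ζ c))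

/-- `k`-fold convolution power of the law of `ζ` -/
noncomputable def cv {Λ E : Type} [AddCommGroup Λ] (V : E → ℝ≥0∞) (ζ : E → Λ) :
    ℕ → Λ → ℝ≥0∞
  | 0, x => open Classical in if x = 0 then 1 else 0
  | (k + 1), x => ∑' c, V c * cv V ζ k (x - ζ c)

/-- ABS -/
def S_ABS : Prop := ∀ (Λ E : Type) [AddCommGroup Λ] [Infinite Λ] [Countable Λ] [Countable E]
  (V : E → ℝ≥0∞) (ζ : E → Λ) (hit : E → Λ → Prop), ∑' c, V c = 1 →
  (open Classical in ∑' z, ∑' c, (if hit c z then V c else 0) ≠ ⊤) →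
  (∃ C : ℝ≥0∞, C ≠ ⊤ ∧ ∀ k x, cv V ζ k x * (k + 1) ≤ C) →
  ∃ z, ∑' N : ℕ, ((Tr V ζ hit)^[N] (fun _ => 1)) z = ⊤

/-- CONC -/
def S_CONC : Prop := ∀ (Λ E : Type) [AddCommGroup Λ] [Countable E]
  (V : E → ℝ≥0∞) (ζ : E → Λ) (x y : Λ) (c : Fin 4 → E), ∑' e, V e = 1 →
  (∀ a b : ℤ, a • x + b • y = 0 → a = 0 ∧ b = 0) →
  (∀ k, V (c k) ≠ 0) → ζ (c 0) = 0 → ζ (c 1) = x → ζ (c 2) = y → ζ (c 3) = x + y →
  ∃ C : ℝ≥0∞, C ≠ ⊤ ∧ ∀ k z, cv V ζ k z * (k + 1) ≤ C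

/-- OPS: a renewal-type fixed point dominates the sum of the iterates. -/
def S_OPS : Prop := ∀ (Λ E : Type) [AddCommGroup Λ] (V : E → ℝ≥0∞) (ζ : E → Λ)
  (hit : E → Λ → Prop) (h : E → ℕ) (b : ℕ → Λ → ℝ≥0∞), (∀ c, 1 ≤ h c) → (∀ z, b 0 z = 1) →
  (∀ n z, 1 ≤ n → b n z = (open Classical in
    ∑' c, if h c ≤ n then V c * (if hit c z then 0 else b (n - h c) (z + ζ c)) else 0)) →
  ∀ z, ∑' N : ℕ, ((Tr V ζ hit)^[N] (fun _ => 1)) z ≤ ∑' n, b n z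

/-- RENEW: block masses of a renewal sequence bounded below sum to one. -/
def S_RENEW : Prop := ∀ (E : Type) (V : E → ℝ≥0∞) (h : E → ℕ) (R : ℕ → ℝ≥0∞),
  (∀ c, 1 ≤ h c) → R 0 = 1 → (∀ n, R n ≤ 1) → (∃ c₀ : ℝ≥0∞, c₀ ≠ 0 ∧ ∀ n, c₀ ≤ R n) →
  (∀ n, 1 ≤ n → R n = ∑' c, if h c ≤ n then V c * R (n - h c) else 0) →
  ∑' c, V c = 1

/-- RENEQ: solution of the renewal equation. -/
def S_RENEQ : Prop := ∀ (E : Type) (V : E → ℝ≥0∞) (h : E → ℕ) (R S ψ : ℕ → ℝ≥0∞),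
  (∀ c, 1 ≤ h c) → R 0 = 1 →
  (∀ n, 1 ≤ n → R n = ∑' c, if h c ≤ n then V c * R (n - h c) else 0) →
  S 0 = ψ 0 → (∀ n, 1 ≤ n → S n = (∑' c, if h c ≤ n then V c * S (n - h c) else 0) + ψ n) →
  ∀ n, S n = ∑ m ∈ Finset.range (n + 1), R (n - m) * ψ m

/-! ## Word layer -/

/-- KRAFT -/
def S_KRAFT : Prop := ∀ (d : ℕ) (W : List (U d) → ℝ≥0∞), Wt W → ∀ S : Set (List (U d)),
  (∀ a ∈ S, ∀ b ∈ S, a <+: b → a = b) → ∑' w : S, W w ≤ 1

/-- REF: reflection. -/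
def S_REF : Prop := ∀ (d : ℕ) (i : Fin d) (W : List (U d) → ℝ≥0∞), Wt W →
  Wt (fun w => W (rfl' i w)) ∧ (∀ w, rfl' i (rfl' i w) = w) ∧
  (∀ w j, pos (rfl' i w) j = if j = i then - pos w j else pos w j) ∧
  (∀ n w, Bbr i n w ↔ Abr i n (rfl' i w))

/-- DECS: decomposition of a bridge at its last (top) irreducible block. -/
def S_DECS : Prop := ∀ (d : ℕ) (i : Fin d) (n : ℕ), 1 ≤ n → ∀ G : List (U d) → ℝ≥0∞,
  open Classical in
  (∑' w, if Abr i n w then G w else 0) =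
    ∑' c : SBlk i, if c.1.1 ≤ n then
      ∑' w, (if Abr i (n - c.1.1) w then G (w ++ c.1.2) else 0) else 0

/-- DECP: decomposition of a pair at its top irreducible block. -/
def S_DECP : Prop := ∀ (d : ℕ) (i : Fin d) (n : ℕ), 1 ≤ n →
  ∀ G : List (U d) → List (U d) → ℝ≥0∞,
  open Classical in
  (∑' p : List (U d) × List (U d), if Abr i n p.1 ∧ Bbr i n p.2 then G p.1 p.2 else 0) =
    ∑' c : Blk i, if c.1.1 ≤ n then
      ∑' q : List (U d) × List (U d),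
        (if Abr i (n - c.1.1) q.1 ∧ Bbr i (n - c.1.1) q.2 then
          G (q.1 ++ c.1.2.1) (c.1.2.2 ++ q.2) else 0) else 0

/-- WMUL: weights multiply over stacked bridges. -/
def S_WMUL : Prop := ∀ (d : ℕ) (i : Fin d) (W : List (U d) → ℝ≥0∞), Wt W →
  (∀ m n α₁ α₂, Abr i m α₁ → Abr i n α₂ → W (α₁ ++ α₂) = W α₁ * W α₂) ∧
  (∀ m n β₁ β₂, Bbr i m β₁ → Bbr i n β₂ → W (β₂ ++ β₁) = W β₂ * W β₁)

/-- HMUL: collisions happen inside the blocks. -/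
def S_HMUL : Prop := ∀ (d : ℕ) (i : Fin d) (m h : ℕ) (α' β' α β : List (U d)) (z : L i),
  Abr i m α' → Bbr i m β' → Abr i h α → Bbr i h β →
  (Hit i (α' ++ α) (β ++ β') z ↔ Hit i α β z ∨ Hit i α' β' (z + (lat i α + lat i β)))

/-- ESC: the escape inequality. -/
def S_ESC : Prop := ∀ (d : ℕ) (i : Fin d) (W : List (U d) → ℝ≥0∞), Wt W →
  ∀ z : L i, ∑' n, bb W i n z ≠ ⊤

/-- TAU: finite mean length of a single block. -/
def S_TAU : Prop := ∀ (d : ℕ) (i : Fin d) (W : List (U d) → ℝ≥0∞), Wt W →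
  (∃ (p : ℝ≥0∞) (M : ℕ), p ≠ 0 ∧ ∀ n, p ≤ (open Classical in
    ∑' w, if Abr i n w ∧ w.length ≤ M * n then W w else 0)) →
  ∑' c : SBlk i, W c.1.2 * (c.1.2.length : ℝ≥0∞) ≠ ⊤

/-- VIS: expected number of departures from a level. -/
def S_VIS : Prop := ∀ (d : ℕ) (i : Fin d) (W : List (U d) → ℝ≥0∞), Wt W → ∀ n j : ℕ,
  open Classical in
  (∑' w, if Abr i n w then W w * (vis i j w : ℝ≥0∞) else 0) ≤
    ∑' c : SBlk i, W c.1.2 * (c.1.2.length : ℝ≥0∞)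

/-- KHIT: number of colliding offsets. -/
def S_KHIT : Prop := ∀ (d : ℕ) (i : Fin d) (n : ℕ) (α β : List (U d)),
  Abr i n α → Bbr i n β →
  open Classical in
  (∑' z : L i, if Hit i α β z then (1 : ℝ≥0∞) else 0) ≤
    ∑ j ∈ Finset.range n, (vis i j α : ℝ≥0∞) * (vis i (-((n - 1 - j : ℕ) : ℤ)) β : ℝ≥0∞)

/-- KONE: finite collision mass. -/
def S_KONE : Prop := ∀ (d : ℕ) (i : Fin d) (W : List (U d) → ℝ≥0∞), Wt W →
  (∃ p : ℝ≥0∞, p ≠ 0 ∧ ∀ n, p ≤ uA W i n ∧ p ≤ uB W i n) →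
  (∃ τ : ℝ≥0∞, τ ≠ ⊤ ∧ ∀ n j : ℕ, (open Classical in
    (∑' w, if Abr i n w then W w * (vis i j w : ℝ≥0∞) else 0) ≤ τ ∧
    (∑' w, if Bbr i n w then W w * (vis i (-(j : ℤ)) w : ℝ≥0∞) else 0) ≤ τ)) →
  (open Classical in
    ∑' z : L i, ∑' c : Blk i, (if Hit i c.1.2.1 c.1.2.2 z then W c.1.2.1 * W c.1.2.2 else 0)) ≠ ⊤

/-- CORE: the combinatorial theorem. -/
def S_CORE : Prop := ∀ (d : ℕ) (i : Fin d) (W : List (U d) → ℝ≥0∞), 3 ≤ d → Wt W →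
  ¬ ((∃ (p : ℝ≥0∞) (M : ℕ), p ≠ 0 ∧ ∀ n, p ≤ (open Classical in
      ∑' w, if Abr i n w ∧ w.length ≤ M * n then W w else 0)) ∧
    (∃ (p : ℝ≥0∞) (M : ℕ), p ≠ 0 ∧ ∀ n, p ≤ (open Classical in
      ∑' w, if Bbr i n w ∧ w.length ≤ M * n then W w else 0)))

/-! ## Probabilistic layer -/

/-- LAW: the annealed weights. -/
def S_LAW : Prop := ∀ (d : ℕ) (μ : Measure (U d → ℝ)) [IsProbabilityMeasure μ],
  Elliptic μ → Wt (Ann μ)

/-- LOWER: positive speed gives short bridges with mass bounded below. -/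
def S_LOWER : Prop := ∀ (d : ℕ) (i : Fin d) (W : List (U d) → ℝ≥0∞), Wt W →
  ∀ (Ω : Type) [MeasurableSpace Ω] (P : Measure Ω) [IsProbabilityMeasure P]
    (X : ℕ → Ω → Site d), (∀ n, Measurable (X n)) →
  (∀ w : List (U d), P {ξ | ∀ k ≤ w.length, X k ξ = pos (w.take k)} = W w) →
  P (Fast X i) ≠ 0 →
  ∃ (p : ℝ≥0∞) (M : ℕ), p ≠ 0 ∧ ∀ n, p ≤ (open Classical in
    ∑' w, if Abr i n w ∧ w.length ≤ M * n then W w else 0)

/-- FINAL -/
def S_FINAL : Prop := ∀ (d : ℕ) (i : Fin d), 3 ≤ d → ∀ (μ : Measure (U d → ℝ))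
  [IsProbabilityMeasure μ], Elliptic μ →
  ∀ (Ω : Type) [MeasurableSpace Ω] (P : Measure Ω) [IsProbabilityMeasure P]
    (X : ℕ → Ω → Site d), IsWalk μ P X → P (Fast X i) = 0 ∨ P (Slow X i) = 0

end Vale.Agent.P147
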