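import Mathlib
import Vale.Agent.P147.Defs

namespace Vale.Agent.P147

open scoped ENNReal

namespace ConcX

/-! ### averaging operators -/

variable {Λ E : Type} [AddCommGroup Λ]

/-- convolution operator -/
noncomputable def AV (V : E → ℝ≥0∞) (ζ : E → Λ) (φ : Λ → ℝ≥0∞) (z : Λ) : ℝ≥0∞ :=
  ∑' c, V c * φ (z - ζ c)

lemma AV_add (V : E → ℝ≥0∞) (ζ : E → Λ) (φ ψ : Λ → ℝ≥0∞) :
    AV V ζ (fun z => φ z + ψ z) = fun z => AV V ζ φ z + AV V ζ ψ z := by
  funext z
  simp only [AV, mul_add]
  rw [ENNReal.tsum_add]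

lemma AV_mul (V : E → ℝ≥0∞) (ζ : E → Λ) (q : ℝ≥0∞) (φ : Λ → ℝ≥0∞) :
    AV V ζ (fun z => q * φ z) = fun z => q * AV V ζ φ z := by
  funext z
  simp only [AV]
  rw [← ENNReal.tsum_mul_left]
  refine tsum_congr fun c => ?_
  ring

lemma AV_comm (V V' : E → ℝ≥0∞) (ζ : E → Λ) (φ : Λ → ℝ≥0∞) :
    AV V ζ (AV V' ζ φ) = AV V' ζ (AV V ζ φ) := by
  funext z
  simp only [AV]
  simp only [← ENNReal.tsum_mul_left]
  rw [ENNReal.tsum_comm]
  refine tsum_congr fun c => tsum_congr fun c' => ?_
  rw [show z - ζ c' - ζ c = z - ζ c - ζ c' by abel]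
  ring

lemma AV_iter_comm (V V' : E → ℝ≥0∞) (ζ : E → Λ) (k : ℕ) (φ : Λ → ℝ≥0∞) :
    (AV V ζ)^[k] (AV V' ζ φ) = AV V' ζ ((AV V ζ)^[k] φ) := by
  induction k generalizing φ with
  | zero => rfl
  | succ k ih => rw [Function.iterate_succ_apply, AV_comm, ih, ← Function.iterate_succ_apply]

lemma AV_iter_add (V : E → ℝ≥0∞) (ζ : E → Λ) (k : ℕ) (φ ψ : Λ → ℝ≥0∞) :
    (AV V ζ)^[k] (fun z => φ z + ψ z) = fun z => (AV V ζ)^[k] φ z + (AV V ζ)^[k] ψ z := by
  induction k generalizing φ ψ with
  | zero => rfl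
  | succ k ih =>
    rw [Function.iterate_succ_apply, AV_add, ih, Function.iterate_succ_apply,
      Function.iterate_succ_apply]

lemma AV_iter_mul (V : E → ℝ≥0∞) (ζ : E → Λ) (k : ℕ) (q : ℝ≥0∞) (φ : Λ → ℝ≥0∞) :
    (AV V ζ)^[k] (fun z => q * φ z) = fun z => q * (AV V ζ)^[k] φ z := by
  induction k generalizing φ with
  | zero => rfl
  | succ k ih => rw [Function.iterate_succ_apply, AV_mul, ih, Function.iterate_succ_apply]

lemma AV_le (V : E → ℝ≥0∞) (ζ : E → Λ) (φ : Λ → ℝ≥0∞) (M : ℝ≥0∞) (h : ∀ z, φ z ≤ M) (z : Λ) :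
    AV V ζ φ z ≤ (∑' c, V c) * M := by
  rw [AV, ← ENNReal.tsum_mul_right]
  exact ENNReal.tsum_le_tsum fun c => by gcongr; exact h _

/-- two-point operator -/
def P (x : Λ) (φ : Λ → ℝ≥0∞) (z : Λ) : ℝ≥0∞ := φ z + φ (z - x)

lemma P_comm (x y : Λ) (φ : Λ → ℝ≥0∞) : P x (P y φ) = P y (P x φ) := by
  funext z
  simp only [P]
  rw [show z - x - y = z - y - x by abel]
  ring

lemma P_iter (x : Λ) (j : ℕ) (φ : Λ → ℝ≥0∞) (z : Λ) :
    (P x)^[j] φ z = ∑ m ∈ Finset.range (j + 1), (j.choose m : ℝ≥0∞) * φ (z - m • x) := by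
  induction j generalizing φ with
  | zero => simp
  | succ j ih =>
    rw [Function.iterate_succ_apply, ih]
    simp only [P, mul_add, Finset.sum_add_distrib]
    have h1 : ∀ m : ℕ, z - m • x - x = z - (m + 1) • x := by
      intro m; rw [succ_nsmul]; abel
    simp only [h1]
    rw [Finset.sum_range_succ' (fun m => ((j + 1).choose m : ℝ≥0∞) * φ (z - m • x)) (j + 1)]
    simp only [Nat.choose_succ_succ, Nat.cast_add, add_mul, Finset.sum_add_distrib]
    rw [Finset.sum_range_succ' (fun m => (j.choose m : ℝ≥0∞) * φ (z - m • x)) j]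
    rw [Finset.sum_range_succ (fun m => (j.choose (m + 1) : ℝ≥0∞) * φ (z - (m + 1) • x)) j]
    simp only [Nat.choose_succ_self, Nat.cast_zero, zero_mul, add_zero, Nat.choose_zero_right,
      Nat.cast_one, one_mul, zero_smul, sub_zero]
    ring

/-- delta at the origin -/
noncomputable def dl (z : Λ) : ℝ≥0∞ := open Classical in if z = 0 then 1 else 0

/-- normalised four-point walk -/
noncomputable def WW (x y : Λ) (j : ℕ) (z : Λ) : ℝ≥0∞ :=
  ((4 : ℝ≥0∞)⁻¹) ^ j * (P x)^[j] ((P y)^[j] dl) z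

lemma P_iter_comm (x y : Λ) (j : ℕ) (φ : Λ → ℝ≥0∞) : (P x)^[j] (P y φ) = P y ((P x)^[j] φ) := by
  induction j generalizing φ with
  | zero => rfl
  | succ j ih => rw [Function.iterate_succ_apply, P_comm, ih, ← Function.iterate_succ_apply]

lemma P_mul (x : Λ) (q : ℝ≥0∞) (φ : Λ → ℝ≥0∞) : P x (fun z => q * φ z) = fun z => q * P x φ z := by
  funext z; simp only [P]; ring

lemma WW_succ (x y : Λ) (j : ℕ) :
    (fun z => (4 : ℝ≥0∞)⁻¹ * P x (P y (WW x y j)) z) = WW x y (j + 1) := by
  funext z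
  have e1 : WW x y j = fun z => ((4 : ℝ≥0∞)⁻¹) ^ j * (P x)^[j] ((P y)^[j] dl) z := rfl
  rw [e1, P_mul, P_mul, WW, pow_succ]
  have e2 : (P x)^[j + 1] ((P y)^[j + 1] dl) = P x (P y ((P x)^[j] ((P y)^[j] dl))) := by
    rw [Function.iterate_succ_apply' (P y), Function.iterate_succ_apply' (P x), P_iter_comm]
  rw [e2]
  ring

lemma cb (n : ℕ) : (n.centralBinom) ^ 2 * (2 * n + 1) ≤ 16 ^ n := by
  induction n with
  | zero => simp
  | succ n ih =>
    have h := Nat.succ_mul_centralBinom_succ n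
    have h2 : (n + 1) ^ 2 * ((n + 1).centralBinom ^ 2 * (2 * (n + 1) + 1)) ≤
        (n + 1) ^ 2 * 16 ^ (n + 1) := by
      calc (n + 1) ^ 2 * ((n + 1).centralBinom ^ 2 * (2 * (n + 1) + 1))
          = ((n + 1) * (n + 1).centralBinom) ^ 2 * (2 * n + 3) := by ring
        _ = (2 * (2 * n + 1) * n.centralBinom) ^ 2 * (2 * n + 3) := by rw [h]
        _ = (n.centralBinom ^ 2 * (2 * n + 1)) * (4 * (2 * n + 1) * (2 * n + 3)) := by ring
        _ ≤ 16 ^ n * (4 * (2 * n + 1) * (2 * n + 3)) := Nat.mul_le_mul_right _ ih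
        _ ≤ 16 ^ n * (16 * (n + 1) ^ 2) := by
            refine Nat.mul_le_mul_left _ ?_
            nlinarith
        _ = _ := by ring
    exact Nat.le_of_mul_le_mul_left h2 (by positivity)

lemma WW_even (x y : Λ) (hxy : ∀ a b : ℤ, a • x + b • y = 0 → a = 0 ∧ b = 0) (n : ℕ) (z : Λ) :
    WW x y (2 * n) z ≤ ((2 * n + 1 : ℕ) : ℝ≥0∞)⁻¹ := by
  classical
  have hk : ∀ m, ((2 * n).choose m : ℝ≥0∞) ≤ (n.centralBinom : ℝ≥0∞) := by
    intro m
    exact_mod_cast Nat.choose_le_centralBinom m n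
  have h1 : (P x)^[2 * n] ((P y)^[2 * n] dl) z ≤ (n.centralBinom : ℝ≥0∞) ^ 2 := by
    rw [P_iter]
    simp only [P_iter, Finset.mul_sum]
    calc ∑ a ∈ Finset.range (2 * n + 1), ∑ b ∈ Finset.range (2 * n + 1),
          ((2 * n).choose a : ℝ≥0∞) * (((2 * n).choose b : ℝ≥0∞) * dl (z - a • x - b • y))
        ≤ ∑ a ∈ Finset.range (2 * n + 1), ∑ b ∈ Finset.range (2 * n + 1),
          (n.centralBinom : ℝ≥0∞) * ((n.centralBinom : ℝ≥0∞) * dl (z - a • x - b • y)) := by
          gcongr <;> exact Nat.choose_le_centralBinom _ _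
      _ = (n.centralBinom : ℝ≥0∞) ^ 2 * ∑ p ∈ Finset.range (2 * n + 1) ×ˢ
            Finset.range (2 * n + 1), dl (z - p.1 • x - p.2 • y) := by
          rw [Finset.sum_product, Finset.mul_sum]
          refine Finset.sum_congr rfl fun a _ => ?_
          rw [Finset.mul_sum]
          refine Finset.sum_congr rfl fun b _ => ?_
          ring
      _ ≤ (n.centralBinom : ℝ≥0∞) ^ 2 * 1 := by
          gcongr
          simp only [dl]
          rw [Finset.sum_boole]
          have : ((Finset.range (2 * n + 1) ×ˢ Finset.range (2 * n + 1)).filter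
              (fun p => z - p.1 • x - p.2 • y = 0)).card ≤ 1 := by
            rw [Finset.card_le_one]
            intro p hp q hq
            rw [Finset.mem_filter] at hp hq
            have h3 : ((q.1 : ℤ) - p.1) • x + ((q.2 : ℤ) - p.2) • y = 0 := by
              have e1 := hp.2
              have e2 := hq.2
              have e3 : (z - p.1 • x - p.2 • y) - (z - q.1 • x - q.2 • y) = 0 := by
                rw [e1, e2, sub_zero]
              rw [sub_smul, sub_smul, natCast_zsmul, natCast_zsmul, natCast_zsmul, natCast_zsmul]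
              rw [← e3]; abel
            have h4 := hxy _ _ h3
            ext <;> omega
          exact_mod_cast this
      _ = _ := mul_one _
  rw [WW]
  calc ((4 : ℝ≥0∞)⁻¹) ^ (2 * n) * (P x)^[2 * n] ((P y)^[2 * n] dl) z
      ≤ ((4 : ℝ≥0∞)⁻¹) ^ (2 * n) * (n.centralBinom : ℝ≥0∞) ^ 2 := by gcongr
    _ ≤ _ := by
        rw [← ENNReal.inv_pow, pow_mul, mul_comm, ← div_eq_mul_inv]
        rw [ENNReal.div_le_iff (by positivity) (by simp)]
        rw [mul_comm, ← div_eq_mul_inv, ENNReal.le_div_iff_mul_le (by simp) (by simp)]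
        have := cb n
        norm_num
        exact_mod_cast this

lemma WW_le (x y : Λ) (hxy : ∀ a b : ℤ, a • x + b • y = 0 → a = 0 ∧ b = 0) (j : ℕ) (z : Λ) :
    WW x y j z ≤ ENNReal.ofReal (2 / (j + 1)) := by
  have conv : ∀ n : ℕ, ((2 * n + 1 : ℕ) : ℝ≥0∞)⁻¹ = ENNReal.ofReal (1 / (2 * n + 1)) := by
    intro n
    rw [one_div, ENNReal.ofReal_inv_of_pos (by positivity)]
    congr 1
    rw [← ENNReal.ofReal_natCast]
    push_cast
    rfl
  rcases Nat.even_or_odd' j with ⟨n, rfl | rfl⟩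
  · refine le_trans (WW_even x y hxy n z) ?_
    rw [conv]
    apply ENNReal.ofReal_le_ofReal
    push_cast
    gcongr
    norm_num
  · rw [← WW_succ]
    have h := WW_even x y hxy n
    have h4 : (4 : ℝ≥0∞)⁻¹ * P x (P y (WW x y (2 * n))) z ≤ ((2 * n + 1 : ℕ) : ℝ≥0∞)⁻¹ := by
      have h5 : P x (P y (WW x y (2 * n))) z ≤ 4 * ((2 * n + 1 : ℕ) : ℝ≥0∞)⁻¹ := by
        simp only [P]
        refine le_trans (add_le_add (add_le_add (h _) (h _)) (add_le_add (h _) (h _))) ?_
        refine le_of_eq ?_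
        ring
      refine le_trans (mul_le_mul_right h5 _) ?_
      rw [← mul_assoc, ENNReal.inv_mul_cancel (by norm_num) (by norm_num), one_mul]
    refine le_trans h4 ?_
    rw [conv]
    apply ENNReal.ofReal_le_ofReal
    push_cast
    rw [div_le_div_iff₀ (by positivity) (by positivity)]
    nlinarith

lemma real_step (θ s : ℝ) (h0 : 0 < θ) (h1 : θ ≤ 1) (hs : 1 ≤ s) :
    θ * (2 / (s + 1)) + (1 - θ) * (2 / s) ≤ 2 / (s + θ / 2) := by
  have hs0 : 0 < s := by linarith
  have e : θ * (2 / (s + 1)) + (1 - θ) * (2 / s) = 2 * (s + 1 - θ) / (s * (s + 1)) := by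
    field_simp
    ring
  rw [e, div_le_div_iff₀ (by positivity) (by positivity)]
  have : 0 ≤ θ / 2 * (s - (1 - θ)) := mul_nonneg (by positivity) (by linarith)
  nlinarith [this]

end ConcX

open ConcX in
theorem conc : S_CONC := by
  intro Λ E _ _ V ζ x y c hV hxy hc hz0 hz1 hz2 hz3
  classical
  set q : ℝ≥0∞ := min (min (V (c 0)) (V (c 1))) (min (V (c 2)) (V (c 3))) with hq
  have hqk : ∀ k, q ≤ V (c k) := by
    intro k
    fin_cases k
    · exact le_trans (min_le_left _ _) (min_le_left _ _)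
    · exact le_trans (min_le_left _ _) (min_le_right _ _)
    · exact le_trans (min_le_right _ _) (min_le_left _ _)
    · exact le_trans (min_le_right _ _) (min_le_right _ _)
  have hq0 : q ≠ 0 := by
    simp only [hq, ne_eq, min_eq_iff, not_or, not_and_or]
    have := hc 0
    have := hc 1
    have := hc 2
    have := hc 3
    rcases min_choice (min (V (c 0)) (V (c 1))) (min (V (c 2)) (V (c 3))) with h | h <;>
      rcases min_choice (V (c 0)) (V (c 1)) with h' | h' <;>
      rcases min_choice (V (c 2)) (V (c 3)) with h'' | h'' <;>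
      simp_all
  have hx : x ≠ 0 := by
    intro h
    have := hxy 1 0 (by simp [h])
    simp at this
  have hy : y ≠ 0 := by
    intro h
    have := hxy 0 1 (by simp [h])
    simp at this
  have hxy' : x ≠ y := by
    intro h
    have := hxy 1 (-1) (by simp [h])
    simp at this
  have hinj : Function.Injective c := by
    have hxy2 : x + y ≠ 0 := by
      intro h
      have := hxy 1 1 (by simpa using h)
      simp at this
    have hζ : Function.Injective (fun k => ζ (c k)) := by
      have hz : ∀ k, ζ (c k) = (![0, x, y, x + y] : Fin 4 → Λ) k := by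
        intro k
        fin_cases k
        · exact hz0
        · exact hz1
        · exact hz2
        · exact hz3
      intro k l hkl
      simp only [hz] at hkl
      fin_cases k <;> fin_cases l <;>
        first
          | rfl
          | (exfalso; revert hkl; simp [hx, hy, hxy', hxy2, hx.symm, hy.symm, hxy'.symm,
              hxy2.symm])
    intro k l hkl
    exact hζ (by simp [hkl])
  set S : Finset E := Finset.univ.image c with hS
  set V' : E → ℝ≥0∞ := fun e => if e ∈ S then V e - q else V e with hV'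
  have hsplit : ∀ e, V e = (if e ∈ S then q else 0) + V' e := by
    intro e
    by_cases he : e ∈ S
    · simp only [hV', if_pos he]
      rw [hS, Finset.mem_image] at he
      obtain ⟨k, _, rfl⟩ := he
      rw [add_tsub_cancel_of_le (hqk k)]
    · simp [hV', if_neg he]
  have hSsum : ∀ f : E → ℝ≥0∞, ∑' e, (if e ∈ S then q else 0) * f e =
      q * (f (c 0) + f (c 1) + f (c 2) + f (c 3)) := by
    intro f
    have h1 : ∑' e, (if e ∈ S then q else 0) * f e = ∑ e ∈ S, q * f e := by
      rw [tsum_eq_sum (s := S)]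
      · refine Finset.sum_congr rfl fun e he => ?_
        rw [if_pos he]
      · intro e he
        rw [if_neg he, zero_mul]
    rw [h1, hS, Finset.sum_image (fun k _ l _ h => hinj h), ← Finset.mul_sum, Fin.sum_univ_four]
  have hAV : ∀ φ : Λ → ℝ≥0∞, AV V ζ φ = fun z => q * P x (P y φ) z + AV V' ζ φ z := by
    intro φ
    funext z
    have h1 : AV V ζ φ z = ∑' e, ((if e ∈ S then q else 0) * φ (z - ζ e) + V' e * φ (z - ζ e)) := by
      refine tsum_congr fun e => ?_
      rw [← add_mul, ← hsplit]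
    rw [h1, ENNReal.tsum_add, hSsum, hz0, hz1, hz2, hz3]
    congr 2
    simp only [P, sub_zero]
    rw [show z - (x + y) = z - x - y by abel]
    ring
  have hmass : 4 * q + ∑' e, V' e = 1 := by
    rw [← hV]
    have h1 : ∑' e, V e = ∑' e, ((if e ∈ S then q else 0) * 1 + V' e) :=
      tsum_congr fun e => by rw [mul_one, ← hsplit]
    rw [h1, ENNReal.tsum_add, hSsum]
    ring
  set θ : ℝ := (4 * q).toReal with hθ
  have h4q : 4 * q ≤ 1 := by rw [← hmass]; exact le_self_add
  have h4qt : 4 * q ≠ ⊤ := ne_top_of_le_ne_top ENNReal.one_ne_top h4q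
  have hθq : ENNReal.ofReal θ = 4 * q := ENNReal.ofReal_toReal h4qt
  have hθ0 : 0 < θ := ENNReal.toReal_pos (mul_ne_zero (by norm_num) hq0) h4qt
  have hθ1 : θ ≤ 1 := by
    have := ENNReal.toReal_mono ENNReal.one_ne_top h4q
    rwa [ENNReal.toReal_one] at this
  have hmass' : ∑' e, V' e = ENNReal.ofReal (1 - θ) := by
    rw [ENNReal.ofReal_sub _ hθ0.le, hθq, ENNReal.ofReal_one]
    exact ENNReal.eq_sub_of_add_eq' ENNReal.one_ne_top (by rw [add_comm]; exact hmass)
  have claim : ∀ (k j : ℕ) (z : Λ), (AV V ζ)^[k] (WW x y j) z ≤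
      ENNReal.ofReal (2 / (θ / 2 * k + j + 1)) := by
    intro k
    induction k with
    | zero =>
      intro j z
      simpa using WW_le x y hxy j z
    | succ k ih =>
      intro j z
      have e1 : AV V ζ (WW x y j) = fun z => (4 * q) * WW x y (j + 1) z + AV V' ζ (WW x y j) z := by
        rw [hAV]
        funext z
        congr 1
        rw [← WW_succ]
        simp only
        rw [show 4 * q * (4⁻¹ * P x (P y (WW x y j)) z) = (4 * 4⁻¹) * (q * P x (P y (WW x y j)) z)
          by ring, ENNReal.mul_inv_cancel (by norm_num) (by norm_num), one_mul]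
      rw [Function.iterate_succ_apply, e1, AV_iter_add, AV_iter_mul, AV_iter_comm]
      have h1 := ih (j + 1) z
      have h2 := AV_le V' ζ ((AV V ζ)^[k] (WW x y j)) _ (ih j) z
      refine le_trans (add_le_add (mul_le_mul_right h1 _) h2) ?_
      rw [hmass', ← hθq, ← ENNReal.ofReal_mul hθ0.le, ← ENNReal.ofReal_mul (by linarith),
        ← ENNReal.ofReal_add (by positivity)
          (mul_nonneg (by linarith) (by positivity))]
      apply ENNReal.ofReal_le_ofReal
      have h3 := real_step θ (θ / 2 * k + j + 1) hθ0 hθ1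
        (by have : 0 ≤ θ / 2 * k := by positivity
            have : (0 : ℝ) ≤ j := by positivity
            linarith)
      push_cast
      have e2 : θ / 2 * (k : ℝ) + ((j : ℝ) + 1) + 1 = θ / 2 * k + j + 1 + 1 := by ring
      have e3 : θ / 2 * ((k : ℝ) + 1) + j + 1 = θ / 2 * k + j + 1 + θ / 2 := by ring
      rw [e2, e3]
      exact h3
  have hcv : ∀ k, cv V ζ k = (AV V ζ)^[k] (WW x y 0) := by
    intro k
    induction k with
    | zero =>
      funext z
      simp [cv, WW, dl]
    | succ k ih =>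
      rw [Function.iterate_succ_apply', ← ih]
      rfl
  refine ⟨ENNReal.ofReal (2 / (θ / 2)), ENNReal.ofReal_ne_top, ?_⟩
  intro k z
  rw [hcv]
  refine le_trans (mul_le_mul_left (claim k 0 z) _) ?_
  have e4 : ((k : ℝ≥0∞) + 1) = ENNReal.ofReal ((k : ℝ) + 1) := by
    rw [ENNReal.ofReal_add (by positivity) (by norm_num), ENNReal.ofReal_natCast,
      ENNReal.ofReal_one]
  rw [e4, ← ENNReal.ofReal_mul (by positivity)]
  apply ENNReal.ofReal_le_ofReal
  simp only [Nat.cast_zero, add_zero]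
  rw [div_mul_eq_mul_div, div_le_div_iff₀ (by positivity) (by positivity)]
  nlinarith

end Vale.Agent.P147
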