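import Mathlib
import Vale.Agent.P147.Defs

/-!
P147, modules DECS and DECP: decomposition of a bridge (of a pair of bridges) at its last
irreducible block.
-/

namespace Vale.Agent.P147.DEC

open scoped ENNReal

variable {d : ℕ}

lemma pos_nil : pos ([] : List (U d)) = 0 := rfl

lemma pos_append (a b : List (U d)) : pos (a ++ b) = pos a + pos b := by
  unfold pos
  rw [List.map_append, List.sum_append]

/-- bridge of height `n` for a level function `g` -/
def Br (g : (Fin d → ℤ) →+ ℤ) (n : ℕ) (w : List (U d)) : Prop :=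
  g (pos w) = n ∧ ∀ k < w.length, 0 ≤ g (pos (w.take k)) ∧ g (pos (w.take k)) < n

lemma Br_nil (g : (Fin d → ℤ) →+ ℤ) : Br g 0 ([] : List (U d)) := by
  refine ⟨?_, ?_⟩
  · rw [pos_nil, map_zero]; rfl
  · intro k hk
    simp at hk

lemma Br_append {g : (Fin d → ℤ) →+ ℤ} {m k : ℕ} {a b : List (U d)} (ha : Br g m a)
    (hb : Br g k b) : Br g (m + k) (a ++ b) := by
  refine ⟨?_, ?_⟩
  · rw [pos_append, map_add, ha.1, hb.1]; push_cast; rfl
  · intro j hj
    rw [List.length_append] at hj
    by_cases h : j < a.length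
    · have h1 : (a ++ b).take j = a.take j := by
        rw [List.take_append_of_le_length h.le]
      rw [h1]
      have := ha.2 j h
      push_cast
      constructor
      · exact this.1
      · have h2 : (0 : ℤ) ≤ k := Int.natCast_nonneg k
        linarith [this.2]
    · push Not at h
      have h1 : (a ++ b).take j = a ++ b.take (j - a.length) := by
        rw [List.take_append, List.take_of_length_le h]
      rw [h1, pos_append, map_add, ha.1]
      have := hb.2 (j - a.length) (by omega)
      push_cast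
      constructor
      · have h2 : (0 : ℤ) ≤ m := Int.natCast_nonneg m
        linarith [this.1]
      · linarith [this.2]

/-- comparison of two splittings of the same word -/
lemma Br_mid {g : (Fin d → ℤ) →+ ℤ} {m m' k : ℕ} {a b a' b' : List (U d)}
    (h : a ++ b = a' ++ b') (ha : Br g m a) (ha' : Br g m' a') (hb : Br g k b)
    (hm : m ≤ m') : ∃ x, a' = a ++ x ∧ b = x ++ b' ∧ Br g (m' - m) x := by
  have hlen : a.length ≤ a'.length := by
    by_contra hcon
    push Not at hcon
    have h1 : a' = a.take a'.length := by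
      have h2 : (a ++ b).take a'.length = a.take a'.length :=
        List.take_append_of_le_length hcon.le
      rw [h, List.take_left'] at h2
      · exact h2
      · rfl
    have h2 := (ha.2 a'.length hcon).2
    rw [← h1, ha'.1] at h2
    have h3 : m' < m := by exact_mod_cast h2
    omega
  obtain ⟨x, hx1, hx2⟩ : ∃ x, a' = a ++ x ∧ b = x ++ b' := by
    rcases List.append_eq_append_iff.1 h with ⟨c, hc1, hc2⟩ | ⟨c, hc1, hc2⟩
    · exact ⟨c, hc1, hc2⟩
    · have hc : c = [] := by
        have := congrArg List.length hc1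
        rw [List.length_append] at this
        exact List.length_eq_zero_iff.1 (by omega)
      subst hc
      rw [List.append_nil] at hc1
      exact ⟨[], by rw [List.append_nil]; exact hc1.symm, by simpa using hc2.symm⟩
  refine ⟨x, hx1, hx2, ?_, ?_⟩
  · have h1 := ha'.1
    rw [hx1, pos_append, map_add, ha.1] at h1
    push_cast [hm]
    linarith
  · intro j hj
    have hxb : x.length ≤ b.length := by rw [hx2, List.length_append]; omega
    constructor
    · have h1 := (hb.2 j (by omega)).1
      rw [hx2, List.take_append_of_le_length hj.le] at h1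
      exact h1
    · have h1 := (ha'.2 (a.length + j) (by rw [hx1, List.length_append]; omega)).2
      have h2 : a'.take (a.length + j) = a ++ x.take j := by
        rw [hx1, List.take_length_add_append]
      rw [h2, pos_append, map_add, ha.1] at h1
      push_cast [hm]
      linarith

/-- a splitting is determined by its height -/
lemma Br_uniq {g : (Fin d → ℤ) →+ ℤ} {m k : ℕ} {a b a' b' : List (U d)}
    (h : a ++ b = a' ++ b') (ha : Br g m a) (ha' : Br g m a') (hb : Br g k b) :
    a = a' ∧ b = b' := by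
  obtain ⟨x, hx1, hx2, hx3⟩ := Br_mid h ha ha' hb le_rfl
  have hx : x = [] := by
    by_contra hne
    have hpos : 0 < x.length := List.length_pos_iff.2 hne
    have h1 := hx3.2 0 hpos
    rw [Nat.sub_self] at h1
    have := h1.2
    have := h1.1
    push_cast at *
    linarith
  subst hx
  exact ⟨by simpa using hx1.symm, by simpa using hx2⟩

/-- level functions -/
def gU (i : Fin d) : (Fin d → ℤ) →+ ℤ := Pi.evalAddMonoidHom (fun _ => ℤ) i

def gD (i : Fin d) : (Fin d → ℤ) →+ ℤ := -(Pi.evalAddMonoidHom (fun _ => ℤ) i)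

lemma gU_apply (i : Fin d) (x : Fin d → ℤ) : gU i x = x i := rfl

lemma gD_apply (i : Fin d) (x : Fin d → ℤ) : gD i x = - x i := rfl

lemma Abr_iff {i : Fin d} {n : ℕ} {w : List (U d)} : Abr i n w ↔ Br (gU i) n w := Iff.rfl

lemma Bbr_iff {i : Fin d} {n : ℕ} {w : List (U d)} : Bbr i n w ↔ Br (gD i) n w := by
  unfold Bbr Br
  simp only [gD_apply]
  constructor
  · rintro ⟨h1, h2⟩
    refine ⟨by linarith, fun k hk => ?_⟩
    have := h2 k hk
    exact ⟨by linarith [this.2], by linarith [this.1]⟩
  · rintro ⟨h1, h2⟩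
    refine ⟨by linarith, fun k hk => ?_⟩
    have := h2 k hk
    exact ⟨by linarith [this.2], by linarith [this.1]⟩

lemma tsum_bij {A B : Type} (PA : A → Prop) (PB : B → Prop) [DecidablePred PA]
    [DecidablePred PB] (φ : B → A) (f : A → ℝ≥0∞)
    (h1 : ∀ b, PB b → PA (φ b)) (hinj : ∀ b b', PB b → PB b' → φ b = φ b' → b = b')
    (hsurj : ∀ a, PA a → ∃ b, PB b ∧ φ b = a) :
    ∑' a, (if PA a then f a else 0) = ∑' b, (if PB b then f (φ b) else 0) := by
  let e : {b // PB b} ≃ {a // PA a} := Equiv.ofBijective (fun b => ⟨φ b.1, h1 b.1 b.2⟩)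
    ⟨fun b b' h => Subtype.ext (hinj b.1 b'.1 b.2 b'.2 (congrArg Subtype.val h)),
      fun a => by
        obtain ⟨b, hb, hba⟩ := hsurj a.1 a.2
        exact ⟨⟨b, hb⟩, Subtype.ext hba⟩⟩
  have hA : ∑' a, (if PA a then f a else 0) = ∑' a : {a // PA a}, f a.1 := by
    have := tsum_subtype {a | PA a} f
    rw [show (∑' a : {a // PA a}, f a.1) = ∑' a : ({a | PA a} : Set A), f a from rfl, this]
    apply tsum_congr
    intro a
    rw [Set.indicator_apply]
    rfl
  have hB : ∑' b, (if PB b then f (φ b) else 0) = ∑' b : {b // PB b}, f (φ b.1) := by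
    have := tsum_subtype {b | PB b} (fun b => f (φ b))
    rw [show (∑' b : {b // PB b}, f (φ b.1)) = ∑' b : ({b | PB b} : Set B), f (φ b) from rfl,
      this]
    apply tsum_congr
    intro a
    rw [Set.indicator_apply]
    rfl
  rw [hA, hB, ← e.tsum_eq]
  rfl

end DEC

open DEC
open scoped ENNReal

theorem decs : S_DECS := by
  classical
  intro d i n hn G
  have key := tsum_bij (A := List (U d)) (B := SBlk i × List (U d)) (fun w => Abr i n w)
    (fun p => p.1.1.1 ≤ n ∧ Abr i (n - p.1.1.1) p.2) (fun p => p.2 ++ p.1.1.2) G ?_ ?_ ?_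
  · rw [show (∑' w, (open Classical in if Abr i n w then G w else 0)) =
      ∑' a, (if Abr i n a then G a else 0) from rfl, key, ENNReal.tsum_prod']
    apply tsum_congr
    intro c
    by_cases hc : c.1.1 ≤ n
    · rw [if_pos hc]
      apply tsum_congr
      intro w
      simp [hc]
    · rw [if_neg hc]
      simp [hc]
  · rintro ⟨⟨⟨h, a⟩, hirr⟩, w⟩ ⟨h1, h2⟩
    have h3 := Br_append (Abr_iff.1 h2) (Abr_iff.1 hirr.2.1)
    simp only at h1 h3 ⊢
    rw [Nat.sub_add_cancel h1] at h3
    exact h3
  · rintro ⟨⟨⟨h, a⟩, hirr⟩, w⟩ ⟨⟨⟨h', a'⟩, hirr'⟩, w'⟩ ⟨h1, h2⟩ ⟨h1', h2'⟩ heq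
    simp only at h1 h2 h1' h2' heq
    have hp : 1 ≤ h := hirr.1
    have hp' : 1 ≤ h' := hirr'.1
    have hh : h = h' := by
      rcases lt_trichotomy h h' with hlt | heq' | hgt
      · exfalso
        -- n - h' < n - h
        obtain ⟨x, hx1, hx2, hx3⟩ := Br_mid heq.symm (Abr_iff.1 h2') (Abr_iff.1 h2)
          (Abr_iff.1 hirr'.2.1) (by omega)
        refine hirr'.2.2 (n - h - (n - h')) (by omega) (by simp only; omega) ⟨x, a, hx2, hx3, ?_⟩
        simp only
        rw [show h' - (n - h - (n - h')) = h by omega]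
        exact hirr.2.1
      · exact heq'
      · exfalso
        obtain ⟨x, hx1, hx2, hx3⟩ := Br_mid heq (Abr_iff.1 h2) (Abr_iff.1 h2')
          (Abr_iff.1 hirr.2.1) (by omega)
        refine hirr.2.2 (n - h' - (n - h)) (by omega) (by simp only; omega) ⟨x, a', hx2, hx3, ?_⟩
        simp only
        rw [show h - (n - h' - (n - h)) = h' by omega]
        exact hirr'.2.1
    subst hh
    obtain ⟨hw, ha⟩ := Br_uniq heq (Abr_iff.1 h2) (Abr_iff.1 h2') (Abr_iff.1 hirr.2.1)
    subst hw
    subst ha
    rfl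
  · intro w hw
    -- the largest splitting level below n
    let Q : ℕ → Prop := fun m => ∃ a₁ a₂, w = a₁ ++ a₂ ∧ Abr i m a₁ ∧ Abr i (n - m) a₂
    have hQ0 : Q 0 := ⟨[], w, rfl, Abr_iff.2 (Br_nil _), hw⟩
    set m := Nat.findGreatest Q (n - 1) with hm
    have hmQ : Q m := Nat.findGreatest_spec (P := Q) (Nat.zero_le (n - 1)) hQ0
    have hmn : m ≤ n - 1 := Nat.findGreatest_le _
    obtain ⟨a₁, a₂, h1, h2, h3⟩ := hmQ
    have hirr : SIrr i (n - m) a₂ := by
      refine ⟨by omega, h3, ?_⟩
      rintro m' hm0 hm1 ⟨b₁, b₂, hb, hb1, hb2⟩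
      have hle : m + m' ≤ n - 1 := by omega
      have hQ' : Q (m + m') := by
        refine ⟨a₁ ++ b₁, b₂, by rw [h1, hb, List.append_assoc], Abr_iff.2 (Br_append (Abr_iff.1 h2) (Abr_iff.1 hb1)), ?_⟩
        rw [show n - (m + m') = n - m - m' by omega]
        exact hb2
      have := Nat.le_findGreatest hle hQ'
      omega
    refine ⟨(⟨(n - m, a₂), hirr⟩, a₁), ⟨by simp, ?_⟩, ?_⟩
    · simp only
      rw [show n - (n - m) = m by omega]
      exact h2
    · exact h1.symm

end Vale.Agent.P147
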