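import Mathlib
import Vale.Agent.P147.Decs

/-!
P147, module DECP: decomposition of a pair of bridges at its last irreducible block.
-/

namespace Vale.Agent.P147

open DEC
open scoped ENNReal

namespace DEC

variable {d : ℕ}

/-- two decompositions of the same pair of bridges have the same height -/
lemma pair_height {i : Fin d} {n h h' : ℕ} {α α' q q' β β' r r' : List (U d)}
    (hn : h' ≤ n) (hlt : h < h')
    (hirr' : JIrr i h' α' β') (hirr : JIrr i h α β)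
    (hq : Abr i (n - h) q) (hq' : Abr i (n - h') q') (hr : Bbr i (n - h) r)
    (e1 : q ++ α = q' ++ α') (e2 : β ++ r = β' ++ r') : False := by
  have hp : 1 ≤ h := hirr.1
  obtain ⟨x, hx1, hx2, hx3⟩ := Br_mid e1.symm (Abr_iff.1 hq') (Abr_iff.1 hq)
    (Abr_iff.1 hirr'.2.1) (by omega)
  obtain ⟨y, hy1, hy2, hy3⟩ := Br_mid e2 (Bbr_iff.1 hirr.2.2.1) (Bbr_iff.1 hirr'.2.2.1)
    (Bbr_iff.1 hr) (by omega)
  have h1 : n - h - (n - h') = h' - h := by omega
  have h2 : h' - (h' - h) = h := by omega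
  rw [h1] at hx3
  refine hirr'.2.2.2 (h' - h) (by omega) (by omega) ⟨x, α, y, β, hx2, hy1, Abr_iff.2 hx3, ?_, ?_,
    Bbr_iff.2 hy3⟩
  · rw [h2]; exact hirr.2.1
  · rw [h2]; exact hirr.2.2.1

end DEC

theorem decp : S_DECP := by
  classical
  intro d i n hn G
  have key := tsum_bij (A := List (U d) × List (U d))
    (B := Blk i × (List (U d) × List (U d))) (fun p => Abr i n p.1 ∧ Bbr i n p.2)
    (fun p => p.1.1.1 ≤ n ∧ Abr i (n - p.1.1.1) p.2.1 ∧ Bbr i (n - p.1.1.1) p.2.2)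
    (fun p => (p.2.1 ++ p.1.1.2.1, p.1.1.2.2 ++ p.2.2)) (fun p => G p.1 p.2) ?_ ?_ ?_
  · rw [show (∑' p : List (U d) × List (U d),
      (open Classical in if Abr i n p.1 ∧ Bbr i n p.2 then G p.1 p.2 else 0)) =
      ∑' p : List (U d) × List (U d), (if Abr i n p.1 ∧ Bbr i n p.2 then G p.1 p.2 else 0) from rfl,
      key, ENNReal.tsum_prod']
    apply tsum_congr
    intro c
    by_cases hc : c.1.1 ≤ n
    · rw [if_pos hc]
      apply tsum_congr
      intro w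
      simp [hc]
    · rw [if_neg hc]
      simp [hc]
  · rintro ⟨⟨⟨h, α, β⟩, hirr⟩, ⟨q, r⟩⟩ ⟨h1, h2, h3⟩
    simp only at h1 h2 h3 ⊢
    have h4 := Br_append (Abr_iff.1 h2) (Abr_iff.1 hirr.2.1)
    have h5 := Br_append (Bbr_iff.1 hirr.2.2.1) (Bbr_iff.1 h3)
    simp only at h4 h5
    rw [Nat.sub_add_cancel h1] at h4
    rw [Nat.add_sub_cancel' h1] at h5
    exact ⟨Abr_iff.2 h4, Bbr_iff.2 h5⟩
  · rintro ⟨⟨⟨h, α, β⟩, hirr⟩, ⟨q, r⟩⟩ ⟨⟨⟨h', α', β'⟩, hirr'⟩, ⟨q', r'⟩⟩ ⟨h1, h2, h3⟩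
      ⟨h1', h2', h3'⟩ heq
    simp only [Prod.mk.injEq] at h1 h2 h3 h1' h2' h3' heq
    obtain ⟨e1, e2⟩ := heq
    have hh : h = h' := by
      rcases lt_trichotomy h h' with hlt | heq' | hgt
      · exact (pair_height h1' hlt hirr' hirr h2 h2' h3 e1 e2).elim
      · exact heq'
      · exact (pair_height h1 hgt hirr hirr' h2' h2 h3' e1.symm e2.symm).elim
    subst hh
    obtain ⟨hw, ha⟩ := Br_uniq e1 (Abr_iff.1 h2) (Abr_iff.1 h2') (Abr_iff.1 hirr.2.1)
    obtain ⟨hb, hr⟩ := Br_uniq e2 (Bbr_iff.1 hirr.2.2.1) (Bbr_iff.1 hirr'.2.2.1) (Bbr_iff.1 h3)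
    subst hw
    subst ha
    subst hb
    subst hr
    rfl
  · rintro ⟨α, β⟩ ⟨hα, hβ⟩
    have hQ0 : JCut i n α β 0 := ⟨[], α, [], β, rfl, (List.append_nil _).symm,
      Abr_iff.2 (Br_nil _), hα, hβ, Bbr_iff.2 (Br_nil _)⟩
    set m := Nat.findGreatest (JCut i n α β) (n - 1) with hm
    have hmQ : JCut i n α β m := Nat.findGreatest_spec (P := JCut i n α β)
      (Nat.zero_le (n - 1)) hQ0
    have hmn : m ≤ n - 1 := Nat.findGreatest_le _
    obtain ⟨α₁, α₂, β₁, β₂, e1, e2, a1, a2, b2, b1⟩ := hmQ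
    have hirr : JIrr i (n - m) α₂ β₂ := by
      refine ⟨by omega, a2, b2, ?_⟩
      rintro m' hm0 hm1 ⟨x₁, x₂, y₁, y₂, f1, f2, c1, c2, d2, d1⟩
      have hle : m + m' ≤ n - 1 := by omega
      have hQ' : JCut i n α β (m + m') := by
        refine ⟨α₁ ++ x₁, x₂, y₁ ++ β₁, y₂, by rw [e1, f1, List.append_assoc],
          by rw [e2, f2, List.append_assoc],
          Abr_iff.2 (Br_append (Abr_iff.1 a1) (Abr_iff.1 c1)), ?_, ?_, ?_⟩
        · rw [show n - (m + m') = n - m - m' by omega]; exact c2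
        · rw [show n - (m + m') = n - m - m' by omega]; exact d2
        · rw [show m + m' = m' + m by omega]
          exact Bbr_iff.2 (Br_append (Bbr_iff.1 d1) (Bbr_iff.1 b1))
      have := Nat.le_findGreatest hle hQ'
      omega
    refine ⟨(⟨(n - m, α₂, β₂), hirr⟩, (α₁, β₁)), ⟨by simp, ?_, ?_⟩, ?_⟩
    · simp only
      rw [show n - (n - m) = m by omega]
      exact a1
    · simp only
      rw [show n - (n - m) = m by omega]
      exact b1
    · simp only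
      rw [← e1, ← e2]

end Vale.Agent.P147
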