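import Vale.Agent.P147.Defs

/-!
# P147, module ESC (helper20): the escape inequality
-/

namespace Vale.Agent.P147

open MeasureTheory Filter
open scoped ENNReal

namespace Esc

variable {d : ℕ}

theorem pos_append (a b : List (U d)) : pos (a ++ b) = pos a + pos b := by
  unfold pos; simp

theorem pos_nil : pos ([] : List (U d)) = 0 := rfl

theorem pos_cons (t : U d) (b : List (U d)) : pos (t :: b) = stp t + pos b := by
  unfold pos; simp

/-- lateral words reach every lateral vector -/
theorem exists_lateral (i : Fin d) (v : Fin d → ℤ) (hv : v i = 0) :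
    ∃ π : List (U d), pos π = v ∧ ∀ t ∈ π, t.1 ≠ i := by
  have hadd : ∀ v w : Fin d → ℤ, (∃ π : List (U d), pos π = v ∧ ∀ t ∈ π, t.1 ≠ i) →
      (∃ π : List (U d), pos π = w ∧ ∀ t ∈ π, t.1 ≠ i) →
      (∃ π : List (U d), pos π = v + w ∧ ∀ t ∈ π, t.1 ≠ i) := by
    rintro v w ⟨a, ha, ha'⟩ ⟨b, hb, hb'⟩
    refine ⟨a ++ b, by rw [pos_append, ha, hb], ?_⟩
    intro t ht
    rcases List.mem_append.1 ht with h | h
    · exact ha' t h
    · exact hb' t h
  have hzero : ∃ π : List (U d), pos π = 0 ∧ ∀ t ∈ π, t.1 ≠ i := ⟨[], pos_nil, by simp⟩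
  have hunit : ∀ (j : Fin d) (s : Bool), j ≠ i → ∀ n : ℕ,
      ∃ π : List (U d), pos π = Pi.single j (if s then (n : ℤ) else -(n : ℤ)) ∧
        ∀ t ∈ π, t.1 ≠ i := by
    intro j s hj n
    induction n with
    | zero => simpa using hzero
    | succ n ih =>
        have h1 : ∃ π : List (U d), pos π = stp (j, s) ∧ ∀ t ∈ π, t.1 ≠ i :=
          ⟨[(j, s)], by rw [pos_cons, pos_nil, add_zero], by simpa using hj⟩
        have h2 := hadd _ _ ih h1
        have e : Pi.single j (if s then (n : ℤ) else -(n : ℤ)) + stp (j, s) =
            (Pi.single j (if s then ((n + 1 : ℕ) : ℤ) else -((n + 1 : ℕ) : ℤ)) : Fin d → ℤ) := by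
          unfold stp
          rw [← Pi.single_add]
          congr 1
          cases s <;> (simp; try ring)
        rwa [e] at h2
  have hv' : v = ∑ j, Pi.single j (v j) := (Finset.univ_sum_single v).symm
  rw [hv']
  apply Finset.sum_induction _ (fun v => ∃ π : List (U d), pos π = v ∧ ∀ t ∈ π, t.1 ≠ i) hadd
    hzero
  intro j _
  by_cases hj : j = i
  · subst hj
    rw [hv]
    simpa using hzero
  · rcases le_total 0 (v j) with h | h
    · have := hunit j true hj (v j).toNat
      simpa [Int.toNat_of_nonneg h] using this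
    · have := hunit j false hj (-(v j)).toNat
      have h' : 0 ≤ -(v j) := by omega
      simpa [Int.toNat_of_nonneg h'] using this

theorem level_zero {i : Fin d} {π : List (U d)} (h : ∀ t ∈ π, t.1 ≠ i) : pos π i = 0 := by
  induction π with
  | nil => rfl
  | cons t b ih =>
      rw [pos_cons]
      have h1 : t.1 ≠ i := h t (by simp)
      have h2 := ih (fun s hs => h s (by simp [hs]))
      simp only [Pi.add_apply, h2, stp, Pi.single_apply, add_zero]
      rw [if_neg (Ne.symm h1)]

/-- the detour word -/
def DD (i : Fin d) (π : List (U d)) : List (U d) := π ++ [(i, false)]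

theorem pos_DD (i : Fin d) (π : List (U d)) : pos (DD i π) = pos π - Pi.single i 1 := by
  unfold DD
  rw [pos_append, pos_cons, pos_nil]
  unfold stp
  simp only [Bool.false_eq_true, if_false, add_zero, Pi.single_neg]
  rfl

theorem level_DD {i : Fin d} {π : List (U d)} (h : ∀ t ∈ π, t.1 ≠ i) (k : ℕ)
    (hk : k < (DD i π).length) : pos ((DD i π).take k) i = 0 := by
  apply level_zero
  intro t ht
  have hk' : k ≤ π.length := by
    unfold DD at hk
    simp at hk
    omega
  unfold DD at ht
  rw [List.take_append_of_le_length hk'] at ht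
  exact h t (List.mem_of_mem_take ht)

/-- positions along an append -/
theorem take_append_cases (a b : List (U d)) (k : ℕ) (hk : k < (a ++ b).length) :
    (k < a.length ∧ (a ++ b).take k = a.take k) ∨
      ∃ l < b.length, k = a.length + l ∧ pos ((a ++ b).take k) = pos a + pos (b.take l) := by
  rcases lt_or_ge k a.length with h | h
  · left
    exact ⟨h, List.take_append_of_le_length h.le⟩
  · right
    obtain ⟨l, rfl⟩ := Nat.exists_eq_add_of_le h
    refine ⟨l, ?_, rfl, ?_⟩
    · rw [List.length_append] at hk; omega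
    · rw [List.take_length_add_append, pos_append]

end Esc

open Esc in
theorem esc (hK : S_KRAFT) : S_ESC := by
  intro d i W hW z
  classical
  obtain ⟨π, hπ, hlat⟩ := exists_lateral i (em z) (by simp [em])
  set D : List (U d) := DD i π with hD
  have hposD : pos D = em z - Pi.single i 1 := by rw [hD, pos_DD, hπ]
  have hposDi : pos D i = -1 := by rw [hposD]; simp [em]
  have hlevD : ∀ k < D.length, pos (D.take k) i = 0 := fun k hk => level_DD hlat k hk
  -- good triples
  let G : Set (ℕ × (List (U d) × List (U d))) :=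
    {q | Abr i q.1 q.2.1 ∧ Bbr i q.1 q.2.2 ∧ ¬ Hit i q.2.1 q.2.2 z}
  let wd : ℕ × (List (U d) × List (U d)) → List (U d) := fun q => q.2.1 ++ (D ++ q.2.2)
  -- levels
  have hlev : ∀ q ∈ G, ∀ k < (wd q).length, 0 ≤ pos ((wd q).take k) i ∧
      pos ((wd q).take k) i ≤ q.1 := by
    rintro ⟨n, α, β⟩ ⟨hα, hβ, -⟩ k hk
    simp only at hα hβ
    rcases take_append_cases α (D ++ β) k hk with ⟨h1, h2⟩ | ⟨l, hl, -, h2⟩
    · show 0 ≤ pos ((α ++ (D ++ β)).take k) i ∧ pos ((α ++ (D ++ β)).take k) i ≤ n
      rw [h2]
      have := hα.2 k h1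
      exact ⟨this.1, this.2.le⟩
    · show 0 ≤ pos ((α ++ (D ++ β)).take k) i ∧ pos ((α ++ (D ++ β)).take k) i ≤ n
      rw [h2, Pi.add_apply, hα.1]
      rcases take_append_cases D β l hl with ⟨h3, h4⟩ | ⟨m, hm, -, h4⟩
      · rw [h4, hlevD l h3]
        constructor <;> omega
      · rw [h4, Pi.add_apply, hposDi]
        have := hβ.2 m hm
        constructor <;> omega
  have hend : ∀ q ∈ G, pos (wd q) i = -1 := by
    rintro ⟨n, α, β⟩ ⟨hα, hβ, -⟩
    simp only at hα hβ
    show pos (α ++ (D ++ β)) i = -1
    rw [pos_append, pos_append, Pi.add_apply, Pi.add_apply, hα.1, hposDi, hβ.1]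
    ring
  -- multiplicativity
  have hmul : ∀ q ∈ G, W (wd q) = W D * (W q.2.1 * W q.2.2) := by
    rintro ⟨n, α, β⟩ ⟨hα, hβ, hno⟩
    simp only at hα hβ hno
    show W (α ++ (D ++ β)) = W D * (W α * W β)
    rw [hW.indep α (D ++ β), hW.indep D β]
    · ring
    · intro k hk l hl hcon
      have := congrFun hcon i
      rw [Pi.add_apply, hlevD k hk, hposDi] at this
      have h2 := (hβ.2 l hl).2
      omega
    · intro k hk l hl hcon
      rcases take_append_cases D β l hl with ⟨h3, h4⟩ | ⟨m, hm, -, h4⟩
      · have := congrFun hcon i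
        rw [Pi.add_apply, h4, hlevD l h3, hα.1] at this
        have h2 := (hα.2 k hk).2
        omega
      · apply hno
        refine ⟨k, hk, m, hm, ?_⟩
        rw [hcon, h4, hposD]
        abel
  -- injectivity
  have hinj : ∀ q ∈ G, ∀ q' ∈ G, wd q = wd q' → q = q' := by
    have key : ∀ q ∈ G, ∀ q' ∈ G, wd q = wd q' → q.2.1.length ≤ q'.2.1.length := by
      intro q hq q' hq' he
      by_contra hcon
      push Not at hcon
      obtain ⟨n, α, β⟩ := q
      obtain ⟨n', α', β'⟩ := q'
      simp only at hcon
      -- `α'` is a proper beginning of `α`, so `n' < n`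
      have hα := hq.1
      have hα' := hq'.1
      simp only at hα hα'
      have e : α ++ (D ++ β) = α' ++ (D ++ β') := he
      have h1 : α.take α'.length = α' := by
        have := congrArg (List.take α'.length) e
        rwa [List.take_append_of_le_length hcon.le, List.take_left'  rfl] at this
      have h2 := (hα.2 α'.length hcon).2
      rw [h1, hα'.1] at h2
      -- the level of `α` is at most `n'`
      have h3 := (hlev _ hq' α.length (by
        rw [← he]
        show α.length < (α ++ (D ++ β)).length
        have : 0 < D.length := by rw [hD]; unfold DD; simp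
        simp only [List.length_append]
        omega)).2
      rw [← he] at h3
      have h4 : (wd (n, α, β)).take α.length = α := by
        show (α ++ (D ++ β)).take α.length = α
        exact List.take_left' rfl
      rw [h4, hα.1] at h3
      simp only at h3
      omega
    intro q hq q' hq' he
    have hl := le_antisymm (key q hq q' hq' he) (key q' hq' q hq he.symm)
    obtain ⟨n, α, β⟩ := q
    obtain ⟨n', α', β'⟩ := q'
    simp only at hl
    have e : α ++ (D ++ β) = α' ++ (D ++ β') := he
    obtain ⟨e1, e2⟩ := List.append_inj e hl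
    have e3 := List.append_cancel_left e2
    subst e1
    subst e3
    have h1 : pos α i = n := hq.1.1
    have h2 : pos α i = n' := hq'.1.1
    have : n = n' := by omega
    subst this
    rfl
  -- prefix-free
  have hpre : ∀ a ∈ wd '' G, ∀ b ∈ wd '' G, a <+: b → a = b := by
    rintro _ ⟨q, hq, rfl⟩ _ ⟨q', hq', rfl⟩ hab
    by_contra hne
    have hlt : (wd q).length < (wd q').length := by
      rcases lt_or_eq_of_le hab.length_le with h | h
      · exact h
      · exact absurd (hab.eq_of_length h) hne
    have h1 := (hlev q' hq' _ hlt).1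
    rw [← List.prefix_iff_eq_take.1 hab, hend q hq] at h1
    omega
  have hkr := hK d W hW (wd '' G) hpre
  -- the sum
  have hsum : (∑' n, bb W i n z) * W D ≤ 1 := by
    calc (∑' n, bb W i n z) * W D
        = ∑' q : ℕ × (List (U d) × List (U d)), G.indicator (fun q => W (wd q)) q := by
          rw [ENNReal.tsum_prod', mul_comm, ← ENNReal.tsum_mul_left]
          refine tsum_congr fun n => ?_
          unfold bb
          rw [← ENNReal.tsum_mul_left]
          refine tsum_congr fun p => ?_
          by_cases h : Abr i n p.1 ∧ Bbr i n p.2 ∧ ¬ Hit i p.1 p.2 z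
          · have hm : (n, p) ∈ G := h
            rw [if_pos h, Set.indicator_of_mem hm, hmul _ hm]
          · have hm : (n, p) ∉ G := h
            rw [if_neg h, Set.indicator_of_notMem hm, mul_zero]
      _ = ∑' q : G, W (wd q) := (tsum_subtype G (fun q => W (wd q))).symm
      _ = ∑' w : wd '' G, W w := by
          have hio : Set.InjOn wd G := fun q hq q' hq' he => hinj q hq q' hq' he
          exact (tsum_image W hio).symm
      _ ≤ 1 := hkr
  intro htop
  rw [htop, ENNReal.top_mul (hW.ne_zero D)] at hsum
  exact absurd hsum (by simp)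

end Vale.Agent.P147
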