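import Vale.Agent.P147.H4

namespace Vale.Agent.P147.KHITx

open scoped ENNReal
open Vale.Agent.P147 Vale.Agent.P147.H4

variable {d : ℕ} {i : Fin d}

open Classical in
/-- the colliding pairs -/
noncomputable def prs (i : Fin d) (n : ℕ) (α β : List (U d)) : Finset (ℕ × ℕ) :=
  (Finset.range n).biUnion fun j =>
    ((Finset.range α.length).filter fun k => pos (α.take k) i = j) ×ˢ
    ((Finset.range β.length).filter fun l => pos (β.take l) i = -((n - 1 - j : ℕ) : ℤ))

lemma card_prs (n : ℕ) (α β : List (U d)) :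
    (prs i n α β).card ≤ ∑ j ∈ Finset.range n, vis i j α * vis i (-((n - 1 - j : ℕ) : ℤ)) β := by
  classical
  unfold prs vis
  refine Finset.card_biUnion_le.trans (Finset.sum_le_sum fun j _ => ?_)
  rw [Finset.card_product]

end Vale.Agent.P147.KHITx

namespace Vale.Agent.P147

open scoped ENNReal
open Vale.Agent.P147.H4 Vale.Agent.P147.KHITx

theorem khit : S_KHIT := by
  classical
  intro d i n α β hα hβ
  let f : ℕ × ℕ → L i := fun p j =>
    pos (α.take p.1) j - pos α j - pos (β.take p.2) j
  let T : Finset (L i) := (prs i n α β).image f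
  have key : ∀ z : L i, Hit i α β z → z ∈ T := by
    rintro z ⟨k, hk, l, hl, h⟩
    rw [Finset.mem_image]
    refine ⟨(k, l), ?_, ?_⟩
    · unfold prs
      have hi := congrFun h i
      simp only [Pi.add_apply, Pi.sub_apply, Pi.single_eq_same, em, ne_eq, not_true_eq_false,
        dite_false, add_zero] at hi
      obtain ⟨h1, h2⟩ := hα.2 k hk
      have h3 := hα.1
      rw [Finset.mem_biUnion]
      refine ⟨(pos (α.take k) i).toNat, ?_, ?_⟩
      · rw [Finset.mem_range]; omega
      · rw [Finset.mem_product, Finset.mem_filter, Finset.mem_filter, Finset.mem_range,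
          Finset.mem_range]
        refine ⟨⟨hk, ?_⟩, ⟨hl, ?_⟩⟩
        · show pos (α.take k) i = _
          omega
        · show pos (β.take l) i = _
          omega
    · funext j
      have hj := congrFun h j
      simp only [Pi.add_apply, Pi.sub_apply, em, ne_eq, j.2, not_false_eq_true, dite_true] at hj
      rw [Pi.single_eq_of_ne j.2] at hj
      show pos (α.take k) j - pos α j - pos (β.take l) j = z j
      rw [hj]
      ring
  have h1 : (∑' z : L i, if Hit i α β z then (1 : ℝ≥0∞) else 0) ≤
      ∑' z : L i, if z ∈ T then (1 : ℝ≥0∞) else 0 := by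
    refine ENNReal.tsum_le_tsum fun z => ?_
    by_cases h : Hit i α β z
    · simp [h, key z h]
    · simp [h]
  have h2 : (∑' z : L i, if z ∈ T then (1 : ℝ≥0∞) else 0) = T.card := by
    rw [tsum_eq_sum (s := T) (fun z hz => if_neg hz)]
    rw [Finset.sum_congr rfl (fun z hz => if_pos hz)]
    simp
  rw [h2] at h1
  refine h1.trans ?_
  have h3 : T.card ≤ ∑ j ∈ Finset.range n, vis i j α * vis i (-((n - 1 - j : ℕ) : ℤ)) β :=
    Finset.card_image_le.trans (card_prs n α β)
  calc (T.card : ℝ≥0∞) ≤ ((∑ j ∈ Finset.range n,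
      vis i j α * vis i (-((n - 1 - j : ℕ) : ℤ)) β : ℕ) : ℝ≥0∞) := by exact_mod_cast h3
    _ = _ := by push_cast; rfl

end Vale.Agent.P147
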