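import Vale.Agent.P147.Defs

/-!
# P147 (partial), module KONE
-/

namespace Vale.Agent.P147

open MeasureTheory Filter
open scoped ENNReal

namespace KONEX

variable {d : ℕ} {i : Fin d}

lemma pos_append (a b : List (U d)) : pos (a ++ b) = pos a + pos b := by
  unfold pos
  rw [List.map_append, List.sum_append]

lemma vis_eq_sum (j : ℤ) (w : List (U d)) :
    vis i j w = ∑ k ∈ Finset.range w.length, if pos (w.take k) i = j then 1 else 0 := by
  unfold vis
  rw [Finset.card_filter]

lemma vis_append (j : ℤ) (a b : List (U d)) :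
    vis i j (a ++ b) = vis i j a + vis i (j - pos a i) b := by
  rw [vis_eq_sum, vis_eq_sum, vis_eq_sum, List.length_append, Finset.sum_range_add]
  congr 1
  · refine Finset.sum_congr rfl fun k hk => ?_
    rw [List.take_append_of_le_length (Finset.mem_range.1 hk).le]
  · refine Finset.sum_congr rfl fun k _ => ?_
    rw [List.take_length_add_append, pos_append]
    congr 1
    simp only [Pi.add_apply, eq_iff_iff]
    constructor <;> intro h <;> omega

lemma vis_zero (j : ℤ) (w : List (U d)) (h : ∀ k < w.length, pos (w.take k) i ≠ j) :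
    vis i j w = 0 := by
  unfold vis
  rw [Finset.card_eq_zero, Finset.filter_eq_empty_iff]
  intro k hk
  exact h k (Finset.mem_range.1 hk)

variable (i) in
/-- the number of pairs of visits at equal levels -/
noncomputable def kap (n : ℕ) (α β : List (U d)) : ℝ≥0∞ :=
  ∑ j ∈ Finset.range n, (vis i j α : ℝ≥0∞) * (vis i (-((n - 1 - j : ℕ) : ℤ)) β : ℝ≥0∞)

lemma kap_append {m h : ℕ} {a b α β : List (U d)} (ha : Abr i m a) (hb : Bbr i m b)
    (hα : Abr i h α) (hβ : Bbr i h β) :
    kap i (m + h) (a ++ α) (β ++ b) = kap i m a b + kap i h α β := by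
  unfold kap
  rw [Finset.sum_range_add]
  congr 1
  · refine Finset.sum_congr rfl fun j hj => ?_
    have hj := Finset.mem_range.1 hj
    rw [vis_append, vis_append, ha.1, hβ.1]
    rw [vis_zero (i := i) ((j : ℤ) - m) α (fun k hk => by
      have := (hα.2 k hk).1
      omega)]
    rw [vis_zero (i := i) (-((m + h - 1 - j : ℕ) : ℤ)) β (fun k hk => by
      have := (hβ.2 k hk).1
      omega)]
    have e : -((m + h - 1 - j : ℕ) : ℤ) - -(h : ℤ) = -((m - 1 - j : ℕ) : ℤ) := by omega
    rw [e]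
    simp
  · refine Finset.sum_congr rfl fun j hj => ?_
    have hj := Finset.mem_range.1 hj
    rw [vis_append, vis_append, ha.1, hβ.1]
    rw [vis_zero (i := i) (((m + j : ℕ) : ℤ)) a (fun k hk => by
      have := (ha.2 k hk).2
      push_cast
      omega)]
    rw [vis_zero (i := i) (-((m + h - 1 - (m + j) : ℕ) : ℤ) - -(h : ℤ)) b (fun k hk => by
      have := (hb.2 k hk).2
      omega)]
    have e : -((m + h - 1 - (m + j) : ℕ) : ℤ) = -((h - 1 - j : ℕ) : ℤ) := by omega
    have e2 : ((m + j : ℕ) : ℤ) - m = (j : ℤ) := by push_cast; omega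
    rw [e, e2]
    simp

open Classical in
/-- renewal equation of the products -/
lemma renewal (hDECP : S_DECP) (hWMUL : S_WMUL) {W : List (U d) → ℝ≥0∞} (hW : Wt W) {n : ℕ}
    (hn : 1 ≤ n) : uA W i n * uB W i n = ∑' c : Blk i, if c.1.1 ≤ n then
      W c.1.2.1 * W c.1.2.2 * (uA W i (n - c.1.1) * uB W i (n - c.1.1)) else 0 := by
  have key : ∀ n, uA W i n * uB W i n = ∑' p : List (U d) × List (U d),
      if Abr i n p.1 ∧ Bbr i n p.2 then W p.1 * W p.2 else 0 := by
    intro n
    unfold uA uB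
    rw [← ENNReal.tsum_mul_right, ENNReal.tsum_prod']
    refine tsum_congr fun a => ?_
    rw [← ENNReal.tsum_mul_left]
    refine tsum_congr fun b => ?_
    by_cases h1 : Abr i n a <;> by_cases h2 : Bbr i n b <;> simp [h1, h2]
  rw [key, hDECP d i n hn (fun a b => W a * W b)]
  refine tsum_congr fun c => ?_
  split_ifs with hc
  · rw [key, ← ENNReal.tsum_mul_left]
    refine tsum_congr fun q => ?_
    split_ifs with hq
    · rw [(hWMUL d i W hW).1 _ _ _ _ hq.1 c.2.2.1, (hWMUL d i W hW).2 _ _ _ _ hq.2 c.2.2.2.1]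
      ring
    · simp
  · rfl

open Classical in
/-- the sums -/
noncomputable def SS (W : List (U d) → ℝ≥0∞) (i : Fin d) (n : ℕ) : ℝ≥0∞ :=
  ∑' p : List (U d) × List (U d), if Abr i n p.1 ∧ Bbr i n p.2 then
    W p.1 * W p.2 * kap i n p.1 p.2 else 0

open Classical in
noncomputable def psi (W : List (U d) → ℝ≥0∞) (i : Fin d) (n : ℕ) : ℝ≥0∞ :=
  ∑' c : Blk i, if c.1.1 ≤ n then W c.1.2.1 * W c.1.2.2 * kap i c.1.1 c.1.2.1 c.1.2.2 *
    (uA W i (n - c.1.1) * uB W i (n - c.1.1)) else 0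

open Classical in
lemma SS_eq (hDECP : S_DECP) (hWMUL : S_WMUL) {W : List (U d) → ℝ≥0∞} (hW : Wt W) {n : ℕ}
    (hn : 1 ≤ n) : SS W i n = (∑' c : Blk i, if c.1.1 ≤ n then
      W c.1.2.1 * W c.1.2.2 * SS W i (n - c.1.1) else 0) + psi W i n := by
  have key : ∀ n, uA W i n * uB W i n = ∑' p : List (U d) × List (U d),
      if Abr i n p.1 ∧ Bbr i n p.2 then W p.1 * W p.2 else 0 := by
    intro n
    unfold uA uB
    rw [← ENNReal.tsum_mul_right, ENNReal.tsum_prod']
    refine tsum_congr fun a => ?_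
    rw [← ENNReal.tsum_mul_left]
    refine tsum_congr fun b => ?_
    by_cases h1 : Abr i n a <;> by_cases h2 : Bbr i n b <;> simp [h1, h2]
  have h0 : SS W i n = ∑' p : List (U d) × List (U d), if Abr i n p.1 ∧ Bbr i n p.2 then
      (fun a b => W a * W b * kap i n a b) p.1 p.2 else 0 := rfl
  rw [h0, hDECP d i n hn (fun a b => W a * W b * kap i n a b)]
  unfold psi
  rw [← ENNReal.tsum_add]
  refine tsum_congr fun c => ?_
  split_ifs with hc
  · unfold SS
    rw [key, ← ENNReal.tsum_mul_left, ← ENNReal.tsum_mul_left, ← ENNReal.tsum_add]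
    refine tsum_congr fun q => ?_
    split_ifs with hq
    · have h2 := kap_append hq.1 hq.2 c.2.2.1 c.2.2.2.1
      rw [Nat.sub_add_cancel hc] at h2
      rw [(hWMUL d i W hW).1 _ _ _ _ hq.1 c.2.2.1, (hWMUL d i W hW).2 _ _ _ _ hq.2 c.2.2.2.1, h2]
      ring
    · simp
  · simp

open Classical in
lemma SS_le {W : List (U d) → ℝ≥0∞} {τ : ℝ≥0∞} (hτ : ∀ n j : ℕ,
    (∑' w, if Abr i n w then W w * (vis i j w : ℝ≥0∞) else 0) ≤ τ ∧
    (∑' w, if Bbr i n w then W w * (vis i (-(j : ℤ)) w : ℝ≥0∞) else 0) ≤ τ) (n : ℕ) :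
    SS W i n ≤ n * (τ * τ) := by
  have h : SS W i n = ∑ j ∈ Finset.range n,
      (∑' w, if Abr i n w then W w * (vis i j w : ℝ≥0∞) else 0) *
      (∑' w, if Bbr i n w then W w * (vis i (-((n - 1 - j : ℕ) : ℤ)) w : ℝ≥0∞) else 0) := by
    unfold SS
    have e1 : ∀ p : List (U d) × List (U d), (if Abr i n p.1 ∧ Bbr i n p.2 then
        W p.1 * W p.2 * kap i n p.1 p.2 else 0) = ∑ j ∈ Finset.range n,
        (if Abr i n p.1 then W p.1 * (vis i j p.1 : ℝ≥0∞) else 0) *
        (if Bbr i n p.2 then W p.2 * (vis i (-((n - 1 - j : ℕ) : ℤ)) p.2 : ℝ≥0∞) else 0) := by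
      intro p
      unfold kap
      by_cases h1 : Abr i n p.1 <;> by_cases h2 : Bbr i n p.2 <;> simp only [h1, h2, and_self,
        if_true, if_false, and_true, and_false, mul_zero, zero_mul, Finset.sum_const_zero]
      rw [Finset.mul_sum]
      refine Finset.sum_congr rfl fun j _ => ?_
      ring
    simp_rw [e1]
    rw [Summable.tsum_finsetSum (fun j _ => ENNReal.summable)]
    refine Finset.sum_congr rfl fun j _ => ?_
    rw [← ENNReal.tsum_mul_right, ENNReal.tsum_prod']
    refine tsum_congr fun a => ?_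
    rw [← ENNReal.tsum_mul_left]
  rw [h]
  calc _ ≤ ∑ _j ∈ Finset.range n, τ * τ :=
        Finset.sum_le_sum fun j _ => mul_le_mul' (hτ n j).1 (hτ n (n - 1 - j)).2
    _ = n * (τ * τ) := by rw [Finset.sum_const, Finset.card_range, nsmul_eq_mul]

end KONEX

open KONEX in
theorem kone (hDECP : S_DECP) (hWMUL : S_WMUL) (hRENEQ : S_RENEQ) (hKHIT : S_KHIT) :
    S_KONE := by
  classical
  intro d i W hW ⟨p, hp0, hp⟩ ⟨τ, hτt, hτ⟩
  have hu0 : uA W i 0 * uB W i 0 = 1 := by
    have h1 : ∀ w : List (U d), Abr i 0 w ↔ w = [] := by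
      intro w
      constructor
      · intro h
        by_contra hne
        have hl : 0 < w.length := List.length_pos_iff.2 hne
        have := h.2 0 hl
        simp [pos] at this
      · rintro rfl
        refine ⟨by simp [pos], fun k hk => absurd hk (by simp)⟩
    have h2 : ∀ w : List (U d), Bbr i 0 w ↔ w = [] := by
      intro w
      constructor
      · intro h
        by_contra hne
        have hl : 0 < w.length := List.length_pos_iff.2 hne
        have := h.2 0 hl
        simp [pos] at this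
      · rintro rfl
        refine ⟨by simp [pos], fun k hk => absurd hk (by simp)⟩
    unfold uA uB
    simp only [h1, h2, tsum_ite_eq]
    rw [hW.nil, one_mul]
  have hren := hRENEQ (Blk i) (fun c => W c.1.2.1 * W c.1.2.2) (fun c => c.1.1)
    (fun n => uA W i n * uB W i n) (SS W i) (psi W i) (fun c => c.2.1) hu0
    (fun n hn => renewal hDECP hWMUL hW hn)
    (by
      have h1 : SS W i 0 = 0 := by
        unfold SS kap
        simp
      have h2 : psi W i 0 = 0 := by
        unfold psi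
        rw [ENNReal.tsum_eq_zero]
        intro c
        have := c.2.1
        rw [if_neg (by omega)]
      rw [h1, h2])
    (fun n hn => SS_eq hDECP hWMUL hW hn)
  set c0 : ℝ≥0∞ := p * p with hc0
  have hc0' : c0 ≠ 0 := mul_ne_zero hp0 hp0
  have hR : ∀ n, c0 ≤ uA W i n * uB W i n := fun n => mul_le_mul' (hp n).1 (hp n).2
  have hpt : p ≠ ⊤ := by
    rintro rfl
    have := hR 0
    rw [hu0, hc0] at this
    simp at this
  have hc0t : c0 ≠ ⊤ := ENNReal.mul_ne_top hpt hpt
  set V : Blk i → ℝ≥0∞ := fun c => W c.1.2.1 * W c.1.2.2 * kap i c.1.1 c.1.2.1 c.1.2.2 with hV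
  have hQ : ∀ m0 : ℕ, ∑' c : Blk i, (if c.1.1 ≤ m0 then V c else 0) ≤ 2 * (τ * τ) / (c0 * c0) := by
    intro m0
    set Q := ∑' c : Blk i, (if c.1.1 ≤ m0 then V c else 0) with hQ
    have hpsi : ∀ m, m0 ≤ m → c0 * Q ≤ psi W i m := by
      intro m hm
      rw [hQ, ← ENNReal.tsum_mul_left]
      unfold psi
      refine ENNReal.tsum_le_tsum fun c => ?_
      by_cases hc : c.1.1 ≤ m0
      · rw [if_pos hc, if_pos (hc.trans hm), mul_comm]
        exact mul_le_mul' le_rfl (hR _)
      · rw [if_neg hc, mul_zero]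
        exact bot_le
    have h1 : ((m0 + 1 : ℕ) : ℝ≥0∞) * (c0 * (c0 * Q)) ≤ (2 * m0 : ℕ) * (τ * τ) := by
      refine le_trans ?_ (SS_le (W := W) (i := i) hτ (2 * m0))
      rw [hren (2 * m0)]
      calc ((m0 + 1 : ℕ) : ℝ≥0∞) * (c0 * (c0 * Q))
          = ∑ m ∈ Finset.Ico m0 (2 * m0 + 1), c0 * (c0 * Q) := by
            rw [Finset.sum_const, Nat.card_Ico, nsmul_eq_mul]
            congr 2
            omega
        _ ≤ ∑ m ∈ Finset.Ico m0 (2 * m0 + 1), uA W i (2 * m0 - m) * uB W i (2 * m0 - m) *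
            psi W i m :=
            Finset.sum_le_sum fun m hm => mul_le_mul' (hR _) (hpsi m (Finset.mem_Ico.1 hm).1)
        _ ≤ _ := by
            apply Finset.sum_le_sum_of_subset
            intro m hm
            rw [Finset.mem_range]
            exact (Finset.mem_Ico.1 hm).2
    rw [ENNReal.le_div_iff_mul_le (Or.inl (mul_ne_zero hc0' hc0'))
      (Or.inl (ENNReal.mul_ne_top hc0t hc0t))]
    have h2 : ((m0 + 1 : ℕ) : ℝ≥0∞) * (Q * (c0 * c0)) ≤ ((m0 + 1 : ℕ) : ℝ≥0∞) * (2 * (τ * τ)) := by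
      calc ((m0 + 1 : ℕ) : ℝ≥0∞) * (Q * (c0 * c0)) = ((m0 + 1 : ℕ) : ℝ≥0∞) * (c0 * (c0 * Q)) := by
            ring
        _ ≤ (2 * m0 : ℕ) * (τ * τ) := h1
        _ ≤ (2 * (m0 + 1) : ℕ) * (τ * τ) := by
            gcongr
            omega
        _ = _ := by push_cast; ring
    rwa [ENNReal.mul_le_mul_iff_right (by simp) (by simp)] at h2
  have hfin : ∑' c, V c ≤ 2 * (τ * τ) / (c0 * c0) := by
    rw [ENNReal.tsum_eq_iSup_sum]
    refine iSup_le fun F => ?_
    refine le_trans ?_ (hQ (F.sup fun c => c.1.1))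
    refine le_trans ?_ (ENNReal.sum_le_tsum F)
    refine Finset.sum_le_sum fun c hc => ?_
    rw [if_pos (Finset.le_sup (f := fun c : Blk i => c.1.1) hc)]
  refine ne_top_of_le_ne_top (ENNReal.div_ne_top (ENNReal.mul_ne_top (by simp)
    (ENNReal.mul_ne_top hτt hτt)) (mul_ne_zero hc0' hc0')) (le_trans ?_ hfin)
  rw [ENNReal.tsum_comm]
  refine ENNReal.tsum_le_tsum fun c => ?_
  calc (∑' z : L i, if Hit i c.1.2.1 c.1.2.2 z then W c.1.2.1 * W c.1.2.2 else 0)
      = W c.1.2.1 * W c.1.2.2 * ∑' z : L i, (if Hit i c.1.2.1 c.1.2.2 z then (1 : ℝ≥0∞) else 0) := by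
        rw [← ENNReal.tsum_mul_left]
        refine tsum_congr fun z => ?_
        split_ifs <;> simp
    _ ≤ V c := mul_le_mul' le_rfl (hKHIT d i c.1.1 _ _ c.2.2.1 c.2.2.2.1)

end Vale.Agent.P147
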