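import Mathlib
import Vale.Agent.P147.Defs

/-!
P147, module KRAFT: prefix-free sets of words have total weight at most one.
-/

namespace Vale.Agent.P147.KR

open scoped ENNReal

variable {d : ℕ}

/-- words: empty or first letter and rest -/
def lsEquiv (α : Type) : Unit ⊕ (α × List α) ≃ List α where
  toFun := fun s => match s with
    | Sum.inl _ => []
    | Sum.inr p => p.1 :: p.2
  invFun := fun l => match l with
    | [] => Sum.inl ()
    | a :: l => Sum.inr (a, l)
  left_inv := by
    intro s
    rcases s with s | p <;> rfl
  right_inv := by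
    intro l
    cases l <;> rfl

lemma tsum_list {α : Type} [Fintype α] (f : List α → ℝ≥0∞) :
    ∑' w, f w = f [] + ∑ t, ∑' w, f (t :: w) := by
  rw [← (lsEquiv α).tsum_eq f]
  rw [ENNReal.summable.tsum_sum ENNReal.summable]
  congr 1
  · simp [lsEquiv]
  · rw [ENNReal.tsum_prod', tsum_fintype]
    rfl

lemma bounded (W : List (U d) → ℝ≥0∞) (hW : Wt W) : ∀ (N : ℕ) (u : List (U d))
    (S : Set (List (U d))), (∀ a ∈ S, a.length ≤ N) → (∀ a ∈ S, ∀ b ∈ S, a <+: b → a = b) →
    ∑' w, S.indicator (fun w => W (u ++ w)) w ≤ W u := by
  intro N
  induction N with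
  | zero =>
    intro u S hN _
    rw [tsum_eq_single ([] : List (U d))]
    · refine (Set.indicator_le_self' (fun _ _ => zero_le) _).trans ?_
      simp
    · intro w hw
      apply Set.indicator_of_notMem
      intro hS
      have := hN w hS
      exact hw (List.length_eq_zero_iff.1 (by omega))
  | succ N ih =>
    intro u S hN hS
    by_cases h0 : ([] : List (U d)) ∈ S
    · rw [tsum_eq_single ([] : List (U d))]
      · refine (Set.indicator_le_self' (fun _ _ => zero_le) _).trans ?_
        simp
      · intro w hw
        apply Set.indicator_of_notMem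
        intro hwS
        exact hw (hS [] h0 w hwS List.nil_prefix).symm
    · rw [tsum_list, Set.indicator_of_notMem h0, zero_add, ← hW.sum u]
      apply Finset.sum_le_sum
      intro t _
      have h1 := ih (u ++ [t]) {w | t :: w ∈ S} (fun a ha => by
        have := hN (t :: a) ha
        simp only [List.length_cons] at this
        omega) (fun a ha b hb hab => by
        have := hS (t :: a) ha (t :: b) hb ((List.prefix_cons_inj t).2 hab)
        exact (List.cons.inj this).2)
      refine le_trans (le_of_eq ?_) h1
      apply tsum_congr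
      intro w
      by_cases hw : t :: w ∈ S
      · rw [Set.indicator_of_mem hw, Set.indicator_of_mem (show w ∈ {w | t :: w ∈ S} from hw)]
        simp
      · rw [Set.indicator_of_notMem hw,
          Set.indicator_of_notMem (show w ∉ {w | t :: w ∈ S} from hw)]

end KR

open scoped ENNReal

theorem kraft : S_KRAFT := by
  classical
  intro d W hW S hS
  rw [ENNReal.tsum_eq_iSup_sum]
  apply iSup_le
  intro s
  set T : Finset (List (U d)) := s.map (Function.Embedding.subtype _) with hT
  have hTS : ∀ a ∈ T, a ∈ S := by
    intro a ha
    rw [hT, Finset.mem_map] at ha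
    obtain ⟨x, _, rfl⟩ := ha
    exact x.2
  have h1 := KR.bounded W hW (T.sup List.length) [] (T : Set (List (U d)))
    (fun a ha => Finset.le_sup (f := List.length) (Finset.mem_coe.1 ha))
    (fun a ha b hb hab => hS a (hTS a (Finset.mem_coe.1 ha)) b (hTS b (Finset.mem_coe.1 hb)) hab)
  rw [hW.nil] at h1
  refine le_trans (le_of_eq ?_) h1
  rw [← tsum_subtype, Finset.tsum_subtype' T (fun w => W ([] ++ w)), hT, Finset.sum_map]
  rfl

end Vale.Agent.P147
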