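import Mathlib
import Vale.Agent.P147.Defs

namespace Vale.Agent.P147
namespace LAW

open MeasureTheory ProbabilityTheory
open scoped ENNReal

variable {d : ℕ}

/-- weight of a word started at `x` -/
noncomputable def G (ω : Site d → U d → ℝ) : Site d → List (U d) → ℝ≥0∞
  | _, [] => 1
  | x, (t :: w) => ENNReal.ofReal (ω x t) * G ω (x + stp t) w

@[simp] lemma G_nil (ω : Site d → U d → ℝ) (x : Site d) : G ω x [] = 1 := rfl
@[simp] lemma G_cons (ω : Site d → U d → ℝ) (x : Site d) (t : U d) (w : List (U d)) :
    G ω x (t :: w) = ENNReal.ofReal (ω x t) * G ω (x + stp t) w := rfl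

lemma pos_cons (t : U d) (w : List (U d)) : pos (t :: w) = stp t + pos w := by
  simp [pos]

lemma pos_nil : pos ([] : List (U d)) = 0 := by simp [pos]

lemma G_eq (ω : Site d → U d → ℝ) (w : List (U d)) : ∀ x : Site d,
    ∏ k : Fin w.length, ENNReal.ofReal (ω (x + pos (w.take k)) w[k]) = G ω x w := by
  induction w with
  | nil => intro x; simp
  | cons t w ih =>
    intro x
    have := Fin.prod_univ_succ (n := w.length)
      (fun k : Fin (w.length + 1) => ENNReal.ofReal (ω (x + pos ((t :: w).take k)) (t :: w)[k]))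
    simp only [List.length_cons]
    rw [this, G_cons, ← ih (x + stp t)]
    simp [pos_cons, pos_nil, add_assoc]

lemma G_append (ω : Site d → U d → ℝ) (w₁ w₂ : List (U d)) : ∀ x : Site d,
    G ω x (w₁ ++ w₂) = G ω x w₁ * G ω (x + pos w₁) w₂ := by
  induction w₁ with
  | nil => intro x; simp [pos_nil]
  | cons t w ih => intro x; simp [ih, pos_cons, mul_assoc, add_assoc]

lemma G_meas (x : Site d) (w : List (U d)) : Measurable (fun ω : Site d → U d → ℝ => G ω x w) := by
  induction w generalizing x with
  | nil => simp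
  | cons t w ih =>
    simp only [G_cons]
    exact Measurable.mul (ENNReal.measurable_ofReal.comp (by fun_prop)) (ih _)

lemma G_shift (ω : Site d → U d → ℝ) (w : List (U d)) : ∀ x y : Site d,
    G (fun u => ω (x + u)) y w = G ω (x + y) w := by
  induction w with
  | nil => intro x y; simp
  | cons t w ih => intro x y; simp [ih, add_assoc]

variable (μ : Measure (U d → ℝ)) [IsProbabilityMeasure μ]

/-- the environment law -/
noncomputable abbrev Env : Measure (Site d → U d → ℝ) := Measure.infinitePi fun _ : Site d => μ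

omit [IsProbabilityMeasure μ] in
lemma Ann_eq (w : List (U d)) : Ann μ w = ∫⁻ ω, G ω 0 w ∂(Env μ) := by
  unfold Ann
  refine lintegral_congr fun ω => ?_
  rw [← G_eq]
  simp

lemma ae_all (hμ : Elliptic μ) :
    ∀ᵐ ω ∂(Env μ), ∀ x : Site d, (∀ t, 0 < ω x t) ∧ ∑ t, ω x t = 1 := by
  rw [ae_all_iff]
  intro x
  have h := (measurePreserving_eval_infinitePi (fun _ : Site d => μ) x)
  exact h.quasiMeasurePreserving.ae hμ

lemma int_shift (x : Site d) (w : List (U d)) :
    ∫⁻ ω, G ω x w ∂(Env μ) = ∫⁻ ω, G ω 0 w ∂(Env μ) := by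
  have h := Measure.map_infinitePi_infinitePi_of_inj (P := fun _ : Site d => μ)
    (f := fun u : Site d => x + u) (add_right_injective x)
  have h2 : ∫⁻ ω, G ω 0 w ∂(Env μ) = ∫⁻ ω, G ω 0 w ∂((Env μ).map (fun ω u => ω (x + u))) := by
    rw [h]
  rw [h2, lintegral_map (G_meas 0 w) (by fun_prop)]
  refine lintegral_congr fun ω => ?_
  rw [G_shift]; simp

/-- `G ω x w` depends only on the visited sites -/
lemma G_congr (ω ω' : Site d → U d → ℝ) (w : List (U d)) : ∀ x : Site d,
    (∀ k < w.length, ω (x + pos (w.take k)) = ω' (x + pos (w.take k))) →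
    G ω x w = G ω' x w := by
  induction w with
  | nil => intro x _; simp
  | cons t w ih =>
    intro x h
    have h0 := h 0 (by simp)
    simp [pos_nil] at h0
    rw [G_cons, G_cons, h0, ih]
    intro k hk
    have := h (k + 1) (by simpa using hk)
    simpa [pos_cons, add_assoc] using this

open Classical in
/-- sites from which `w` departs -/
noncomputable def sites (x : Site d) (w : List (U d)) : Finset (Site d) :=
  (Finset.range w.length).image fun k => x + pos (w.take k)

lemma G_factor (x : Site d) (w : List (U d)) :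
    ∃ g : ((sites x w) → U d → ℝ) → ℝ≥0∞, Measurable g ∧
      ∀ ω, G ω x w = g (fun i => ω i) := by
  classical
  refine ⟨fun η => G (fun y => if h : y ∈ sites x w then η ⟨y, h⟩ else 0) x w, ?_, ?_⟩
  · refine (G_meas x w).comp ?_
    refine measurable_pi_lambda _ fun y => ?_
    by_cases h : y ∈ sites x w
    · simp only [h, dif_pos]
      fun_prop
    · simp only [h, dif_neg, not_false_eq_true]
      fun_prop
  · intro ω
    apply G_congr
    intro k hk
    have : x + pos (w.take k) ∈ sites x w := by
      unfold sites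
      exact Finset.mem_image.mpr ⟨k, Finset.mem_range.mpr hk, rfl⟩
    simp [this]

lemma int_mul (x y : Site d) (w₁ w₂ : List (U d))
    (h : Disjoint (sites x w₁) (sites y w₂)) :
    ∫⁻ ω, G ω x w₁ * G ω y w₂ ∂(Env μ) =
      (∫⁻ ω, G ω x w₁ ∂(Env μ)) * ∫⁻ ω, G ω y w₂ ∂(Env μ) := by
  obtain ⟨g₁, hg₁, e₁⟩ := G_factor x w₁
  obtain ⟨g₂, hg₂, e₂⟩ := G_factor y w₂
  have hI : iIndepFun (fun (i : Site d) (ω : Site d → U d → ℝ) => ω i) (Env μ) :=
    iIndepFun_infinitePi (X := fun _ ω => ω) (by fun_prop)
  have h2 := hI.indepFun_finset (sites x w₁) (sites y w₂) h (fun i => by fun_prop)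
  have h3 := h2.comp hg₁ hg₂
  have h4 := lintegral_mul_eq_lintegral_mul_lintegral_of_indepFun (μ := Env μ)
    (f := fun ω => G ω x w₁) (g := fun ω => G ω y w₂) (G_meas x w₁) (G_meas y w₂) (by
      have ea : (fun ω => G ω x w₁) = g₁ ∘ (fun (ω : Site d → U d → ℝ) (i : sites x w₁) => ω i) := by
        funext ω; exact e₁ ω
      have eb : (fun ω => G ω y w₂) = g₂ ∘ (fun (ω : Site d → U d → ℝ) (i : sites y w₂) => ω i) := by
        funext ω; exact e₂ ω
      rw [ea, eb]
      exact h3)
  simpa using h4

end LAW

open LAW MeasureTheory in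
theorem law : S_LAW := by
  intro d μ _ hμ
  have hae := ae_all μ hμ
  refine ⟨?_, ?_, ?_, ?_, ?_⟩
  · rw [Ann_eq]; simp
  · intro w
    rw [Ann_eq]
    intro h0
    rw [lintegral_eq_zero_iff (G_meas 0 w)] at h0
    have : ∀ᵐ ω ∂(Env μ), False := by
      filter_upwards [hae, h0] with ω h1 h2
      have key : ∀ (w : List (U d)) (x : Site d), G ω x w ≠ 0 := by
        intro w
        induction w with
        | nil => intro x; simp
        | cons t w ih =>
          intro x
          rw [G_cons]
          exact mul_ne_zero (by simpa using (h1 x).1 t) (ih _)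
      exact key w 0 h2
    simp at this
    exact IsProbabilityMeasure.ne_zero (Env μ) this
  · intro w
    simp only [Ann_eq, G_append]
    rw [← lintegral_finsetSum]
    · refine lintegral_congr_ae ?_
      filter_upwards [hae] with ω h1
      simp only [G_cons, G_nil, mul_one, zero_add]
      rw [← Finset.mul_sum]
      have : ∑ t, ENNReal.ofReal (ω (pos w) t) = 1 := by
        rw [← ENNReal.ofReal_sum_of_nonneg (fun t _ => (((h1 (pos w)).1 t).le)), (h1 _).2]
        simp
      rw [this, mul_one]
    · intro t _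
      exact (G_meas _ _).mul (G_meas _ _)
  · intro w₁ w₂ hd
    simp only [Ann_eq, G_append]
    rw [int_mul μ 0 (0 + pos w₁) w₁ w₂, int_shift μ (0 + pos w₁) w₂]
    rw [Finset.disjoint_left]
    intro a ha hb
    simp only [sites, Finset.mem_image, Finset.mem_range] at ha hb
    obtain ⟨k, hk, rfl⟩ := ha
    obtain ⟨l, hl, e⟩ := hb
    exact hd k hk l hl (by simpa using e.symm)
  · intro w₁ w₂
    simp only [Ann_eq, G_append]
    rw [← int_shift μ (0 + pos w₁) w₂]
    refine lintegral_mono_ae ?_
    filter_upwards [hae] with ω h1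
    have key : ∀ (w : List (U d)) (x : Site d), G ω x w ≤ 1 := by
      intro w
      induction w with
      | nil => intro x; simp
      | cons t w ih =>
        intro x
        rw [G_cons]
        have : ω x t ≤ 1 := by
          rw [← (h1 x).2]
          exact Finset.single_le_sum (f := fun t => ω x t) (fun s _ => ((h1 x).1 s).le)
            (Finset.mem_univ t)
        calc ENNReal.ofReal (ω x t) * G ω (x + stp t) w ≤ 1 * 1 :=
              mul_le_mul' (by simpa using this) (ih _)
          _ = 1 := one_mul _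
    calc G ω 0 w₁ * G ω (0 + pos w₁) w₂ ≤ 1 * G ω (0 + pos w₁) w₂ := by
          gcongr; exact key _ _
      _ = _ := one_mul _

end Vale.Agent.P147
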