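import Mathlib
import Vale.Agent.P147.Defs

namespace Vale.Agent.P147
namespace LOWER

open MeasureTheory Filter
open scoped ENNReal

variable {d : ℕ}

lemma pos_append (w₁ w₂ : List (U d)) : pos (w₁ ++ w₂) = pos w₁ + pos w₂ := by
  simp [pos]

lemma pos_nil : pos ([] : List (U d)) = 0 := by simp [pos]

/-- the word of the steps `t m, ..., t (m+n-1)` -/
def wd (t : ℕ → U d) (m n : ℕ) : List (U d) := (List.range n).map fun k => t (m + k)

lemma wd_length (t : ℕ → U d) (m n : ℕ) : (wd t m n).length = n := by simp [wd]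

lemma wd_take (t : ℕ → U d) (m n k : ℕ) (h : k ≤ n) : (wd t m n).take k = wd t m k := by
  unfold wd
  rw [← List.map_take, List.take_range, min_eq_left h]

lemma wd_succ (t : ℕ → U d) (m n : ℕ) : wd t m (n+1) = wd t m n ++ [t (m + n)] := by
  simp [wd, List.range_succ]

lemma wd_add (t : ℕ → U d) (m n : ℕ) : wd t 0 (m+n) = wd t 0 m ++ wd t m n := by
  induction n with
  | zero => simp [wd]
  | succ n ih => rw [← add_assoc, wd_succ, ih, wd_succ]; simp

lemma pos_wd (x : ℕ → Site d) (t : ℕ → U d) (h : ∀ k, x (k+1) = x k + stp (t k)) (m n : ℕ) :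
    pos (wd t m n) = x (m + n) - x m := by
  induction n with
  | zero => simp [wd, pos]
  | succ n ih =>
    rw [wd_succ, pos_append, ih, ← add_assoc, h (m+n)]
    simp [pos]
    abel

lemma stp_le (i : Fin d) (s : U d) : stp s i ≤ 1 := by
  unfold stp
  rcases s with ⟨j, b⟩
  by_cases hj : i = j
  · subst hj
    simp
    split_ifs <;> norm_num
  · simp [hj]

/-- deterministic part -/
lemma det (i : Fin d) (x : ℕ → Site d) (h0 : x 0 = 0) (hs : ∀ k, ∃ t, x (k+1) = x k + stp t)
    (v : ℝ) (hv : 0 < v) (hf : ∀ᶠ n : ℕ in atTop, v * n ≤ x n i) :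
    ∃ (w : List (U d)) (M : ℕ), ∀ n, ∃ w', Abr i n w' ∧ w'.length ≤ M * n ∧
      ∀ k ≤ (w ++ w').length, x k = pos ((w ++ w').take k) := by
  choose t ht using hs
  rw [eventually_atTop] at hf
  obtain ⟨n0, hn0⟩ := hf
  obtain ⟨T, hT, hmin⟩ := Finset.exists_min_image (Finset.range (n0+1)) (fun k => x k i)
    ⟨0, by simp⟩
  have hT0 : x T i ≤ 0 := by
    have := hmin 0 (by simp)
    simpa [h0] using this
  have hglob : ∀ k, x T i ≤ x k i := by
    intro k
    by_cases hk : k < n0 + 1
    · exact hmin k (by simpa using hk)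
    · have h1 := hn0 k (by omega)
      have h2 : (0:ℝ) ≤ v * k := by positivity
      have h3 : (0:ℝ) ≤ (x k i : ℝ) := le_trans h2 h1
      have h4 : (0:ℤ) ≤ x k i := by exact_mod_cast h3
      omega
  obtain ⟨K, hK⟩ := exists_nat_ge (1/v)
  have hK' : 1 ≤ v * K := by
    rw [div_le_iff₀ hv] at hK
    linarith
  refine ⟨wd t 0 T, n0 + K, fun n => ?_⟩
  by_cases hn : n = 0
  · subst hn
    refine ⟨[], ?_, by simp, ?_⟩
    · constructor
      · simp [pos]
      · simp
    · intro k hk
      simp only [List.append_nil] at hk ⊢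
      rw [wd_length] at hk
      rw [wd_take _ _ _ _ hk, pos_wd x t ht]
      simp [h0]
  have hex : ∃ s, x T i + n ≤ x (T + s) i := by
    refine ⟨n0 + n * K, ?_⟩
    have h1 := hn0 (T + (n0 + n * K)) (by omega)
    have h2 : (n:ℝ) ≤ v * ((T + (n0 + n * K) : ℕ) : ℝ) := by
      push_cast
      have : (n:ℝ) * 1 ≤ n * (v * K) := by gcongr
      nlinarith [mul_nonneg hv.le (Nat.cast_nonneg (α := ℝ) T), mul_nonneg hv.le (Nat.cast_nonneg (α := ℝ) n0)]
    have h3 : (n:ℝ) ≤ (x (T + (n0 + n * K)) i : ℝ) := le_trans h2 h1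
    have h4 : (n:ℤ) ≤ x (T + (n0 + n * K)) i := by exact_mod_cast h3
    omega
  classical
  set s := Nat.find hex with hsdef
  have hs1 : x T i + n ≤ x (T + s) i := Nat.find_spec hex
  have hs2 : ∀ k < s, x (T + k) i < x T i + n := fun k hk => by
    have := Nat.find_min hex hk
    omega
  have hsle : s ≤ (n0 + K) * n := by
    have h5 : s ≤ n0 + n * K := by
      refine Nat.find_min' hex ?_
      have h1 := hn0 (T + (n0 + n * K)) (by omega)
      have h2 : (n:ℝ) ≤ v * ((T + (n0 + n * K) : ℕ) : ℝ) := by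
        push_cast
        have : (n:ℝ) * 1 ≤ n * (v * K) := by gcongr
        nlinarith [mul_nonneg hv.le (Nat.cast_nonneg (α := ℝ) T), mul_nonneg hv.le (Nat.cast_nonneg (α := ℝ) n0)]
      have h3 : (n:ℝ) ≤ (x (T + (n0 + n * K)) i : ℝ) := le_trans h2 h1
      have h4 : (n:ℤ) ≤ x (T + (n0 + n * K)) i := by exact_mod_cast h3
      omega
    have h6 : n0 * 1 ≤ n0 * n := Nat.mul_le_mul_left n0 (by omega)
    calc s ≤ n0 + n * K := h5
      _ ≤ n0 * n + n * K := by omega
      _ = (n0 + K) * n := by ring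
  have hspos : s ≠ 0 := by
    intro h
    rw [h] at hs1
    simp at hs1
    omega
  have hs3 : x (T + s) i = x T i + n := by
    refine le_antisymm ?_ hs1
    obtain ⟨s', hs'⟩ := Nat.exists_eq_succ_of_ne_zero hspos
    have h7 := hs2 s' (by omega)
    rw [hs']
    have h8 : x (T + s'.succ) = x (T + s') + stp (t (T + s')) := by
      have := ht (T + s')
      simpa [add_assoc] using this
    rw [h8, Pi.add_apply]
    have := stp_le i (t (T + s'))
    omega
  refine ⟨wd t T s, ?_, by rw [wd_length]; exact hsle, ?_⟩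
  · constructor
    · rw [pos_wd x t ht, Pi.sub_apply, hs3]; omega
    · intro k hk
      rw [wd_length] at hk
      rw [wd_take _ _ _ _ hk.le, pos_wd x t ht, Pi.sub_apply]
      have := hglob (T + k)
      have := hs2 k hk
      omega
  · intro k hk
    rw [← wd_add] at hk ⊢
    rw [wd_length] at hk
    rw [wd_take _ _ _ _ hk, pos_wd x t ht]
    simp [h0]

lemma stp_inj : Function.Injective (stp (d := d)) := by
  rintro ⟨j, b⟩ ⟨j', b'⟩ h
  unfold stp at h
  simp only at h
  have hj : j = j' := by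
    by_contra hne
    have := congrFun h j
    simp only [Pi.single_eq_same, Pi.single_eq_of_ne hne] at this
    split_ifs at this <;> omega
  subst hj
  have := congrFun h j
  simp at this
  cases b <;> cases b' <;> simp_all

end LOWER

open LOWER MeasureTheory Filter in
theorem lower : S_LOWER := by
  intro d i W hW Ω _ P _ X hX hcyl hP
  classical
  set C : List (U d) → Set Ω := fun w => {ξ | ∀ k ≤ w.length, X k ξ = pos (w.take k)} with hC
  have hCm : ∀ w, MeasurableSet (C w) := by
    intro w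
    have : C w = ⋂ k ∈ Finset.range (w.length + 1), (X k) ⁻¹' {pos (w.take k)} := by
      ext ξ
      simp [hC, Nat.lt_succ_iff]
    rw [this]
    exact Finset.measurableSet_biInter _ fun k _ => hX k (MeasurableSet.singleton _)
  -- successors
  have hsucc : ∀ w, ∀ᵐ ξ ∂P, ξ ∈ C w → ∃ t, ξ ∈ C (w ++ [t]) := by
    intro w
    have hsub : ∀ t, C (w ++ [t]) ⊆ C w := by
      intro t ξ hξ k hk
      have := hξ k (by simp; omega)
      rwa [List.take_append_of_le_length hk] at this
    have hdisj : Pairwise (Function.onFun Disjoint fun t => C (w ++ [t])) := by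
      intro t t' hne
      rw [Function.onFun, Set.disjoint_left]
      intro ξ h1 h2
      have e1 := h1 (w.length + 1) (by simp)
      have e2 := h2 (w.length + 1) (by simp)
      rw [e1] at e2
      have l1 : (w ++ [t]).take (w.length + 1) = w ++ [t] := List.take_of_length_le (by simp)
      have l2 : (w ++ [t']).take (w.length + 1) = w ++ [t'] := List.take_of_length_le (by simp)
      rw [l1, l2, pos_append, pos_append] at e2
      have e3 := add_left_cancel e2
      simp [pos] at e3
      exact hne (stp_inj e3)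
    have hU : P (⋃ t, C (w ++ [t])) = P (C w) := by
      rw [measure_iUnion hdisj (fun t => hCm _), tsum_fintype]
      simp only [hC, hcyl]
      exact hW.sum w
    have h0 : P (C w \ ⋃ t, C (w ++ [t])) = 0 := by
      rw [measure_sdiff (Set.iUnion_subset hsub) (MeasurableSet.iUnion fun t => hCm _).nullMeasurableSet
        (measure_ne_top _ _), hU]
      simp
    rw [← compl_mem_ae_iff] at h0
    filter_upwards [h0] with ξ hξ h1
    by_contra h2
    push Not at h2
    exact hξ ⟨h1, by simpa using h2⟩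
  have hnil : ∀ᵐ ξ ∂P, ξ ∈ C [] := by
    have h1 : P (C []) = 1 := by
      rw [hC]; simp only; rw [hcyl, hW.nil]
    have h2 : P (C [])ᶜ = 0 := by
      rw [measure_compl (hCm _) (measure_ne_top _ _), h1]
      simp
    exact h2
  have hall : ∀ᵐ ξ ∂P, X 0 ξ = 0 ∧ ∀ k, ∃ t, X (k+1) ξ = X k ξ + stp t := by
    have h1 : ∀ᵐ ξ ∂P, ∀ w, ξ ∈ C w → ∃ t, ξ ∈ C (w ++ [t]) := ae_all_iff.mpr hsucc
    filter_upwards [h1, hnil] with ξ h1 h2
    refine ⟨by simpa [pos] using h2 0 (by simp), ?_⟩
    have h3 : ∀ n, ∃ w : List (U d), w.length = n ∧ ξ ∈ C w := by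
      intro n
      induction n with
      | zero => exact ⟨[], rfl, h2⟩
      | succ n ih =>
        obtain ⟨w, hw, h4⟩ := ih
        obtain ⟨t, ht⟩ := h1 w h4
        exact ⟨w ++ [t], by simp [hw], ht⟩
    intro k
    obtain ⟨w, hw, h4⟩ := h3 k
    obtain ⟨t, ht⟩ := h1 w h4
    refine ⟨t, ?_⟩
    have e1 := ht (k+1) (by simp [hw])
    have e2 := h4 k (by omega)
    have l1 : (w ++ [t]).take (k + 1) = w ++ [t] := List.take_of_length_le (by simp [hw])
    have l2 : w.take k = w := List.take_of_length_le (by omega)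
    rw [e1, e2, l1, l2, pos_append]
    simp [pos]
  -- events
  set Gs : List (U d) × ℕ → Set Ω := fun q => {ξ | ∀ n, ∃ w', Abr i n w' ∧ w'.length ≤ q.2 * n ∧
      ξ ∈ C (q.1 ++ w')} with hGs
  have hcover : P (Fast X i) ≤ P (⋃ q, Gs q) := by
    refine measure_mono_ae ?_
    filter_upwards [hall] with ξ h1 h2
    obtain ⟨v, hv, hf⟩ := h2
    obtain ⟨w, M, h3⟩ := det i (fun k => X k ξ) h1.1 h1.2 v hv hf
    exact Set.mem_iUnion.mpr ⟨(w, M), h3⟩
  have hex : ∃ q, P (Gs q) ≠ 0 := by
    by_contra hcon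
    push Not at hcon
    have : P (⋃ q, Gs q) = 0 := measure_iUnion_null hcon
    rw [this] at hcover
    exact hP (le_antisymm hcover (by simp))
  obtain ⟨⟨w, M⟩, hq⟩ := hex
  refine ⟨P (Gs (w, M)), M, hq, fun n => ?_⟩
  calc P (Gs (w, M)) ≤ P (⋃ w', if Abr i n w' ∧ w'.length ≤ M * n then C (w ++ w') else ∅) := by
        refine measure_mono fun ξ hξ => ?_
        obtain ⟨w', h1, h2, h3⟩ := hξ n
        exact Set.mem_iUnion.mpr ⟨w', by rw [if_pos ⟨h1, h2⟩]; exact h3⟩
    _ ≤ ∑' w', P (if Abr i n w' ∧ w'.length ≤ M * n then C (w ++ w') else ∅) :=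
        measure_iUnion_le _
    _ ≤ ∑' w', if Abr i n w' ∧ w'.length ≤ M * n then W w' else 0 := by
        refine ENNReal.tsum_le_tsum fun w' => ?_
        split_ifs with h
        · calc P (C (w ++ w')) = W (w ++ w') := hcyl _
            _ ≤ W w' := hW.tail _ _
        · simp

end Vale.Agent.P147
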