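import Vale.Agent.P147.Defs

/-! # P147, module OPS (helper21) -/

namespace Vale.Agent.P147

open MeasureTheory Filter
open scoped ENNReal

namespace OPS

variable {Λ E : Type} [AddCommGroup Λ] (V : E → ℝ≥0∞) (ζ : E → Λ) (hit : E → Λ → Prop)

lemma Tr_mono {φ ψ : Λ → ℝ≥0∞} (h : ∀ z, φ z ≤ ψ z) (z : Λ) :
    Tr V ζ hit φ z ≤ Tr V ζ hit ψ z := by
  classical
  unfold Tr
  refine ENNReal.tsum_le_tsum fun c => ?_
  by_cases hc : hit c z
  · simp [hc]
  · simp only [hc, if_false]
    exact mul_le_mul_right (h _) _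

lemma Tr_sum (g : ℕ → Λ → ℝ≥0∞) (s : Finset ℕ) (z : Λ) :
    ∑ N ∈ s, Tr V ζ hit (g N) z = Tr V ζ hit (fun x => ∑ N ∈ s, g N x) z := by
  classical
  unfold Tr
  rw [← Summable.tsum_finsetSum (fun _ _ => ENNReal.summable)]
  refine tsum_congr fun c => ?_
  by_cases hc : hit c z
  · simp [hc]
  · simp only [hc, if_false]
    rw [Finset.mul_sum]

lemma shift (g : ℕ → ℝ≥0∞) {h : ℕ} (hh : 1 ≤ h) :
    ∑' n : ℕ, (if h ≤ n + 1 then g (n + 1 - h) else 0) = ∑' m, g m := by
  obtain ⟨k, rfl⟩ : ∃ k, h = k + 1 := ⟨h - 1, by omega⟩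
  have e : ∀ n : ℕ, (if k + 1 ≤ n + 1 then g (n + 1 - (k + 1)) else 0) =
      if k ≤ n then g (n - k) else 0 := by
    intro n
    by_cases hn : k ≤ n
    · rw [if_pos hn, if_pos (by omega)]
      congr 1
      omega
    · rw [if_neg hn, if_neg (by omega)]
  simp_rw [e]
  have h2 := ENNReal.summable (f := fun n : ℕ => if k ≤ n then g (n - k) else 0)
  rw [← Summable.sum_add_tsum_nat_add' (k := k) (f := fun n : ℕ => if k ≤ n then g (n - k) else 0)
    ENNReal.summable]
  have h0 : ∑ i ∈ Finset.range k, (if k ≤ i then g (i - k) else 0) = 0 := by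
    refine Finset.sum_eq_zero fun i hi => ?_
    rw [if_neg (by simpa using hi)]
  rw [h0, zero_add]
  refine tsum_congr fun n => ?_
  rw [if_pos (by omega)]
  congr 1
  omega

end OPS

/-- OPS -/
theorem ops : S_OPS := by
  classical
  intro Λ E _ V ζ hit h b hh hb0 hb z
  have hF : ∀ z, ∑' n, b n z = 1 + Tr V ζ hit (fun x => ∑' n, b n x) z := by
    intro z
    rw [tsum_eq_zero_add' ENNReal.summable, hb0 z]
    congr 1
    have e : ∀ n, b (n + 1) z = ∑' c, if h c ≤ n + 1 then
        V c * (if hit c z then 0 else b (n + 1 - h c) (z + ζ c)) else 0 := by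
      intro n
      rw [hb (n + 1) z (by omega)]
    simp_rw [e]
    rw [ENNReal.tsum_comm]
    unfold Tr
    refine tsum_congr fun c => ?_
    rw [OPS.shift (fun m => V c * (if hit c z then 0 else b m (z + ζ c))) (hh c),
      ENNReal.tsum_mul_left]
    congr 1
    by_cases hc : hit c z
    · simp [hc]
    · simp [hc]
  have key : ∀ M z, ∑ N ∈ Finset.range M, ((Tr V ζ hit)^[N] (fun _ => 1)) z ≤ ∑' n, b n z := by
    intro M
    induction M with
    | zero => intro z; simp
    | succ M ih =>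
      intro z
      rw [Finset.sum_range_succ', hF z, add_comm]
      refine add_le_add le_rfl ?_
      have e : ∀ N, ((Tr V ζ hit)^[N + 1] (fun _ => 1)) z =
          Tr V ζ hit ((Tr V ζ hit)^[N] (fun _ => 1)) z := by
        intro N
        rw [Function.iterate_succ_apply']
      simp_rw [e]
      rw [OPS.Tr_sum V ζ hit (fun N => (Tr V ζ hit)^[N] (fun _ => 1))]
      exact OPS.Tr_mono V ζ hit ih z
  rw [ENNReal.tsum_eq_iSup_nat]
  exact iSup_le fun M => key M z

end Vale.Agent.P147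

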