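import Mathlib
import Vale.Agent.P147.Defs

namespace Vale.Agent.P147

open scoped ENNReal

theorem reneq : S_RENEQ := by
  intro E V h R S ψ hh hR0 hR hS0 hS n
  classical
  induction n using Nat.strong_induction_on with
  | _ n ih =>
    rcases Nat.eq_zero_or_pos n with rfl | hn
    · simp [hS0, hR0]
    · rw [hS n hn, Finset.sum_range_succ, Nat.sub_self, hR0, one_mul]
      congr 1
      have h1 : ∀ c, (if h c ≤ n then V c * S (n - h c) else 0) =
          ∑ m ∈ Finset.range n, (if h c ≤ n - m then V c * R (n - m - h c) else 0) * ψ m := by
        intro c
        by_cases hc : h c ≤ n
        · rw [if_pos hc, ih (n - h c) (by have := hh c; omega), Finset.mul_sum]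
          have hsub : Finset.range (n - h c + 1) ⊆ Finset.range n := by
            intro m hm
            rw [Finset.mem_range] at hm ⊢
            have := hh c
            omega
          rw [← Finset.sum_subset hsub]
          · refine Finset.sum_congr rfl fun m hm => ?_
            rw [Finset.mem_range] at hm
            rw [if_pos (by omega), show n - h c - m = n - m - h c by omega, mul_assoc]
          · intro m hm hm'
            rw [Finset.mem_range] at hm hm'
            rw [if_neg (by omega), zero_mul]
        · rw [if_neg hc]
          symm
          refine Finset.sum_eq_zero fun m _ => ?_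
          rw [if_neg (by omega), zero_mul]
      simp only [h1]
      rw [Summable.tsum_finsetSum (fun i _ => ENNReal.summable)]
      refine Finset.sum_congr rfl fun m hm => ?_
      rw [Finset.mem_range] at hm
      rw [ENNReal.tsum_mul_right, hR (n - m) (by omega)]

end Vale.Agent.P147
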