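import Mathlib
import Vale.Agent.P147.Defs

namespace Vale.Agent.P147

open scoped ENNReal

namespace RenewX

variable {E : Type}

/-- partial sums -/
noncomputable def S (R : ℕ → ℝ≥0∞) (N : ℕ) : ℝ≥0∞ := ∑ n ∈ Finset.range (N + 1), R n

lemma S_mono (R : ℕ → ℝ≥0∞) {M N : ℕ} (h : M ≤ N) : S R M ≤ S R N :=
  Finset.sum_le_sum_of_subset (by
    intro x hx
    rw [Finset.mem_range] at hx ⊢
    omega)

lemma S_ne_top (R : ℕ → ℝ≥0∞) (h1 : ∀ n, R n ≤ 1) (N : ℕ) : S R N ≠ ⊤ := by
  refine ne_of_lt ?_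
  refine ENNReal.sum_lt_top.mpr fun n _ => lt_of_le_of_lt (h1 n) (by simp)

lemma shift (V : E → ℝ≥0∞) (h : E → ℕ) (R : ℕ → ℝ≥0∞) (hh : ∀ c, 1 ≤ h c) (N : ℕ) (c : E) :
    ∑ n ∈ Finset.range N, (if h c ≤ n + 1 then V c * R (n + 1 - h c) else 0) =
      V c * (if h c ≤ N then S R (N - h c) else 0) := by
  classical
  have := hh c
  by_cases hc : h c ≤ N
  · rw [if_pos hc, S, Finset.mul_sum]
    have h1 : ∑ n ∈ Finset.range N, (if h c ≤ n + 1 then V c * R (n + 1 - h c) else 0) =
        ∑ n ∈ (Finset.range N).filter (fun n => h c ≤ n + 1), V c * R (n + 1 - h c) := by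
      rw [Finset.sum_filter]
    rw [h1]
    refine Finset.sum_bij' (fun n _ => n + 1 - h c) (fun m _ => m + h c - 1) ?_ ?_ ?_ ?_ ?_
    · intro n hn
      rw [Finset.mem_filter, Finset.mem_range] at hn
      rw [Finset.mem_range]; omega
    · intro m hm
      rw [Finset.mem_range] at hm
      rw [Finset.mem_filter, Finset.mem_range]; omega
    · intro n hn
      rw [Finset.mem_filter, Finset.mem_range] at hn
      omega
    · intro m hm
      rw [Finset.mem_range] at hm
      omega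
    · intro n _; rfl
  · rw [if_neg hc, mul_zero]
    refine Finset.sum_eq_zero fun n hn => ?_
    rw [Finset.mem_range] at hn
    rw [if_neg (by omega)]

lemma S_eq (V : E → ℝ≥0∞) (h : E → ℕ) (R : ℕ → ℝ≥0∞) (hh : ∀ c, 1 ≤ h c) (hR0 : R 0 = 1)
    (hR : ∀ n, 1 ≤ n → R n = ∑' c, if h c ≤ n then V c * R (n - h c) else 0) (N : ℕ) :
    S R N = 1 + ∑' c, V c * (if h c ≤ N then S R (N - h c) else 0) := by
  have h1 : S R N = 1 + ∑ n ∈ Finset.range N, R (n + 1) := by
    rw [S, Finset.sum_range_succ', hR0, add_comm]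
  rw [h1]
  congr 1
  rw [Finset.sum_congr rfl (fun n _ => hR (n + 1) (by omega)),
    ← Summable.tsum_finsetSum (fun i _ => ENNReal.summable)]
  exact tsum_congr fun c => shift V h R hh N c

lemma S_large (R : ℕ → ℝ≥0∞) (c₀ : ℝ≥0∞) (hc : c₀ ≠ 0) (h : ∀ n, c₀ ≤ R n) (K : ℝ≥0∞)
    (hK : K ≠ ⊤) : ∃ N, K < S R N := by
  have h1 : ∀ N : ℕ, ((N + 1 : ℕ) : ℝ≥0∞) * c₀ ≤ S R N := by
    intro N
    rw [S, ← nsmul_eq_mul]
    have := Finset.card_nsmul_le_sum (Finset.range (N + 1)) R c₀ (fun n _ => h n)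
    simpa using this
  obtain ⟨n, hn⟩ := ENNReal.exists_nat_mul_gt hc hK
  exact ⟨n, lt_of_lt_of_le hn (le_trans (by gcongr; simp) (h1 n))⟩

end RenewX

open RenewX in
theorem renew : S_RENEW := by
  intro E V h R hh hR0 hR1 ⟨c₀, hc0, hc⟩ hR
  classical
  have hS := S_eq V h R hh hR0 hR
  have hfin := S_ne_top R hR1
  apply le_antisymm
  · -- upper bound
    by_contra hcon
    push Not at hcon
    -- finite subset with sum > 1
    obtain ⟨F, hF⟩ : ∃ F : Finset E, 1 < ∑ c ∈ F, V c := by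
      rw [ENNReal.tsum_eq_iSup_sum] at hcon
      exact lt_iSup_iff.mp hcon
    set H := F.sup h with hH
    set v := ∑ c ∈ F, V c with hv
    -- v * S_{N} ≤ S_{N+H} ≤ S_N + H
    have k1 : ∀ N, v * S R N ≤ S R (N + H) := by
      intro N
      rw [hS (N + H)]
      refine le_trans ?_ le_add_self
      refine le_trans ?_ (ENNReal.sum_le_tsum F)
      rw [hv, Finset.sum_mul]
      refine Finset.sum_le_sum fun c hcF => ?_
      have h2 : h c ≤ H := Finset.le_sup hcF
      rw [if_pos (by omega)]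
      gcongr
      exact S_mono R (by omega)
    have k2 : ∀ N, S R (N + H) ≤ S R N + H := by
      intro N
      have : ∀ m, S R (N + m) ≤ S R N + m := by
        intro m
        induction m with
        | zero => simp
        | succ m ihm =>
          have e : S R (N + (m + 1)) = S R (N + m) + R (N + m + 1) := by
            rw [S, S, show N + (m + 1) + 1 = (N + m + 1) + 1 by omega, Finset.sum_range_succ]
          rw [e]
          push_cast
          rw [← add_assoc]
          exact add_le_add ihm (hR1 _)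
      exact this H
    -- v = 1 + δ
    have hv1 : 1 < v := hF
    obtain ⟨δ, hδ0, hδ⟩ : ∃ δ : ℝ≥0∞, δ ≠ 0 ∧ 1 + δ ≤ v :=
      ⟨v - 1, (tsub_pos_of_lt hv1).ne', by rw [add_tsub_cancel_of_le hv1.le]⟩
    have k3 : ∀ N, δ * S R N ≤ H := by
      intro N
      have h3 : (1 + δ) * S R N ≤ S R N + H :=
        le_trans (mul_le_mul_left hδ _) (le_trans (k1 N) (k2 N))
      rw [add_mul, one_mul] at h3
      exact (ENNReal.add_le_add_iff_left (hfin N)).mp h3
    obtain ⟨N, hN⟩ := S_large R c₀ hc0 hc ((H : ℝ≥0∞) / δ)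
      (ENNReal.div_ne_top (by simp) hδ0)
    have h4 := k3 N
    by_cases hδt : δ = ⊤
    · have h5 : S R N ≠ 0 := (lt_of_le_of_lt zero_le hN).ne'
      rw [hδt, ENNReal.top_mul h5] at h4
      exact absurd h4 (by simp)
    · rw [ENNReal.div_lt_iff (Or.inl hδ0) (Or.inl hδt)] at hN
      rw [mul_comm] at h4
      exact absurd h4 (not_le.mpr hN)
  · -- lower bound
    by_contra hcon
    push Not at hcon
    set s := ∑' c, V c with hs
    have k1 : ∀ N, S R N ≤ 1 + s * S R N := by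
      intro N
      conv_lhs => rw [hS N]
      gcongr
      rw [hs, ← ENNReal.tsum_mul_right]
      refine ENNReal.tsum_le_tsum fun c => ?_
      gcongr
      split_ifs
      · exact S_mono R (by omega)
      · exact zero_le
    obtain ⟨δ, hδ0, hδ⟩ : ∃ δ : ℝ≥0∞, δ ≠ 0 ∧ s + δ = 1 :=
      ⟨1 - s, (tsub_pos_of_lt hcon).ne', by rw [add_tsub_cancel_of_le hcon.le]⟩
    have hδt : δ ≠ ⊤ := by
      intro hh
      rw [hh] at hδ
      simp at hδ
    have k2 : ∀ N, δ * S R N ≤ 1 := by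
      intro N
      have h3 : s * S R N + δ * S R N ≤ s * S R N + 1 := by
        rw [← add_mul, hδ, one_mul, add_comm (s * S R N) 1]
        exact k1 N
      have h4 : s * S R N ≠ ⊤ := ENNReal.mul_ne_top (ne_top_of_lt hcon) (hfin N)
      exact (ENNReal.add_le_add_iff_left h4).mp h3
    obtain ⟨N, hN⟩ := S_large R c₀ hc0 hc (1 / δ) (ENNReal.div_ne_top (by simp) hδ0)
    have h4 := k2 N
    rw [ENNReal.div_lt_iff (Or.inl hδ0) (Or.inl hδt)] at hN
    rw [mul_comm] at h4
    exact absurd h4 (not_le.mpr hN)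

end Vale.Agent.P147
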