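import Vale.Agent.P147.H4b

namespace Vale.Agent.P147.H4

open scoped ENNReal
open Vale.Agent.P147

variable {d : ℕ} {i : Fin d}

lemma pos_le_length (w : List (U d)) : pos w i ≤ w.length := by
  induction w with
  | nil => simp [pos]
  | cons t w ih =>
    have h : pos (t :: w) i = stp t i + pos w i := by
      simp [pos]
    have h2 : stp t i ≤ 1 := by
      unfold stp
      by_cases hi : i = t.1
      · subst hi
        rw [Pi.single_eq_same]
        split_ifs <;> norm_num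
      · rw [Pi.single_eq_of_ne hi]
        norm_num
    rw [h, List.length_cons]
    push_cast
    linarith

lemma tsum_shift (f : ℕ → ℝ≥0∞) (k : ℕ) :
    ∑' n, (if k ≤ n then f (n - k) else 0) = ∑' m, f m := by
  have hinj : Function.Injective (fun m : ℕ => m + k) := fun a b h => by
    simpa using h
  rw [← hinj.tsum_eq (f := fun n => if k ≤ n then f (n - k) else 0)]
  · refine tsum_congr fun m => ?_
    rw [if_pos (Nat.le_add_left k m), Nat.add_sub_cancel]
  · intro n hn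
    rw [Function.mem_support] at hn
    by_cases h : k ≤ n
    · exact ⟨n - k, Nat.sub_add_cancel h⟩
    · exact absurd (if_neg h) hn

lemma bern1 {q ε : ℝ≥0∞} (h : q + ε = 1) (M : ℕ) : 1 ≤ q ^ M + M * ε := by
  have hq : q ≤ 1 := h ▸ le_self_add
  induction M with
  | zero => simp
  | succ M ih =>
    calc (1 : ℝ≥0∞) = q * 1 + ε := by rw [mul_one, h]
      _ ≤ q * (q ^ M + M * ε) + ε := by gcongr
      _ = q ^ (M + 1) + q * (M * ε) + ε := by ring
      _ ≤ q ^ (M + 1) + 1 * (M * ε) + ε := by gcongr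
      _ = q ^ (M + 1) + (M + 1 : ℕ) * ε := by push_cast; ring

lemma bern2 {q ε : ℝ≥0∞} (h : q + ε = 1) (l : ℕ) : l * q ^ l * ε + q ^ l ≤ 1 := by
  have hq : q ≤ 1 := h ▸ le_self_add
  induction l with
  | zero => simp
  | succ l ih =>
    calc ((l + 1 : ℕ) : ℝ≥0∞) * q ^ (l + 1) * ε + q ^ (l + 1)
        ≤ ((l + 1 : ℕ) : ℝ≥0∞) * q ^ l * ε + q ^ (l + 1) := by
          have := pow_le_pow_right_of_le_one' hq (Nat.le_succ l)
          exact add_le_add_left (mul_le_mul_left (mul_le_mul_right this _) _) _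
      _ = l * q ^ l * ε + q ^ l * (q + ε) := by push_cast; ring
      _ = l * q ^ l * ε + q ^ l := by rw [h, mul_one]
      _ ≤ 1 := ih

open Classical in
/-- generating function coefficients -/
noncomputable def Aq (W : List (U d) → ℝ≥0∞) (i : Fin d) (q : ℝ≥0∞) (n : ℕ) : ℝ≥0∞ :=
  ∑' w, if Abr i n w then W w * q ^ w.length else 0

lemma Aq_zero {W : List (U d) → ℝ≥0∞} (hW : Wt W) (q : ℝ≥0∞) : Aq W i q 0 = 1 := by
  classical
  unfold Aq
  simp_rw [abr_zero]
  rw [tsum_eq_single [] (fun w hw => if_neg hw), if_pos rfl, hW.nil]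
  simp

lemma Aq_le (hK : S_KRAFT) {W : List (U d) → ℝ≥0∞} (hW : Wt W) {q : ℝ≥0∞} (hq : q ≤ 1) (n : ℕ) :
    Aq W i q n ≤ q ^ n := by
  classical
  calc Aq W i q n ≤ ∑' w, q ^ n * (if Abr i n w then W w else 0) := by
        unfold Aq
        refine ENNReal.tsum_le_tsum fun w => ?_
        by_cases hw : Abr i n w
        · rw [if_pos hw, if_pos hw, mul_comm]
          gcongr ?_ * _
          have h1 : n ≤ w.length := by
            have := pos_le_length (i := i) w
            rw [hw.1] at this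
            exact_mod_cast this
          exact pow_le_pow_right_of_le_one' hq h1
        · rw [if_neg hw]
          exact bot_le
    _ = q ^ n * uA W i n := by rw [ENNReal.tsum_mul_left]; rfl
    _ ≤ q ^ n * 1 := by gcongr; exact uA_le_one hK hW n
    _ = q ^ n := mul_one _

lemma Aq_ren (hD : S_DECS) (hM : S_WMUL) {W : List (U d) → ℝ≥0∞} (hW : Wt W) (q : ℝ≥0∞) (n : ℕ)
    (hn : 1 ≤ n) :
    Aq W i q n = ∑' c : SBlk i, if c.1.1 ≤ n then
      (W c.1.2 * q ^ c.1.2.length) * Aq W i q (n - c.1.1) else 0 := by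
  classical
  have := hD d i n hn (fun w => W w * q ^ w.length)
  unfold Aq
  rw [show (∑' w, if Abr i n w then W w * q ^ w.length else 0) = _ from this]
  refine tsum_congr fun c => ?_
  by_cases hc : c.1.1 ≤ n
  · rw [if_pos hc, if_pos hc, ← ENNReal.tsum_mul_left]
    refine tsum_congr fun w => ?_
    by_cases hw : Abr i (n - c.1.1) w
    · rw [if_pos hw, if_pos hw, (hM d i W hW).1 _ _ _ _ hw c.2.2.1, List.length_append, pow_add]
      ring
    · rw [if_neg hw, if_neg hw, mul_zero]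
  · rw [if_neg hc, if_neg hc]

/-- `F = 1 + φ F` -/
lemma F_eq (hD : S_DECS) (hM : S_WMUL) {W : List (U d) → ℝ≥0∞} (hW : Wt W) (q : ℝ≥0∞) :
    ∑' n, Aq W i q n = 1 + (∑' c : SBlk i, W c.1.2 * q ^ c.1.2.length) * ∑' n, Aq W i q n := by
  classical
  conv_lhs => rw [tsum_eq_zero_add' ENNReal.summable, Aq_zero hW]
  congr 1
  calc ∑' n, Aq W i q (n + 1)
      = ∑' n, ∑' c : SBlk i, (if c.1.1 ≤ n + 1 then
          (W c.1.2 * q ^ c.1.2.length) * Aq W i q (n + 1 - c.1.1) else 0) :=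
        tsum_congr fun n => Aq_ren hD hM hW q (n + 1) (Nat.le_add_left 1 n)
    _ = ∑' c : SBlk i, ∑' n, (if c.1.1 ≤ n + 1 then
          (W c.1.2 * q ^ c.1.2.length) * Aq W i q (n + 1 - c.1.1) else 0) := ENNReal.tsum_comm
    _ = ∑' c : SBlk i, (W c.1.2 * q ^ c.1.2.length) * ∑' n, Aq W i q n := by
        refine tsum_congr fun c => ?_
        rw [← ENNReal.tsum_mul_left,
          ← tsum_shift (fun n => (W c.1.2 * q ^ c.1.2.length) * Aq W i q n) (c.1.1 - 1)]
        refine tsum_congr fun n => ?_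
        have h1 : 1 ≤ c.1.1 := c.2.1
        by_cases hc : c.1.1 ≤ n + 1
        · rw [if_pos hc, if_pos (by omega), show n + 1 - c.1.1 = n - (c.1.1 - 1) by omega]
        · rw [if_neg hc, if_neg (by omega)]
    _ = _ := ENNReal.tsum_mul_right

lemma key (hD : S_DECS) (hM : S_WMUL) (hK : S_KRAFT) {W : List (U d) → ℝ≥0∞} (hW : Wt W)
    (h1 : ∑' c : SBlk i, W c.1.2 = 1) {q ε : ℝ≥0∞} (h : q + ε = 1) (hε : ε ≠ 0) :
    ε * (∑' c : SBlk i, W c.1.2 * (c.1.2.length * q ^ c.1.2.length)) * ∑' n, Aq W i q n ≤ 1 := by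
  classical
  have hq : q ≤ 1 := h ▸ le_self_add
  have hqt : q ≠ ⊤ := ne_top_of_le_ne_top ENNReal.one_ne_top hq
  set F := ∑' n, Aq W i q n with hF
  set X := ∑' c : SBlk i, W c.1.2 * (c.1.2.length * q ^ c.1.2.length) with hX
  set φ := ∑' c : SBlk i, W c.1.2 * q ^ c.1.2.length with hφ
  have hFt : F ≠ ⊤ := by
    have h2 : F ≤ (1 - q)⁻¹ := by
      rw [← ENNReal.tsum_geometric]
      exact ENNReal.tsum_le_tsum fun n => Aq_le hK hW hq n
    have h3 : 1 - q = ε := by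
      rw [← h, ENNReal.add_sub_cancel_left hqt]
    refine ne_top_of_le_ne_top ?_ h2
    rw [h3]
    exact ENNReal.inv_ne_top.mpr hε
  have hφ1 : φ ≤ 1 := by
    rw [← h1]
    refine ENNReal.tsum_le_tsum fun c => ?_
    exact mul_le_of_le_one_right' (pow_le_one' hq _)
  have e1 : F = 1 + φ * F := F_eq hD hM hW q
  have e2 : ε * X + φ ≤ 1 := by
    rw [← h1, hX, hφ, ← ENNReal.tsum_mul_left, ← ENNReal.tsum_add]
    refine ENNReal.tsum_le_tsum fun c => ?_
    calc ε * (W c.1.2 * (c.1.2.length * q ^ c.1.2.length)) + W c.1.2 * q ^ c.1.2.length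
        = W c.1.2 * (c.1.2.length * q ^ c.1.2.length * ε + q ^ c.1.2.length) := by ring
      _ ≤ W c.1.2 * 1 := by gcongr; exact bern2 h _
      _ = W c.1.2 := mul_one _
  have hφF : φ * F ≠ ⊤ := ENNReal.mul_ne_top (ne_top_of_le_ne_top ENNReal.one_ne_top hφ1) hFt
  have e3 : ε * X * F + φ * F ≤ 1 + φ * F := by
    rw [← add_mul, ← e1]
    exact mul_le_of_le_one_left' e2
  exact (ENNReal.add_le_add_iff_right hφF).mp e3

lemma key2 (hD : S_DECS) (hM : S_WMUL) (hK : S_KRAFT) {W : List (U d) → ℝ≥0∞} (hW : Wt W)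
    (h1 : ∑' c : SBlk i, W c.1.2 = 1) {p : ℝ≥0∞} {M : ℕ}
    (hp : ∀ n, p ≤ (open Classical in
      ∑' w, if Abr i n w ∧ w.length ≤ M * n then W w else 0))
    {q ε : ℝ≥0∞} (h : q + ε = 1) (hε : ε ≠ 0) :
    (∑' c : SBlk i, W c.1.2 * (c.1.2.length * q ^ c.1.2.length)) * p ≤ M := by
  classical
  have hq : q ≤ 1 := h ▸ le_self_add
  have hε1 : ε ≤ 1 := h ▸ le_add_self
  have hεt : ε ≠ ⊤ := ne_top_of_le_ne_top ENNReal.one_ne_top hε1
  have k := key hD hM hK hW h1 h hε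
  set X := ∑' c : SBlk i, W c.1.2 * (c.1.2.length * q ^ c.1.2.length) with hX
  have hF : p * (M * ε)⁻¹ ≤ ∑' n, Aq W i q n := by
    calc p * (M * ε)⁻¹ ≤ p * (1 - q ^ M)⁻¹ := by
          gcongr
          rw [tsub_le_iff_left]
          exact bern1 h M
      _ = ∑' n, p * (q ^ M) ^ n := by rw [ENNReal.tsum_mul_left, ENNReal.tsum_geometric]
      _ ≤ ∑' n, Aq W i q n := by
          refine ENNReal.tsum_le_tsum fun n => ?_
          calc p * (q ^ M) ^ n ≤ (∑' w, if Abr i n w ∧ w.length ≤ M * n then W w else 0) *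
                (q ^ M) ^ n := by gcongr; exact hp n
            _ = ∑' w, (if Abr i n w ∧ w.length ≤ M * n then W w else 0) * (q ^ M) ^ n := by
                rw [ENNReal.tsum_mul_right]
            _ ≤ Aq W i q n := by
                unfold Aq
                refine ENNReal.tsum_le_tsum fun w => ?_
                by_cases hw : Abr i n w ∧ w.length ≤ M * n
                · rw [if_pos hw, if_pos hw.1, ← pow_mul]
                  gcongr _ * ?_
                  exact pow_le_pow_right_of_le_one' hq hw.2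
                · rw [if_neg hw, zero_mul]
                  exact bot_le
  have h2 : ε * X * (p * (M * ε)⁻¹) ≤ 1 := le_trans (by gcongr) k
  have h3 : (ε * X * p) / (M * ε) ≤ 1 := by
    rw [div_eq_mul_inv, mul_assoc]
    exact h2
  rw [ENNReal.div_le_iff_le_mul (Or.inr ENNReal.one_ne_top) (Or.inr one_ne_zero), one_mul] at h3
  have h4 : ε * (X * p) ≤ ε * M := by
    calc ε * (X * p) = ε * X * p := by ring
      _ ≤ M * ε := h3
      _ = ε * M := mul_comm _ _
  exact (ENNReal.mul_le_mul_iff_right hε hεt).mp h4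

end Vale.Agent.P147.H4

namespace Vale.Agent.P147

open scoped ENNReal
open H4

theorem tau : S_DECS → S_WMUL → S_RENEW → S_KRAFT → S_TAU := by
  intro hD hM hR hK d i W hW ⟨p, M, hp0, hp⟩
  classical
  have hpu : ∀ n, p ≤ uA W i n := by
    intro n
    refine (hp n).trans ?_
    unfold uA
    refine ENNReal.tsum_le_tsum fun w => ?_
    by_cases hw : Abr i n w ∧ w.length ≤ M * n
    · rw [if_pos hw, if_pos hw.1]
    · rw [if_neg hw]
      exact bot_le
  have h1 : ∑' c : SBlk i, W c.1.2 = 1 :=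
    hR (SBlk i) (fun c => W c.1.2) (fun c => c.1.1) (uA W i) (fun c => c.2.1) (uA_zero hW)
      (fun n => uA_le_one hK hW n) ⟨p, hp0, hpu⟩ (fun n hn => uA_ren hD hM hW n hn)
  have hpt : p ≠ ⊤ := ne_top_of_le_ne_top ENNReal.one_ne_top ((hpu 0).trans (uA_le_one hK hW 0))
  have hfin : ∀ s : Finset (SBlk i), ∑ c ∈ s, W c.1.2 * (c.1.2.length : ℝ≥0∞) ≤ 2 * M / p := by
    intro s
    -- maximal length
    obtain ⟨Lm, hL⟩ : ∃ Lm : ℕ, ∀ c ∈ s, c.1.2.length ≤ Lm :=
      ⟨s.sup fun c => c.1.2.length, fun c hc => Finset.le_sup (f := fun c : SBlk i => c.1.2.length) hc⟩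
    set ε : ℝ≥0∞ := (2 * (Lm + 1 : ℕ))⁻¹ with hεd
    have hε0 : ε ≠ 0 := ENNReal.inv_ne_zero.mpr (ENNReal.mul_ne_top (by norm_num)
      (ENNReal.natCast_ne_top _))
    have hε1 : ε ≤ 1 := by
      rw [hεd, ENNReal.inv_le_one]
      have : (1 : ℝ≥0∞) ≤ ((2 * (Lm + 1) : ℕ) : ℝ≥0∞) := by
        exact_mod_cast (by omega : 1 ≤ 2 * (Lm + 1))
      simpa using this
    have hq : (1 - ε) + ε = 1 := tsub_add_cancel_of_le hε1
    have hq1 : (1 - ε) ≤ 1 := tsub_le_self
    have hLε : (Lm : ℝ≥0∞) * ε ≤ 2⁻¹ := by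
      rw [hεd, ENNReal.mul_inv (Or.inl (by norm_num)) (Or.inl (by norm_num))]
      calc (Lm : ℝ≥0∞) * (2⁻¹ * ((Lm + 1 : ℕ) : ℝ≥0∞)⁻¹)
          = 2⁻¹ * (Lm * ((Lm + 1 : ℕ) : ℝ≥0∞)⁻¹) := by ring
        _ ≤ 2⁻¹ * 1 := by
            gcongr
            rw [← div_eq_mul_inv]
            refine ENNReal.div_le_of_le_mul ?_
            rw [one_mul]
            exact_mod_cast Nat.le_succ Lm
        _ = 2⁻¹ := mul_one _
    have hqL : 2⁻¹ ≤ (1 - ε) ^ Lm := by
      have b := bern1 hq Lm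
      have h2 : (2⁻¹ : ℝ≥0∞) + 2⁻¹ ≤ (1 - ε) ^ Lm + 2⁻¹ := by
        rw [ENNReal.inv_two_add_inv_two]
        exact b.trans (by gcongr)
      exact (ENNReal.add_le_add_iff_right (by simp)).mp h2
    have k := key2 hD hM hK hW h1 hp hq hε0
    have h3 : (∑ c ∈ s, W c.1.2 * (c.1.2.length : ℝ≥0∞)) * 2⁻¹ ≤
        ∑' c : SBlk i, W c.1.2 * (c.1.2.length * (1 - ε) ^ c.1.2.length) := by
      rw [Finset.sum_mul]
      refine le_trans (Finset.sum_le_sum fun c hc => ?_) (ENNReal.sum_le_tsum s)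
      rw [mul_assoc]
      gcongr _ * (_ * ?_)
      exact hqL.trans (pow_le_pow_right_of_le_one' hq1 (hL c hc))
    have h4 : (∑ c ∈ s, W c.1.2 * (c.1.2.length : ℝ≥0∞)) * 2⁻¹ * p ≤ M :=
      le_trans (by gcongr) k
    rw [ENNReal.le_div_iff_mul_le (Or.inl hp0) (Or.inl hpt)]
    calc (∑ c ∈ s, W c.1.2 * (c.1.2.length : ℝ≥0∞)) * p
        = 2 * ((∑ c ∈ s, W c.1.2 * (c.1.2.length : ℝ≥0∞)) * 2⁻¹ * p) := by
          rw [mul_comm _ (2⁻¹ : ℝ≥0∞), mul_assoc, ← mul_assoc 2,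
            ENNReal.mul_inv_cancel (by norm_num) (by norm_num), one_mul]
      _ ≤ 2 * M := by gcongr
  have ht : (2 : ℝ≥0∞) * M / p ≠ ⊤ := ENNReal.div_ne_top (ENNReal.mul_ne_top (by norm_num)
    (ENNReal.natCast_ne_top M)) hp0
  refine ne_top_of_le_ne_top ht ?_
  rw [ENNReal.tsum_eq_iSup_sum]
  exact iSup_le hfin

end Vale.Agent.P147
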