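import Vale.Agent.P147.Final

namespace Vale.Agent.P147

open MeasureTheory Filter Topology
open scoped ENNReal

theorem fast_of_tendsto {d : ℕ} {Ω : Type} (X : ℕ → Ω → Site d) (v : Fin d → ℝ) (i : Fin d)
    (hv : 0 < v i) :
    {ξ | Tendsto (fun (n : ℕ) (j : Fin d) => (X n ξ j : ℝ) / n) atTop (𝓝 v)} ⊆ Fast X i := by
  intro ξ h
  have h1 := (tendsto_pi_nhds.1 h) i
  have h2 := (tendsto_order.1 h1).1 (v i / 2) (by linarith)
  refine ⟨v i / 2, by linarith, ?_⟩
  filter_upwards [h2, eventually_gt_atTop 0] with n hn hn0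
  have hn' : (0 : ℝ) < n := by exact_mod_cast hn0
  rw [lt_div_iff₀ hn'] at hn
  exact hn.le

theorem slow_of_tendsto {d : ℕ} {Ω : Type} (X : ℕ → Ω → Site d) (v : Fin d → ℝ) (i : Fin d)
    (hv : v i < 0) :
    {ξ | Tendsto (fun (n : ℕ) (j : Fin d) => (X n ξ j : ℝ) / n) atTop (𝓝 v)} ⊆ Slow X i := by
  intro ξ h
  have h1 := (tendsto_pi_nhds.1 h) i
  have h2 := (tendsto_order.1 h1).2 (v i / 2) (by linarith)
  refine ⟨-(v i / 2), by linarith, ?_⟩
  filter_upwards [h2, eventually_gt_atTop 0] with n hn hn0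
  have hn' : (0 : ℝ) < n := by exact_mod_cast hn0
  rw [div_lt_iff₀ hn'] at hn
  linarith

/-- no two opposite nonzero velocities -/
theorem vel (hF : S_FINAL) (d : ℕ) (hd : 3 ≤ d) (μ : Measure (U d → ℝ)) [IsProbabilityMeasure μ]
    (hμ : Elliptic μ) (Ω : Type) [MeasurableSpace Ω] (P : Measure Ω) [IsProbabilityMeasure P]
    (X : ℕ → Ω → Site d) (hX : IsWalk μ P X) (v : Fin d → ℝ) (c : ℝ) (hv : v ≠ 0) (hc : 0 < c) :
    P {ξ | Tendsto (fun (n : ℕ) (j : Fin d) => (X n ξ j : ℝ) / n) atTop (𝓝 v)} = 0 ∨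
    P {ξ | Tendsto (fun (n : ℕ) (j : Fin d) => (X n ξ j : ℝ) / n) atTop (𝓝 (-(c • v)))} = 0 := by
  obtain ⟨i, hi⟩ := Function.ne_iff.1 hv
  rw [Pi.zero_apply] at hi
  have h := hF d i hd μ hμ Ω P X hX
  rcases lt_or_gt_of_ne hi with hneg | hpos
  · have h2 : 0 < (-(c • v)) i := by
      simp only [Pi.neg_apply, Pi.smul_apply, smul_eq_mul]
      nlinarith
    rcases h with h | h
    · exact Or.inr (measure_mono_null (fast_of_tendsto X _ i h2) h)
    · exact Or.inl (measure_mono_null (slow_of_tendsto X _ i hneg) h)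
  · have h2 : (-(c • v)) i < 0 := by
      simp only [Pi.neg_apply, Pi.smul_apply, smul_eq_mul]
      nlinarith
    rcases h with h | h
    · exact Or.inl (measure_mono_null (fast_of_tendsto X _ i hpos) h)
    · exact Or.inr (measure_mono_null (slow_of_tendsto X _ i h2) h)

end Vale.Agent.P147
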