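import Vale.Agent.P147.H4b

namespace Vale.Agent.P147.H4

open scoped ENNReal
open Vale.Agent.P147

variable {d : ℕ} {i : Fin d}

open Classical in
/-- mass of departures from level `j` -/
noncomputable def Sj (W : List (U d) → ℝ≥0∞) (i : Fin d) (j n : ℕ) : ℝ≥0∞ :=
  ∑' w, if Abr i n w then W w * (vis i j w : ℝ≥0∞) else 0

open Classical in
/-- source term -/
noncomputable def ψj (W : List (U d) → ℝ≥0∞) (i : Fin d) (j n : ℕ) : ℝ≥0∞ :=
  ∑' c : SBlk i, if c.1.1 ≤ n then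
    W c.1.2 * (uA W i (n - c.1.1) * (vis i (j - ((n - c.1.1 : ℕ) : ℤ)) c.1.2 : ℝ≥0∞)) else 0

lemma Sj_zero (W : List (U d) → ℝ≥0∞) (j : ℕ) : Sj W i j 0 = ψj W i j 0 := by
  classical
  unfold Sj ψj
  simp_rw [abr_zero]
  rw [tsum_eq_single [] (fun w hw => if_neg hw), if_pos rfl]
  symm
  rw [show (vis i (j : ℤ) ([] : List (U d))) = 0 by simp [vis]]
  rw [Nat.cast_zero, mul_zero, ENNReal.tsum_eq_zero]
  intro c
  rw [if_neg]
  have := c.2.1
  omega

lemma Sj_ren (hD : S_DECS) (hM : S_WMUL) {W : List (U d) → ℝ≥0∞} (hW : Wt W) (j n : ℕ)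
    (hn : 1 ≤ n) :
    Sj W i j n = (∑' c : SBlk i, if c.1.1 ≤ n then W c.1.2 * Sj W i j (n - c.1.1) else 0) +
      ψj W i j n := by
  classical
  have := hD d i n hn (fun w => W w * (vis i j w : ℝ≥0∞))
  unfold ψj
  rw [← ENNReal.tsum_add]
  unfold Sj
  rw [show (∑' w, if Abr i n w then W w * (vis i j w : ℝ≥0∞) else 0) = _ from this]
  refine tsum_congr fun c => ?_
  by_cases hc : c.1.1 ≤ n
  · rw [if_pos hc, if_pos hc, if_pos hc, ← mul_add]
    unfold uA
    rw [← ENNReal.tsum_mul_right, ← ENNReal.tsum_add, ← ENNReal.tsum_mul_left]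
    refine tsum_congr fun w => ?_
    by_cases hw : Abr i (n - c.1.1) w
    · rw [if_pos hw, if_pos hw, if_pos hw, (hM d i W hW).1 _ _ _ _ hw c.2.2.1, vis_append, hw.1]
      push_cast
      ring
    · rw [if_neg hw, if_neg hw, if_neg hw]
      simp
  · rw [if_neg hc, if_neg hc, if_neg hc, add_zero]

lemma sum_ψ (hK : S_KRAFT) {W : List (U d) → ℝ≥0∞} (hW : Wt W) (j N : ℕ) :
    ∑ m ∈ Finset.range N, ψj W i j m ≤ ∑' c : SBlk i, W c.1.2 * (c.1.2.length : ℝ≥0∞) := by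
  classical
  unfold ψj
  rw [← Summable.tsum_finsetSum (fun _ _ => ENNReal.summable)]
  refine ENNReal.tsum_le_tsum fun c => ?_
  calc ∑ m ∈ Finset.range N, (if c.1.1 ≤ m then
        W c.1.2 * (uA W i (m - c.1.1) * (vis i (j - ((m - c.1.1 : ℕ) : ℤ)) c.1.2 : ℝ≥0∞)) else 0)
      ≤ ∑ m ∈ Finset.range N, W c.1.2 *
        ((if c.1.1 ≤ m then vis i (j - ((m - c.1.1 : ℕ) : ℤ)) c.1.2 else 0 : ℕ) : ℝ≥0∞) := by
        refine Finset.sum_le_sum fun m _ => ?_
        by_cases hm : c.1.1 ≤ m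
        · rw [if_pos hm, if_pos hm]
          gcongr
          exact mul_le_of_le_one_left' (uA_le_one hK hW _)
        · rw [if_neg hm]
          exact bot_le
    _ = W c.1.2 * ((∑ m ∈ Finset.range N,
          (if c.1.1 ≤ m then vis i (j - ((m - c.1.1 : ℕ) : ℤ)) c.1.2 else 0) : ℕ) : ℝ≥0∞) := by
        rw [← Finset.mul_sum]
        push_cast
        rfl
    _ ≤ W c.1.2 * (c.1.2.length : ℝ≥0∞) := by
        gcongr
        exact sum_vis_le _ _ _ _

end Vale.Agent.P147.H4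

namespace Vale.Agent.P147

open scoped ENNReal

theorem vis_thm : S_DECS → S_WMUL → S_RENEQ → S_KRAFT → S_VIS := by
  intro hD hM hQ hK d i W hW n j
  classical
  have h := hQ (SBlk i) (fun c => W c.1.2) (fun c => c.1.1) (uA W i) (H4.Sj W i j) (H4.ψj W i j)
    (fun c => c.2.1) (H4.uA_zero hW) (fun n hn => H4.uA_ren hD hM hW n hn) (H4.Sj_zero W j)
    (fun n hn => H4.Sj_ren hD hM hW j n hn) n
  show H4.Sj W i j n ≤ _
  rw [h]
  refine le_trans (Finset.sum_le_sum fun m _ => ?_) (H4.sum_ψ hK hW j (n + 1))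
  exact mul_le_of_le_one_left' (H4.uA_le_one hK hW _)

end Vale.Agent.P147
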