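import Vale.Agent.P147.Defs

/-! # P147, modules WMUL, HMUL, REF (helper21) -/

namespace Vale.Agent.P147

open MeasureTheory Filter
open scoped ENNReal

namespace WORDS

variable {d : ℕ}

lemma pos_append (a b : List (U d)) : pos (a ++ b) = pos a + pos b := by
  simp [pos]

lemma take_append_lt {a b : List (U d)} {k : ℕ} (h : k ≤ a.length) :
    (a ++ b).take k = a.take k := by
  rw [List.take_append_of_le_length h]

lemma take_append_ge {a b : List (U d)} {k : ℕ} (h : a.length ≤ k) :
    (a ++ b).take k = a ++ b.take (k - a.length) := by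
  rw [List.take_append, List.take_of_length_le h]

lemma em_add {i : Fin d} (z w : L i) : em (z + w) = em z + em w := by
  funext j
  simp only [em, Pi.add_apply]
  split_ifs <;> simp

lemma em_lat {i : Fin d} (a b : List (U d)) (h : pos a i + pos b i = 0) :
    em (lat i a + lat i b) = pos a + pos b := by
  funext j
  simp only [em, lat, Pi.add_apply]
  by_cases hj : j = i
  · subst hj
    simp [h]
  · simp [hj]

end WORDS

/-- WMUL -/
theorem wmul : S_WMUL := by
  intro d i W hW
  constructor
  · intro m n a b ha hb
    refine hW.indep a b fun k hk l hl heq => ?_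
    have h1 := (ha.2 k hk).2
    have h2 := (hb.2 l hl).1
    have h3 := congrFun heq i
    rw [Pi.add_apply, ha.1] at h3
    omega
  · intro m n a b ha hb
    refine hW.indep b a fun k hk l hl heq => ?_
    have h1 := (hb.2 k hk).1
    have h2 := (ha.2 l hl).2
    have h3 := congrFun heq i
    rw [Pi.add_apply, hb.1] at h3
    omega

/-- HMUL -/
theorem hmul : S_HMUL := by
  intro d i m h α' β' α β z hα' hβ' hα hβ
  have hei : (Pi.single i 1 : Fin d → ℤ) i = 1 := by simp
  have hemi : ∀ w : L i, em w i = 0 := by intro w; simp [em]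
  have hz : em (z + (lat i α + lat i β)) = em z + (pos α + pos β) := by
    rw [WORDS.em_add, WORDS.em_lat α β]
    rw [hα.1, hβ.1]
    ring
  constructor
  · rintro ⟨k, hk, l, hl, e⟩
    rw [List.length_append] at hk hl
    have e' := congrFun e i
    simp only [WORDS.pos_append, Pi.add_apply, Pi.sub_apply, hei, hemi, hα'.1, hα.1] at e'
    by_cases hk1 : k < α'.length
    · have h1 := hα'.2 k hk1
      rw [WORDS.take_append_lt hk1.le] at e' e
      by_cases hl1 : l < β.length
      · exfalso
        have h2 := hβ.2 l hl1
        rw [WORDS.take_append_lt hl1.le] at e'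
        omega
      · right
        rw [not_lt] at hl1
        refine ⟨k, hk1, l - β.length, by omega, ?_⟩
        rw [WORDS.take_append_ge hl1, WORDS.pos_append, WORDS.pos_append] at e
        rw [e, hz]
        abel
    · rw [not_lt] at hk1
      have h1 := hα.2 (k - α'.length) (by omega)
      rw [WORDS.take_append_ge hk1] at e' e
      rw [WORDS.pos_append, Pi.add_apply, hα'.1] at e'
      by_cases hl1 : l < β.length
      · left
        refine ⟨k - α'.length, by omega, l, hl1, ?_⟩
        rw [WORDS.take_append_lt hl1.le, WORDS.pos_append, WORDS.pos_append] at e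
        have : pos α' + pos (List.take (k - α'.length) α) =
          pos α' + (pos α - Pi.single i 1 + em z + pos (List.take l β)) := by
          rw [e]; abel
        exact add_left_cancel this
      · exfalso
        rw [not_lt] at hl1
        have h2 := hβ'.2 (l - β.length) (by omega)
        rw [WORDS.take_append_ge hl1, WORDS.pos_append, Pi.add_apply, hβ.1] at e'
        omega
  · rintro (⟨k, hk, l, hl, e⟩ | ⟨k, hk, l, hl, e⟩)
    · refine ⟨α'.length + k, by rw [List.length_append]; omega, l,
        by rw [List.length_append]; omega, ?_⟩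
      rw [WORDS.take_append_ge (by omega), WORDS.take_append_lt hl.le, WORDS.pos_append,
        WORDS.pos_append, Nat.add_sub_cancel_left, e]
      abel
    · refine ⟨k, by rw [List.length_append]; omega, β.length + l,
        by rw [List.length_append]; omega, ?_⟩
      rw [WORDS.take_append_lt hk.le, WORDS.take_append_ge (by omega), WORDS.pos_append,
        WORDS.pos_append, Nat.add_sub_cancel_left, e, hz]
      abel

namespace WORDS

variable {d : ℕ}

/-- reflection of a step -/
def fl (i : Fin d) (t : U d) : U d := (t.1, if t.1 = i then !t.2 else t.2)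

lemma fl_fl (i : Fin d) (t : U d) : fl i (fl i t) = t := by
  unfold fl
  ext1
  · rfl
  · by_cases h : t.1 = i <;> simp [h]

lemma rfl'_append (i : Fin d) (a b : List (U d)) : rfl' i (a ++ b) = rfl' i a ++ rfl' i b := by
  simp [rfl']

lemma rfl'_take (i : Fin d) (a : List (U d)) (k : ℕ) : (rfl' i a).take k = rfl' i (a.take k) := by
  simp [rfl', List.map_take]

lemma rfl'_length (i : Fin d) (a : List (U d)) : (rfl' i a).length = a.length := by
  simp [rfl']

lemma rfl'_rfl' (i : Fin d) (a : List (U d)) : rfl' i (rfl' i a) = a := by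
  induction a with
  | nil => rfl
  | cons t a ih =>
    have e1 : rfl' i (t :: a) = fl i t :: rfl' i a := rfl
    have e2 : rfl' i (fl i t :: rfl' i a) = fl i (fl i t) :: rfl' i (rfl' i a) := rfl
    rw [e1, e2, fl_fl, ih]

lemma stp_fl (i : Fin d) (t : U d) (j : Fin d) :
    stp (fl i t) j = if j = i then - stp t j else stp t j := by
  obtain ⟨a, b⟩ := t
  simp only [stp, fl]
  by_cases hj : j = i
  · subst hj
    by_cases ha : a = j
    · subst ha
      cases b <;> simp
    · simp [ha, Ne.symm ha]
  · by_cases ha : a = i
    · subst ha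
      simp [hj]
    · simp [ha, hj]

lemma pos_rfl' (i : Fin d) (w : List (U d)) (j : Fin d) :
    pos (rfl' i w) j = if j = i then - pos w j else pos w j := by
  induction w with
  | nil => simp [rfl', pos]
  | cons t a ih =>
    have e1 : rfl' i (t :: a) = fl i t :: rfl' i a := rfl
    have e2 : ∀ (t : U d) (a : List (U d)), pos (t :: a) = stp t + pos a := by
      intro t a
      simp [pos]
    rw [e1, e2, e2, Pi.add_apply, Pi.add_apply, ih, stp_fl]
    split_ifs
    · ring
    · rfl

end WORDS

/-- REF -/
theorem ref : S_REF := by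
  intro d i W hW
  refine ⟨⟨hW.nil, fun w => hW.ne_zero _, fun w => ?_, fun a b h => ?_, fun a b => ?_⟩,
    WORDS.rfl'_rfl' i, WORDS.pos_rfl' i, fun n w => ?_⟩
  · have h1 := hW.sum (rfl' i w)
    rw [← h1]
    refine Fintype.sum_equiv ⟨WORDS.fl i, WORDS.fl i, WORDS.fl_fl i, WORDS.fl_fl i⟩ _ _
      fun t => ?_
    rw [WORDS.rfl'_append]
    rfl
  · rw [WORDS.rfl'_append]
    refine hW.indep _ _ fun k hk l hl heq => ?_
    rw [WORDS.rfl'_length] at hk hl
    refine h k hk l hl ?_
    rw [WORDS.rfl'_take, WORDS.rfl'_take] at heq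
    funext j
    have h2 := congrFun heq j
    rw [Pi.add_apply, WORDS.pos_rfl', WORDS.pos_rfl', WORDS.pos_rfl'] at h2
    rw [Pi.add_apply]
    split_ifs at h2 <;> omega
  · rw [WORDS.rfl'_append]
    exact hW.tail _ _
  · unfold Bbr Abr
    rw [WORDS.pos_rfl', if_pos rfl, WORDS.rfl'_length]
    refine and_congr ⟨fun h => by omega, fun h => by omega⟩ (forall_congr' fun k =>
      forall_congr' fun _ => ?_)
    rw [WORDS.rfl'_take, WORDS.pos_rfl', if_pos rfl]
    constructor <;> rintro ⟨h1, h2⟩ <;> constructor <;> omega

end Vale.Agent.P147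

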