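import Vale.Agent.P147.Abs
import Vale.Agent.P147.Conc
import Vale.Agent.P147.Reneq
import Vale.Agent.P147.Renew
import Vale.Agent.P147.Decs
import Vale.Agent.P147.Decp
import Vale.Agent.P147.Kraft
import Vale.Agent.P147.LAW
import Vale.Agent.P147.LOWER
import Vale.Agent.P147.Ops
import Vale.Agent.P147.Words
import Vale.Agent.P147.Esc
import Vale.Agent.P147.Khit
import Vale.Agent.P147.Kone
import Vale.Agent.P147.Tau
import Vale.Agent.P147.Vis
import Vale.Agent.P147.Vel

namespace Vale.Agent.P147

theorem core_all : S_CORE :=
  core abs conc ops renew kraft ref decp wmul hmul (esc kraft)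
    (tau decs wmul renew kraft) (vis_thm decs wmul reneq kraft) (kone decp wmul reneq khit)

theorem final_all : S_FINAL := final law lower ref core_all

end Vale.Agent.P147
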