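import Vale.Agent.P147.Defs

namespace Vale.Agent.P147

open MeasureTheory Filter Topology
open scoped ENNReal

namespace CoreX

variable {d : ℕ}

theorem pos_nil : pos ([] : List (U d)) = 0 := rfl

theorem pos_append (a b : List (U d)) : pos (a ++ b) = pos a + pos b := by
  simp [pos]

theorem pos_single (t : U d) : pos [t] = stp t := by
  simp [pos]

theorem stp_lateral {i : Fin d} {t : U d} (h : t.1 ≠ i) : stp t i = 0 := by
  simp [stp, Pi.single_apply, Ne.symm h]

theorem pos_lateral {i : Fin d} (l : List (U d)) (h : ∀ t ∈ l, t.1 ≠ i) : pos l i = 0 := by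
  induction l with
  | nil => rfl
  | cons t l ih =>
    rw [← List.singleton_append, pos_append, pos_single, Pi.add_apply,
      stp_lateral (h t (by simp)), ih (fun s hs => h s (by simp [hs])), add_zero]

theorem abr_nil {i : Fin d} (w : List (U d)) : Abr i 0 w ↔ w = [] := by
  constructor
  · rintro ⟨_, h⟩
    by_contra hne
    have := h 0 (List.length_pos_iff.2 hne)
    simp at this
    omega
  · rintro rfl
    exact ⟨rfl, fun k hk => absurd hk (Nat.not_lt_zero k)⟩

theorem bbr_nil {i : Fin d} (w : List (U d)) : Bbr i 0 w ↔ w = [] := by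
  constructor
  · rintro ⟨_, h⟩
    by_contra hne
    have := h 0 (List.length_pos_iff.2 hne)
    simp at this
    omega
  · rintro rfl
    exact ⟨rfl, fun k hk => absurd hk (Nat.not_lt_zero k)⟩

theorem abr_pf {i : Fin d} {n : ℕ} {a b : List (U d)} (ha : Abr i n a) (hb : Abr i n b)
    (h : a <+: b) : a = b := by
  obtain ⟨c, rfl⟩ := h
  by_cases hc : c = []
  · simp [hc]
  · have hlt : a.length < (a ++ c).length := by
      have := List.length_pos_iff.2 hc
      simp [this]
    have := (hb.2 a.length hlt).2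
    rw [List.take_left] at this
    have := ha.1
    omega

theorem bbr_pf {i : Fin d} {n : ℕ} {a b : List (U d)} (ha : Bbr i n a) (hb : Bbr i n b)
    (h : a <+: b) : a = b := by
  obtain ⟨c, rfl⟩ := h
  by_cases hc : c = []
  · simp [hc]
  · have hlt : a.length < (a ++ c).length := by
      have := List.length_pos_iff.2 hc
      simp [this]
    have := (hb.2 a.length hlt).1
    rw [List.take_left] at this
    have := ha.1
    omega

open Classical in
theorem tsum_if_eq {P : List (U d) → Prop} (W : List (U d) → ℝ≥0∞) :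
    (∑' w, if P w then W w else 0) = ∑' w : {w | P w}, W w := by
  rw [tsum_subtype]
  refine tsum_congr fun w => ?_
  simp [Set.indicator_apply]

theorem uA_le (hK : S_KRAFT) {W : List (U d) → ℝ≥0∞} (hW : Wt W) (i : Fin d) (n : ℕ) :
    uA W i n ≤ 1 := by
  unfold uA
  rw [tsum_if_eq]
  exact hK d W hW {w | Abr i n w} fun a ha b hb h => abr_pf ha hb h

theorem uB_le (hK : S_KRAFT) {W : List (U d) → ℝ≥0∞} (hW : Wt W) (i : Fin d) (n : ℕ) :
    uB W i n ≤ 1 := by
  unfold uB
  rw [tsum_if_eq]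
  exact hK d W hW {w | Bbr i n w} fun a ha b hb h => bbr_pf ha hb h

theorem uA_zero {W : List (U d) → ℝ≥0∞} (hW : Wt W) (i : Fin d) : uA W i 0 = 1 := by
  classical
  unfold uA
  rw [tsum_eq_single []]
  · rw [if_pos ((abr_nil _).2 rfl), hW.nil]
  · intro w hw
    rw [if_neg (fun h => hw ((abr_nil _).1 h))]

theorem uB_zero {W : List (U d) → ℝ≥0∞} (hW : Wt W) (i : Fin d) : uB W i 0 = 1 := by
  classical
  unfold uB
  rw [tsum_eq_single []]
  · rw [if_pos ((bbr_nil _).2 rfl), hW.nil]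
  · intro w hw
    rw [if_neg (fun h => hw ((bbr_nil _).1 h))]

theorem bb_zero {W : List (U d) → ℝ≥0∞} (hW : Wt W) (i : Fin d) (z : L i) : bb W i 0 z = 1 := by
  classical
  unfold bb
  rw [tsum_eq_single ([], [])]
  · rw [if_pos, hW.nil, one_mul]
    refine ⟨(abr_nil _).2 rfl, (bbr_nil _).2 rfl, ?_⟩
    rintro ⟨k, hk, _⟩
    exact absurd hk (Nat.not_lt_zero k)
  · rintro ⟨a, b⟩ hw
    rw [if_neg]
    rintro ⟨h1, h2, _⟩
    exact hw (Prod.ext ((abr_nil _).1 h1) ((bbr_nil _).1 h2))

open Classical in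
theorem prod_tsum {W : List (U d) → ℝ≥0∞} (i : Fin d) (n : ℕ) :
    (∑' p : List (U d) × List (U d), if Abr i n p.1 ∧ Bbr i n p.2 then W p.1 * W p.2 else 0) =
      uA W i n * uB W i n := by
  unfold uA uB
  rw [ENNReal.tsum_prod', ← ENNReal.tsum_mul_right]
  refine tsum_congr fun a => ?_
  rw [← ENNReal.tsum_mul_left]
  refine tsum_congr fun b => ?_
  by_cases h1 : Abr i n a <;> by_cases h2 : Bbr i n b <;> simp [h1, h2]

/-- weight of a joint block -/
noncomputable def VV (W : List (U d) → ℝ≥0∞) {i : Fin d} (c : Blk i) : ℝ≥0∞ :=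
  W c.1.2.1 * W c.1.2.2

/-- lateral drift of a joint block -/
def ze {i : Fin d} (c : Blk i) : L i := lat i c.1.2.1 + lat i c.1.2.2

theorem R_rec (hD : S_DECP) (hM : S_WMUL) {W : List (U d) → ℝ≥0∞} (hW : Wt W) (i : Fin d)
    (n : ℕ) (hn : 1 ≤ n) : uA W i n * uB W i n =
      ∑' c : Blk i, if c.1.1 ≤ n then VV W c * (uA W i (n - c.1.1) * uB W i (n - c.1.1)) else 0 := by
  classical
  rw [← prod_tsum, hD d i n hn (fun a b => W a * W b)]
  refine tsum_congr fun c => ?_
  split_ifs with hc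
  · rw [← prod_tsum, ← ENNReal.tsum_mul_left]
    refine tsum_congr fun q => ?_
    split_ifs with hq
    · rw [(hM d i W hW).1 _ _ _ _ hq.1 c.2.2.1, (hM d i W hW).2 _ _ _ _ hq.2 c.2.2.2.1]
      unfold VV
      ring
    · rw [mul_zero]
  · rfl

theorem bb_rec (hD : S_DECP) (hM : S_WMUL) (hH : S_HMUL) {W : List (U d) → ℝ≥0∞} (hW : Wt W)
    (i : Fin d) (n : ℕ) (z : L i) (hn : 1 ≤ n) : bb W i n z = (open Classical in
      ∑' c : Blk i, if c.1.1 ≤ n then VV W c *
        (if Hit i c.1.2.1 c.1.2.2 z then 0 else bb W i (n - c.1.1) (z + ze c)) else 0) := by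
  classical
  have h1 : bb W i n z = ∑' p : List (U d) × List (U d), if Abr i n p.1 ∧ Bbr i n p.2 then
      (if Hit i p.1 p.2 z then 0 else W p.1 * W p.2) else 0 := by
    unfold bb
    refine tsum_congr fun p => ?_
    by_cases ha : Abr i n p.1 <;> by_cases hb : Bbr i n p.2 <;>
      by_cases hh : Hit i p.1 p.2 z <;> simp [ha, hb, hh]
  rw [h1, hD d i n hn (fun a b => if Hit i a b z then 0 else W a * W b)]
  refine tsum_congr fun c => ?_
  split_ifs with hc hh
  · rw [mul_zero]
    refine ENNReal.tsum_eq_zero.2 fun q => ?_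
    split_ifs with hq hx
    · rfl
    · exact absurd ((hH d i _ _ _ _ _ _ z hq.1 hq.2 c.2.2.1 c.2.2.2.1).2 (Or.inl hh)) hx
    · rfl
  · unfold bb
    rw [← ENNReal.tsum_mul_left]
    refine tsum_congr fun q => ?_
    by_cases hq : Abr i (n - c.1.1) q.1 ∧ Bbr i (n - c.1.1) q.2
    · rw [if_pos hq]
      have hiff := hH d i _ _ _ _ _ _ z hq.1 hq.2 c.2.2.1 c.2.2.2.1
      by_cases hx : Hit i q.1 q.2 (z + ze c)
      · rw [if_pos (hiff.2 (Or.inr hx)), if_neg (fun h => h.2.2 hx), mul_zero]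
      · rw [if_neg (fun h => (hiff.1 h).elim hh hx), if_pos ⟨hq.1, hq.2, hx⟩,
          (hM d i W hW).1 _ _ _ _ hq.1 c.2.2.1, (hM d i W hW).2 _ _ _ _ hq.2 c.2.2.2.1]
        unfold VV
        ring
    · rw [if_neg hq, if_neg (fun h => hq ⟨h.1, h.2.1⟩), mul_zero]
  · rfl

theorem rfl'_length (i : Fin d) (w : List (U d)) : (rfl' i w).length = w.length := by
  simp [rfl']

theorem rfl'_take (i : Fin d) (w : List (U d)) (k : ℕ) :
    (rfl' i w).take k = rfl' i (w.take k) := by
  simp [rfl', List.map_take]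

/-- the reflection as an equivalence -/
def re (hR : S_REF) {W : List (U d) → ℝ≥0∞} (hW : Wt W) (i : Fin d) :
    List (U d) ≃ List (U d) where
  toFun := rfl' i
  invFun := rfl' i
  left_inv := (hR d i W hW).2.1
  right_inv := (hR d i W hW).2.1

theorem vis_rfl' (hR : S_REF) {W : List (U d) → ℝ≥0∞} (hW : Wt W) (i : Fin d) (j : ℤ)
    (w : List (U d)) : vis i (-j) (rfl' i w) = vis i j w := by
  unfold vis
  rw [rfl'_length]
  congr 1
  refine Finset.filter_congr fun k _ => ?_
  rw [rfl'_take, (hR d i W hW).2.2.1, if_pos rfl]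
  omega

theorem lateral_abr {i : Fin d} (l : List (U d)) (h : ∀ t ∈ l, t.1 ≠ i) :
    Abr i 1 (l ++ [(i, true)]) := by
  have hs : stp ((i, true) : U d) i = 1 := by simp [stp]
  refine ⟨?_, ?_⟩
  · rw [pos_append, pos_single, Pi.add_apply, pos_lateral l h, hs]
    rfl
  · intro k hk
    have hk' : k ≤ l.length := by
      simp at hk
      omega
    rw [List.take_append_of_le_length hk',
      pos_lateral _ (fun t ht => h t (List.mem_of_mem_take ht))]
    simp

theorem down_bbr {i : Fin d} : Bbr i 1 ([(i, false)] : List (U d)) := by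
  have hs : stp ((i, false) : U d) i = -1 := by simp [stp]
  refine ⟨?_, ?_⟩
  · rw [pos_single, hs]
    rfl
  · intro k hk
    have : k = 0 := by simpa using hk
    subst this
    simp [pos_nil]

theorem jirr_one {i : Fin d} {α β : List (U d)} (ha : Abr i 1 α) (hb : Bbr i 1 β) :
    JIrr i 1 α β := ⟨le_rfl, ha, hb, fun m h1 h2 => by omega⟩

theorem lat_append (i : Fin d) (a b : List (U d)) : lat i (a ++ b) = lat i a + lat i b := by
  funext j
  simp [lat, pos_append]

theorem lat_vert (i : Fin d) (b : Bool) : lat i ([(i, b)] : List (U d)) = 0 := by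
  funext j
  have : (j : Fin d) ≠ i := j.2
  simp [lat, pos_single, stp, Pi.single_apply, this]

theorem lat_nil (i : Fin d) : lat i ([] : List (U d)) = 0 := by
  funext j
  simp [lat, pos_nil]

end CoreX

open CoreX in
/-- CORE -/
theorem core (hABS : S_ABS) (hCONC : S_CONC) (hOPS : S_OPS) (hRENEW : S_RENEW)
    (hKRAFT : S_KRAFT) (hREF : S_REF) (hDECP : S_DECP) (hWMUL : S_WMUL) (hHMUL : S_HMUL)
    (hESC : S_ESC) (hTAU : S_TAU) (hVIS : S_VIS) (hKONE : S_KONE) : S_CORE := by
  classical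
  rintro d i W hd hW ⟨⟨p, M, hp, hpM⟩, ⟨p', M', hp', hpM'⟩⟩
  have huA : ∀ n, p ≤ uA W i n := by
    intro n
    refine (hpM n).trans ?_
    unfold uA
    refine ENNReal.tsum_le_tsum fun w => ?_
    by_cases h1 : Abr i n w <;> by_cases h2 : w.length ≤ M * n <;> simp [h1, h2]
  have huB : ∀ n, p' ≤ uB W i n := by
    intro n
    refine (hpM' n).trans ?_
    unfold uB
    refine ENNReal.tsum_le_tsum fun w => ?_
    by_cases h1 : Bbr i n w <;> by_cases h2 : w.length ≤ M' * n <;> simp [h1, h2]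
  obtain ⟨hW', hinv, hpos, hBA⟩ := hREF d i W hW
  -- finite mean lengths
  have hτ1 := hTAU d i W hW ⟨p, M, hp, hpM⟩
  have hτ2 := hTAU d i _ hW' ⟨p', M', hp', fun n => by
    refine (hpM' n).trans (le_of_eq ?_)
    rw [← (re hREF hW i).tsum_eq]
    refine tsum_congr fun w => ?_
    show (if Bbr i n (rfl' i w) ∧ (rfl' i w).length ≤ M' * n then W (rfl' i w) else 0) = _
    rw [rfl'_length, hBA, hinv]⟩
  have hv1 := hVIS d i W hW
  have hv2 := hVIS d i _ hW'
  have hK := hKONE d i W hW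
    ⟨min p p', by
      rcases min_choice p p' with h | h <;> rw [h] <;> assumption,
      fun n => ⟨(min_le_left _ _).trans (huA n), (min_le_right _ _).trans (huB n)⟩⟩
    ⟨_, ENNReal.add_ne_top.2 ⟨hτ1, hτ2⟩, fun n j => ⟨(hv1 n j).trans le_self_add, by
      refine le_trans (le_of_eq ?_) ((hv2 n j).trans le_add_self)
      rw [← (re hREF hW i).tsum_eq]
      refine tsum_congr fun w => ?_
      show (if Bbr i n (rfl' i w) then W (rfl' i w) * (vis i (-(j : ℤ)) (rfl' i w) : ℝ≥0∞)
        else 0) = _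
      rw [hBA, hinv, vis_rfl' hREF hW]⟩⟩
  -- total mass one
  have hV : ∑' c : Blk i, VV W c = 1 := by
    refine hRENEW (Blk i) (VV W) (fun c => c.1.1) (fun n => uA W i n * uB W i n)
      (fun c => c.2.1) ?_ ?_ ⟨p * p', mul_ne_zero hp hp', fun n => mul_le_mul' (huA n) (huB n)⟩ ?_
    · rw [uA_zero hW, uB_zero hW, one_mul]
    · intro n
      exact mul_le_one' (uA_le hKRAFT hW i n) (uB_le hKRAFT hW i n)
    · intro n hn
      exact R_rec hDECP hWMUL hW i n hn
  -- two lateral directions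
  obtain ⟨j₁, j₂, h1, h2, h12⟩ : ∃ j₁ j₂ : Fin d, j₁ ≠ i ∧ j₂ ≠ i ∧ j₁ ≠ j₂ := by
    have hc : 2 ≤ (Finset.univ.erase i).card := by
      rw [Finset.card_erase_of_mem (Finset.mem_univ _), Finset.card_univ, Fintype.card_fin]
      omega
    obtain ⟨a, ha, b, hb, hab⟩ := Finset.one_lt_card.1 hc
    exact ⟨a, b, Finset.ne_of_mem_erase ha, Finset.ne_of_mem_erase hb, hab⟩
  let x : L i := lat i ([(j₁, true)] : List (U d))
  let y : L i := lat i ([(j₂, true)] : List (U d))
  let c : Fin 4 → Blk i := ![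
    ⟨(1, [] ++ [(i, true)], [(i, false)]), jirr_one (lateral_abr [] (by simp)) down_bbr⟩,
    ⟨(1, [(j₁, true)] ++ [(i, true)], [(i, false)]),
      jirr_one (lateral_abr [(j₁, true)] (by simpa using h1)) down_bbr⟩,
    ⟨(1, [(j₂, true)] ++ [(i, true)], [(i, false)]),
      jirr_one (lateral_abr [(j₂, true)] (by simpa using h2)) down_bbr⟩,
    ⟨(1, ([(j₁, true)] ++ [(j₂, true)]) ++ [(i, true)], [(i, false)]),
      jirr_one (lateral_abr ([(j₁, true)] ++ [(j₂, true)]) (by simp [h1, h2])) down_bbr⟩]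
  have hconc := hCONC (L i) (Blk i) (VV W) ze x y c hV ?_ ?_ ?_ ?_ ?_ ?_
  · haveI : Nonempty {j : Fin d // j ≠ i} := ⟨⟨j₁, h1⟩⟩
    haveI : Infinite (L i) := Pi.infinite_of_right
    obtain ⟨z, hz⟩ := hABS (L i) (Blk i) (VV W) ze (fun c z => Hit i c.1.2.1 c.1.2.2 z) hV hK hconc
    have hle := hOPS (L i) (Blk i) (VV W) ze (fun c z => Hit i c.1.2.1 c.1.2.2 z)
      (fun c => c.1.1) (fun n z => bb W i n z) (fun c => c.2.1) (bb_zero hW i)
      (fun n z hn => bb_rec hDECP hWMUL hHMUL hW i n z hn) z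
    rw [hz] at hle
    exact hESC d i W hW z (top_le_iff.1 hle)
  · intro a b hab
    have e1 := congrFun hab ⟨j₁, h1⟩
    have e2 := congrFun hab ⟨j₂, h2⟩
    simp [x, y, lat, pos_single, stp, Pi.single_apply, h12, Ne.symm h12] at e1 e2
    exact ⟨e1, e2⟩
  · intro k
    unfold VV
    exact mul_ne_zero (hW.ne_zero _) (hW.ne_zero _)
  · show lat i ([] ++ [(i, true)]) + lat i [(i, false)] = 0
    rw [lat_append, lat_vert, lat_vert, lat_nil]
    simp
  · show lat i ([(j₁, true)] ++ [(i, true)]) + lat i [(i, false)] = x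
    rw [lat_append, lat_vert, lat_vert]
    simp [x]
  · show lat i ([(j₂, true)] ++ [(i, true)]) + lat i [(i, false)] = y
    rw [lat_append, lat_vert, lat_vert]
    simp [y]
  · show lat i (([(j₁, true)] ++ [(j₂, true)]) ++ [(i, true)]) + lat i [(i, false)] = x + y
    rw [lat_append, lat_append, lat_vert, lat_vert]
    simp [x, y]

end Vale.Agent.P147
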