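import Vale.Agent.P147.Core

namespace Vale.Agent.P147

open MeasureTheory Filter Topology
open scoped ENNReal

open CoreX in
/-- FINAL -/
theorem final (hLAW : S_LAW) (hLOWER : S_LOWER) (hREF : S_REF) (hCORE : S_CORE) : S_FINAL := by
  classical
  intro d i hd μ _ hμ Ω _ P _ X hX
  by_contra hcon
  push Not at hcon
  obtain ⟨hf, hs⟩ := hcon
  have hW : Wt (Ann μ) := hLAW d μ hμ
  obtain ⟨hW', hinv, hpos, hBA⟩ := hREF d i (Ann μ) hW
  have h1 := hLOWER d i (Ann μ) hW Ω P X hX.meas hX.cyl hf
  let X' : ℕ → Ω → Site d := fun n ξ j => if j = i then - X n ξ j else X n ξ j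
  have hX'm : ∀ n, Measurable (X' n) := by
    intro n
    refine measurable_pi_lambda _ fun j => ?_
    have hj : Measurable fun ξ => X n ξ j := (measurable_pi_apply j).comp (hX.meas n)
    by_cases h : j = i
    · simp only [X', h, if_true]
      rw [h] at hj
      exact hj.neg
    · simp only [X', h, if_false]
      exact hj
  have hrefl : ∀ (v w : Site d), ((fun j => if j = i then - v j else v j) = w) ↔
      v = fun j => if j = i then - w j else w j := by
    intro v w
    constructor
    · rintro rfl
      funext j
      by_cases h : j = i <;> simp [h]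
    · rintro rfl
      funext j
      by_cases h : j = i <;> simp [h]
  have hcyl' : ∀ w : List (U d), P {ξ | ∀ k ≤ w.length, X' k ξ = pos (w.take k)} =
      Ann μ (rfl' i w) := by
    intro w
    rw [← hX.cyl (rfl' i w)]
    congr 1
    ext ξ
    simp only [Set.mem_ofPred_eq]
    rw [rfl'_length]
    refine forall₂_congr fun k _ => ?_
    rw [rfl'_take]
    have e : pos (rfl' i (w.take k)) = fun j => if j = i then - pos (w.take k) j
        else pos (w.take k) j := by
      funext j
      exact hpos _ j
    rw [e]
    exact hrefl _ _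
  have hfs : Fast X' i = Slow X i := by
    ext ξ
    simp only [Fast, Slow, Set.mem_ofPred_eq, X', if_true]
    refine exists_congr fun v => and_congr_right fun _ => ?_
    refine eventually_congr (Eventually.of_forall fun n => ?_)
    push_cast
    constructor <;> intro h <;> linarith
  have h2 := hLOWER d i (fun w => Ann μ (rfl' i w)) hW' Ω P X' hX'm hcyl' (by rwa [hfs])
  refine hCORE d i (Ann μ) hd hW ⟨h1, ?_⟩
  obtain ⟨p, M, hp, h⟩ := h2
  refine ⟨p, M, hp, fun n => (h n).trans (le_of_eq ?_)⟩
  rw [← (re hREF hW i).tsum_eq (fun w => if Bbr i n w ∧ w.length ≤ M * n then Ann μ w else 0)]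
  refine tsum_congr fun w => ?_
  show _ = (if Bbr i n (rfl' i w) ∧ (rfl' i w).length ≤ M * n then Ann μ (rfl' i w) else 0)
  rw [rfl'_length, hBA, hinv]

end Vale.Agent.P147
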