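import Vale.Agent.P147.Defs

namespace Vale.Agent.P147.H4

open scoped ENNReal
open Vale.Agent.P147

variable {d : ℕ} {i : Fin d}

lemma pos_append (a b : List (U d)) : pos (a ++ b) = pos a + pos b := by
  simp [pos, List.sum_append]

lemma abr_zero {w : List (U d)} : Abr i 0 w ↔ w = [] := by
  constructor
  · rintro ⟨-, h⟩
    by_contra hne
    have hl : 0 < w.length := List.length_pos_iff.mpr hne
    obtain ⟨h1, h2⟩ := h 0 hl
    simp only [Nat.cast_zero] at h2
    omega
  · rintro rfl
    refine ⟨by simp [pos], by simp⟩

lemma bbr_zero {w : List (U d)} : Bbr i 0 w ↔ w = [] := by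
  constructor
  · rintro ⟨-, h⟩
    by_contra hne
    have hl : 0 < w.length := List.length_pos_iff.mpr hne
    obtain ⟨h1, h2⟩ := h 0 hl
    simp only [Nat.cast_zero, neg_zero] at h1
    omega
  · rintro rfl
    refine ⟨by simp [pos], by simp⟩

/-- departures of a concatenation -/
lemma vis_append (j : ℤ) (a b : List (U d)) :
    vis i j (a ++ b) = vis i j a + vis i (j - pos a i) b := by
  unfold vis
  rw [List.length_append, Finset.range_eq_Ico, ← Finset.Ico_union_Ico_eq_Ico
    (Nat.zero_le a.length) (Nat.le_add_right a.length b.length), Finset.filter_union,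
    Finset.card_union_of_disjoint]
  · congr 1
    · rw [← Finset.range_eq_Ico]
      congr 1
      apply Finset.filter_congr
      intro k hk
      rw [Finset.mem_range] at hk
      rw [List.take_append_of_le_length (le_of_lt hk)]
    · have : (Finset.Ico a.length (a.length + b.length)).filter
          (fun k => pos ((a ++ b).take k) i = j) =
          ((Finset.range b.length).filter
            (fun k => pos (b.take k) i = j - pos a i)).map
              (addLeftEmbedding a.length) := by
        ext k
        simp only [Finset.mem_filter, Finset.mem_Ico, Finset.mem_map, Finset.mem_range,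
          addLeftEmbedding_apply]
        constructor
        · rintro ⟨⟨h1, h2⟩, h3⟩
          refine ⟨k - a.length, ⟨by omega, ?_⟩, by omega⟩
          obtain ⟨m, rfl⟩ := Nat.exists_eq_add_of_le h1
          rw [List.take_length_add_append, pos_append, Pi.add_apply] at h3
          rw [Nat.add_sub_cancel_left]
          linarith
        · rintro ⟨m, ⟨hm, h3⟩, rfl⟩
          refine ⟨⟨by omega, by omega⟩, ?_⟩
          rw [List.take_length_add_append, pos_append, Pi.add_apply]
          linarith
      rw [this, Finset.card_map]
  · exact (Finset.Ico_disjoint_Ico_consecutive 0 a.length _).mono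
      (Finset.filter_subset _ _) (Finset.filter_subset _ _)

end Vale.Agent.P147.H4
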