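import Vale.Agent.P147.H4

namespace Vale.Agent.P147.H4

open scoped ENNReal
open Vale.Agent.P147

variable {d : ℕ} {i : Fin d}

lemma sum_vis_le (c : List (U d)) (h N : ℕ) (j : ℤ) :
    ∑ m ∈ Finset.range N, (if h ≤ m then vis i (j - ((m - h : ℕ) : ℤ)) c else 0) ≤ c.length := by
  classical
  have e : ∀ m, (if h ≤ m then vis i (j - ((m - h : ℕ) : ℤ)) c else 0) =
      ∑ k ∈ Finset.range c.length,
        (if h ≤ m ∧ pos (c.take k) i = j - ((m - h : ℕ) : ℤ) then 1 else 0) := by
    intro m
    by_cases hm : h ≤ m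
    · simp only [hm, if_true, true_and]
      unfold vis
      rw [Finset.card_filter]
    · simp [hm]
  rw [Finset.sum_congr rfl fun m _ => e m, Finset.sum_comm]
  calc ∑ k ∈ Finset.range c.length, ∑ m ∈ Finset.range N,
        (if h ≤ m ∧ pos (c.take k) i = j - ((m - h : ℕ) : ℤ) then 1 else 0)
      ≤ ∑ k ∈ Finset.range c.length, 1 := by
        refine Finset.sum_le_sum fun k _ => ?_
        rw [← Finset.card_filter, Finset.card_le_one]
        intro a ha b hb
        rw [Finset.mem_filter] at ha hb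
        obtain ⟨-, h1, h2⟩ := ha
        obtain ⟨-, h3, h4⟩ := hb
        omega
    _ = c.length := by simp

lemma prefixfree {n : ℕ} {a b : List (U d)} (ha : Abr i n a) (hb : Abr i n b)
    (h : a <+: b) : a = b := by
  obtain ⟨t, rfl⟩ := h
  by_contra hne
  have ht : t ≠ [] := by
    rintro rfl
    exact hne (by simp)
  have hl : a.length < (a ++ t).length := by
    rw [List.length_append]
    have := List.length_pos_iff.mpr ht
    omega
  obtain ⟨-, h2⟩ := hb.2 a.length hl
  rw [List.take_left' rfl, ha.1] at h2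
  omega

open Classical in
lemma tsum_sub (S : Set (List (U d))) (W : List (U d) → ℝ≥0∞) :
    ∑' w : S, W w = ∑' w, if w ∈ S then W w else 0 := by
  rw [tsum_subtype]
  rfl

lemma uA_le_one (hK : S_KRAFT) {W : List (U d) → ℝ≥0∞} (hW : Wt W) (n : ℕ) :
    uA W i n ≤ 1 := by
  classical
  have := hK d W hW {w | Abr i n w} (fun a ha b hb h => prefixfree ha hb h)
  rw [tsum_sub] at this
  exact this

lemma uA_zero {W : List (U d) → ℝ≥0∞} (hW : Wt W) : uA W i 0 = 1 := by
  classical
  unfold uA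
  simp_rw [abr_zero]
  rw [tsum_eq_single [] (fun w hw => if_neg hw), if_pos rfl, hW.nil]

lemma uB_zero {W : List (U d) → ℝ≥0∞} (hW : Wt W) : uB W i 0 = 1 := by
  classical
  unfold uB
  simp_rw [bbr_zero]
  rw [tsum_eq_single [] (fun w hw => if_neg hw), if_pos rfl, hW.nil]

lemma uA_ren (hD : S_DECS) (hM : S_WMUL) {W : List (U d) → ℝ≥0∞} (hW : Wt W) (n : ℕ)
    (hn : 1 ≤ n) :
    uA W i n = ∑' c : SBlk i, if c.1.1 ≤ n then W c.1.2 * uA W i (n - c.1.1) else 0 := by
  classical
  have := hD d i n hn W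
  unfold uA
  rw [show (∑' w, if Abr i n w then W w else 0) = _ from this]
  refine tsum_congr fun c => ?_
  by_cases hc : c.1.1 ≤ n
  · rw [if_pos hc, if_pos hc, ← ENNReal.tsum_mul_left]
    refine tsum_congr fun w => ?_
    by_cases hw : Abr i (n - c.1.1) w
    · rw [if_pos hw, if_pos hw, (hM d i W hW).1 _ _ _ _ hw c.2.2.1, mul_comm]
    · rw [if_neg hw, if_neg hw, mul_zero]
  · rw [if_neg hc, if_neg hc]

end Vale.Agent.P147.H4
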