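import Mathlib

/-!
# P147: definitions used in the hand-in statement
-/

namespace Vale.Agent.P147

open MeasureTheory Filter
open scoped ENNReal

/-- unit steps of the lattice: direction and sign (`true` = plus) -/
abbrev U (d : ℕ) := Fin d × Bool

/-- the lattice vector of a step -/
def stp {d : ℕ} (t : U d) : Fin d → ℤ := Pi.single t.1 (if t.2 then 1 else -1)

/-- end point of a word of steps started at the origin -/
def pos {d : ℕ} (w : List (U d)) : Fin d → ℤ := (w.map stp).sum

/-- sites -/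
abbrev Site (d : ℕ) := Fin d → ℤ

/-- the iid elliptic one-site law: rows are positive probability vectors -/
def Elliptic {d : ℕ} (μ : Measure (U d → ℝ)) : Prop :=
  ∀ᵐ p ∂μ, (∀ t, 0 < p t) ∧ ∑ t, p t = 1

/-- annealed probability that the walk started at the origin follows the word `w` -/
noncomputable def Ann {d : ℕ} (μ : Measure (U d → ℝ)) (w : List (U d)) : ℝ≥0∞ :=
  ∫⁻ ω : Site d → U d → ℝ, ∏ k : Fin w.length, ENNReal.ofReal (ω (pos (w.take k)) w[k])
    ∂(Measure.infinitePi fun _ : Site d => μ)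

/-- `X` is (a version of) the annealed walk: it starts at `0` and its finite-dimensional laws are
the annealed ones. -/
structure IsWalk {d : ℕ} {Ω : Type} [MeasurableSpace Ω] (μ : Measure (U d → ℝ))
    (P : Measure Ω) (X : ℕ → Ω → Site d) : Prop where
  meas : ∀ n, Measurable (X n)
  cyl : ∀ w : List (U d), P {ξ | ∀ k ≤ w.length, X k ξ = pos (w.take k)} = Ann μ w

/-- positive speed in direction `i` -/
def Fast {d : ℕ} {Ω : Type} (X : ℕ → Ω → Site d) (i : Fin d) : Set Ω :=
  {ξ | ∃ v : ℝ, 0 < v ∧ ∀ᶠ n : ℕ in atTop, v * n ≤ X n ξ i}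

/-- negative speed in direction `i` -/
def Slow {d : ℕ} {Ω : Type} (X : ℕ → Ω → Site d) (i : Fin d) : Set Ω :=
  {ξ | ∃ v : ℝ, 0 < v ∧ ∀ᶠ n : ℕ in atTop, (X n ξ i : ℝ) ≤ -(v * n)}


end Vale.Agent.P147
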